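import Vale.Agent.P208.Shift

open scoped Classical InnerProductSpace

namespace Vale.Agent.P208

variable {H : Type} [NormedAddCommGroup H] [InnerProductSpace ℝ H]

theorem big_bud {l l' r β s : ℝ} (hl : 0 < l) (hl' : 0 ≤ l') (hl'' : l' ≤ 3 / 10 * l) (hr : 0 < r)
    (hsl : l / 8 ≤ s) (h : r / 4 ≤ l) : bud r β s l + 65 ≤ bud r β s l' := by
  have h1 : l / 2 ≤ min l (4 * s) := le_min (by linarith) (by linarith)
  have h2 : min l' (4 * s) ≤ 3 / 10 * l := (min_le_left _ _).trans hl''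
  have h3 : 0 ≤ min l' (4 * s) := le_min hl' (by linarith)
  have h4 : (l / 2) ^ 2 ≤ min l (4 * s) ^ 2 := pow_le_pow_left₀ (by linarith) h1 2
  have h5 : min l' (4 * s) ^ 2 ≤ (3 / 10 * l) ^ 2 := pow_le_pow_left₀ h3 h2 2
  have h6 : (r / 4) ^ 2 ≤ l ^ 2 := pow_le_pow_left₀ (by linarith) h 2
  have hr2 : 0 < r ^ 2 := by positivity
  unfold bud
  generalize min l (4 * s) ^ 2 = A at *
  generalize min l' (4 * s) ^ 2 = B at *
  have h7 : (130000 * s ^ 2 - 2 * β ^ 2 - 7000 * A + 65 * r ^ 2) / r ^ 2 ≤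
      (130000 * s ^ 2 - 2 * β ^ 2 - 7000 * B) / r ^ 2 :=
    div_le_div_of_nonneg_right (by nlinarith) hr2.le
  rw [add_div, mul_div_assoc, div_self hr2.ne'] at h7
  linarith

theorem big_case {Q N : Finset H} {w : H} {l l' r β s : ℝ} (hQ : VS Q w l) (hl : 0 < l)
    (hl' : 0 ≤ l') (hl'' : l' ≤ 3 / 10 * l) (c v : H) (hv : ‖v‖ ≤ l / 4)
    (hN : ∀ y ∈ N, (∃ t : ℝ, 0 ≤ t ∧ t ≤ 1 ∧ ‖y - (c + t • v)‖ ≤ l / 512) ∧ ‖y - w‖ ≤ 6 / 10 * l)
    (hr : 0 < r) (hβ0 : 0 ≤ β) (hβ : β ≤ r) (hs : s ≤ 32 * r) (hsl : l / 8 ≤ s) :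
    Cv (ann (Q ∪ N) w β s) (bud r β s l') r := by
  have hs0 : 0 ≤ s := by linarith
  have hanti : bud r β s l ≤ bud r β s l' := bud_anti hr hs0 hl' (by linarith)
  rcases le_or_gt (r / 4) l with h | h
  · have h1 : Cv (N : Set H) 65 r := Cv.line c v hr (by linarith) fun y hy => by
      obtain ⟨t, t0, t1, ht⟩ := (hN y hy).1
      exact ⟨t, t0, t1, by linarith⟩
    refine ((hQ r β s hr hβ0 hβ hs0 hs).union h1).mono ?_ (big_bud hl hl' hl'' hr hsl h) le_rfl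
    rintro y ⟨hy, h2, h3⟩
    rcases Finset.mem_union.mp hy with hy | hy
    · exact Or.inl ⟨hy, h2, h3⟩
    · exact Or.inr hy
  · rcases le_or_gt β (6 / 10 * l) with h' | h'
    · have h1 : Cv {y : H | ‖y - w‖ ≤ r} 1 r := Cv.ball w fun y hy => hy
      refine (h1.union (hQ r r s hr hr.le le_rfl hs0 hs)).mono ?_
        ((bud_center hr hβ0 (by linarith)).trans hanti) le_rfl
      rintro y ⟨hy, -, h3⟩
      rcases le_total ‖y - w‖ r with h4 | h4
      · exact Or.inl h4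
      · rcases Finset.mem_union.mp hy with hy | hy
        · exact Or.inr ⟨hy, h4, h3⟩
        · have := (hN y hy).2
          exact Or.inl (show ‖y - w‖ ≤ r by linarith)
    · refine (hQ r β s hr hβ0 hβ hs0 hs).mono ?_ hanti le_rfl
      rintro y ⟨hy, h2, h3⟩
      rcases Finset.mem_union.mp hy with hy | hy
      · exact ⟨hy, h2, h3⟩
      · have := (hN y hy).2
        linarith

end Vale.Agent.P208
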