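import Vale.Agent.P208.WinBasic

open scoped Classical InnerProductSpace

namespace Vale.Agent.P208

variable {H : Type} [NormedAddCommGroup H] [InnerProductSpace ℝ H]

variable {V : Type} [NormedAddCommGroup V] [InnerProductSpace ℝ V]

theorem subseq_fin [FiniteDimensional ℝ V] (P : Finset H) (ψ : ℕ → H → V) (M : ℝ)
    (hM : ∀ n, ∀ x ∈ P, ‖ψ n x‖ ≤ M) :
    ∃ (σ : ℕ → ℕ) (φ : H → V), StrictMono σ ∧
      ∀ x ∈ P, Filter.Tendsto (fun n => ψ (σ n) x) Filter.atTop (nhds (φ x)) := by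
  have : ProperSpace V := FiniteDimensional.proper_real V
  have hb : Bornology.IsBounded (Metric.closedBall (0 : ↥P → V) |M|) := Metric.isBounded_closedBall
  obtain ⟨f, -, σ, hσ, hf⟩ := tendsto_subseq_of_bounded hb
    (x := fun n => fun x : ↥P => ψ n x) (fun n => by
      rw [mem_closedBall_zero_iff, pi_norm_le_iff_of_nonneg (abs_nonneg M)]
      exact fun x => (hM n x x.2).trans (le_abs_self M))
  refine ⟨σ, fun x => if hx : x ∈ P then f ⟨x, hx⟩ else 0, hσ, fun x hx => ?_⟩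
  simp only [dif_pos hx]
  exact tendsto_pi_nhds.mp hf ⟨x, hx⟩

theorem Compact.bilip_lim {D : ℝ} {P : Finset H} {ψ : ℕ → H → V} {φ : H → V}
    (h : ∀ n, BiLip D P (ψ n))
    (hl : ∀ x ∈ P, Filter.Tendsto (fun n => ψ n x) Filter.atTop (nhds (φ x))) : BiLip D P φ := by
  intro x hx y hy
  have h1 := ((hl x hx).sub (hl y hy)).norm
  exact ⟨ge_of_tendsto' h1 fun n => (h n x hx y hy).1, le_of_tendsto' h1 fun n => (h n x hx y hy).2⟩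

theorem Compact.bd {D : ℝ} {P : Finset H} {φ : H → V} (h : BiLip D P φ) (h0 : (0 : H) ∈ P)
    {x : H} (hx : x ∈ P) : ‖φ x‖ ≤ ‖φ 0‖ + |D| * ∑ y ∈ P, ‖y‖ := by
  have h1 := (h x hx 0 h0).2
  rw [sub_zero] at h1
  have h2 : ‖x‖ ≤ ∑ y ∈ P, ‖y‖ := Finset.single_le_sum (fun y _ => norm_nonneg y) hx
  have h3 : D * ‖x‖ ≤ |D| * ∑ y ∈ P, ‖y‖ :=
    mul_le_mul (le_abs_self D) h2 (norm_nonneg _) (abs_nonneg _)
  have h4 : ‖φ x‖ ≤ ‖φ 0‖ + ‖φ x - φ 0‖ := by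
    refine le_trans (le_of_eq ?_) (norm_add_le _ _)
    congr 1; abel
  linarith

theorem Compact.child [FiniteDimensional ℝ V] {D : ℝ} {P : Finset H} (c : GT H)
    (hPc : P ⊆ c.root) (h0 : (0 : H) ∈ P)
    (ih : ∀ (ε : ℕ → ℝ) (ψ : ℕ → H → V) (φ : H → V), Filter.Tendsto ε Filter.atTop (nhds 0) →
      (∀ n, EmbE D (ε n) c (ψ n)) →
      (∀ x ∈ c.root, Filter.Tendsto (fun n => ψ n x) Filter.atTop (nhds (φ x))) →
      EmbE D 0 c φ)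
    {ε : ℕ → ℝ} {ψ : ℕ → H → V} {φ : H → V} (hε : Filter.Tendsto ε Filter.atTop (nhds 0))
    (h : ∀ n, ∃ χ : H → V, (∀ x ∈ P, ‖χ x - ψ n x‖ ≤ ε n) ∧ EmbE D (ε n) c χ)
    (hl : ∀ x ∈ P, Filter.Tendsto (fun n => ψ n x) Filter.atTop (nhds (φ x))) :
    ∃ χ : H → V, (∀ x ∈ P, ‖χ x - φ x‖ ≤ 0) ∧ EmbE D 0 c χ := by
  choose χ hχ1 hχ2 using h
  obtain ⟨M, hM⟩ := ((hl 0 h0).norm.add hε).bddAbove_range
  have hb : ∀ n, ∀ x ∈ c.root, ‖χ n x‖ ≤ M + |D| * ∑ y ∈ c.root, ‖y‖ := by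
    intro n x hx
    have h1 := Compact.bd (emb_bilip (hχ2 n)) (hPc h0) hx
    have h2 : ‖ψ n 0‖ + ε n ≤ M := hM ⟨n, rfl⟩
    have h3 : ‖χ n 0‖ ≤ ‖ψ n 0‖ + ‖χ n 0 - ψ n 0‖ := by
      refine le_trans (le_of_eq ?_) (norm_add_le _ _)
      congr 1; abel
    have h4 := hχ1 n 0 h0
    linarith
  obtain ⟨σ, φ', hσ, hφ'⟩ := subseq_fin c.root χ _ hb
  have hε' := hε.comp hσ.tendsto_atTop
  refine ⟨φ', fun x hx => ?_, ih (fun n => ε (σ n)) (fun n => χ (σ n)) φ' hε'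
    (fun n => hχ2 (σ n)) hφ'⟩
  have h1 := ((hφ' x (hPc hx)).sub ((hl x hx).comp hσ.tendsto_atTop)).norm
  exact le_of_tendsto_of_tendsto' h1 hε' fun n => hχ1 (σ n) x hx

theorem emb_limit [FiniteDimensional ℝ V] {D : ℝ} (t : GT H) : t.Good → (0 : H) ∈ t.root →
    ∀ (ε : ℕ → ℝ) (ψ : ℕ → H → V) (φ : H → V), Filter.Tendsto ε Filter.atTop (nhds 0) →
      (∀ n, EmbE D (ε n) t (ψ n)) →
      (∀ x ∈ t.root, Filter.Tendsto (fun n => ψ n x) Filter.atTop (nhds (φ x))) →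
      EmbE D 0 t φ := by
  induction t with
  | leaf P =>
    intro _ _ ε ψ φ _ h hl
    exact Compact.bilip_lim (P := P) h hl
  | node P l r ihl ihr =>
    intro hg h0 ε ψ φ hε h hl
    obtain ⟨g1, g2, g3, g4⟩ := hg
    have h0' : (0 : H) ∈ P := h0
    exact ⟨Compact.bilip_lim (P := P) (fun n => (h n).1) hl,
      Compact.child l g1 h0' (ihl g3 (g1 h0')) hε (fun n => (h n).2.1) hl,
      Compact.child r g2 h0' (ihr g4 (g2 h0')) hε (fun n => (h n).2.2) hl⟩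

theorem compact_eps [FiniteDimensional ℝ V] {D : ℝ} {t : GT H} (hg : t.Good)
    (h0 : (0 : H) ∈ t.root) (h : ∀ φ : H → V, ¬ EmbE D 0 t φ) :
    ∃ ε : ℝ, 0 < ε ∧ ∀ φ : H → V, φ 0 = 0 → ¬ EmbE D ε t φ := by
  by_contra hc
  push Not at hc
  choose ψ hψ0 hψ using fun n : ℕ => hc (1 / ((n : ℝ) + 1)) (by positivity)
  have hb : ∀ n, ∀ x ∈ t.root, ‖ψ n x‖ ≤ |D| * ∑ y ∈ t.root, ‖y‖ := by
    intro n x hx
    have h1 := Compact.bd (emb_bilip (hψ n)) h0 hx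
    rwa [hψ0 n, norm_zero, zero_add] at h1
  obtain ⟨σ, φ, hσ, hφ⟩ := subseq_fin t.root ψ _ hb
  exact h φ (emb_limit t hg h0 (fun n => 1 / ((σ n : ℝ) + 1)) (fun n => ψ (σ n)) φ
    (tendsto_one_div_add_atTop_nhds_zero_nat.comp hσ.tendsto_atTop) (fun n => hψ (σ n)) hφ)

end Vale.Agent.P208
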