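import Vale.Agent.P208.Defs

open scoped Classical InnerProductSpace

namespace Vale.Agent.P208

variable {H : Type} [NormedAddCommGroup H] [InnerProductSpace ℝ H]

theorem Cv.mono {A B : Set H} {n n' r r' : ℝ} (h : Cv A n r) (hBA : B ⊆ A) (hn : n ≤ n')
    (hr : r ≤ r') : Cv B n' r' := by
  obtain ⟨F, h1, h2⟩ := h
  refine ⟨F, h1.trans hn, fun y hy => ?_⟩
  obtain ⟨c, hc, h3⟩ := h2 y (hBA hy)
  exact ⟨c, hc, h3.trans hr⟩

theorem Cv.union {A B : Set H} {n n' r : ℝ} (h1 : Cv A n r) (h2 : Cv B n' r) :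
    Cv (A ∪ B) (n + n') r := by
  obtain ⟨F, a1, a2⟩ := h1
  obtain ⟨G, b1, b2⟩ := h2
  refine ⟨F ∪ G, ?_, fun y hy => ?_⟩
  · have : ((F ∪ G).card : ℝ) ≤ F.card + G.card := by exact_mod_cast Finset.card_union_le F G
    linarith
  · rcases hy with hy | hy
    · obtain ⟨c, hc, h3⟩ := a2 y hy
      exact ⟨c, Finset.mem_union_left _ hc, h3⟩
    · obtain ⟨c, hc, h3⟩ := b2 y hy
      exact ⟨c, Finset.mem_union_right _ hc, h3⟩

theorem Cv.of_empty {A : Set H} {n r : ℝ} (hA : ∀ y, y ∉ A) (hn : 0 ≤ n) : Cv A n r := by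
  exact ⟨∅, by simpa using hn, fun y hy => absurd hy (hA y)⟩

theorem Cv.ball {A : Set H} {r : ℝ} (c : H) (hA : ∀ y ∈ A, ‖y - c‖ ≤ r) : Cv A 1 r := by
  exact ⟨{c}, by simp, fun y hy => ⟨c, Finset.mem_singleton_self c, hA y hy⟩⟩

theorem Cv.of_finset {A : Set H} {n r : ℝ} (F : Finset H) (hA : ∀ y ∈ A, y ∈ F)
    (hn : (F.card : ℝ) ≤ n) (hr : 0 ≤ r) : Cv A n r := by
  exact ⟨F, hn, fun y hy => ⟨y, hA y hy, by simpa using hr⟩⟩

theorem Cv.line {A : Set H} {r : ℝ} (w v : H) (hr : 0 < r) (hv : ‖v‖ ≤ 64 * r)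
    (hA : ∀ y ∈ A, ∃ t : ℝ, 0 ≤ t ∧ t ≤ 1 ∧ ‖y - (w + t • v)‖ ≤ r / 2) : Cv A 65 r := by
  refine ⟨(Finset.range 65).image fun j : ℕ => w + ((j : ℝ) / 64) • v, ?_, fun y hy => ?_⟩
  · have := Finset.card_image_le (s := Finset.range 65) (f := fun j : ℕ => w + ((j : ℝ) / 64) • v)
    rw [Finset.card_range] at this
    exact_mod_cast this
  · obtain ⟨t, t0, t1, ht⟩ := hA y hy
    obtain ⟨j, hj⟩ : ∃ j : ℕ, j = ⌊64 * t + 1 / 2⌋₊ := ⟨_, rfl⟩
    have h1 : (j : ℝ) ≤ 64 * t + 1 / 2 := by rw [hj]; exact Nat.floor_le (by positivity)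
    have h2 : 64 * t + 1 / 2 < j + 1 := by rw [hj]; exact Nat.lt_floor_add_one _
    have h3 : j < 65 := by
      have : (j : ℝ) < 65 := by linarith
      exact_mod_cast this
    refine ⟨w + ((j : ℝ) / 64) • v, Finset.mem_image.mpr ⟨j, Finset.mem_range.mpr h3, rfl⟩, ?_⟩
    have e : y - (w + ((j : ℝ) / 64) • v) = (y - (w + t • v)) + (t - (j : ℝ) / 64) • v := by
      rw [sub_smul]; abel
    have h4 : |t - (j : ℝ) / 64| ≤ 1 / 128 := abs_le.mpr ⟨by linarith, by linarith⟩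
    have h5 : ‖(t - (j : ℝ) / 64) • v‖ ≤ r / 2 := by
      rw [norm_smul, Real.norm_eq_abs]
      calc |t - (j : ℝ) / 64| * ‖v‖ ≤ 1 / 128 * (64 * r) :=
            mul_le_mul h4 hv (norm_nonneg _) (by norm_num)
        _ = r / 2 := by ring
    rw [e]
    exact (norm_add_le _ _).trans (by linarith)

theorem cover_extend {P P' : Finset H} (hP : Cover P)
    (hnew : ∀ y ∈ P', y ∉ P → ViewAll P' y) : Cover P' := by
  intro w s hs
  by_cases h : ∃ y0 ∈ P', y0 ∉ P ∧ ‖y0 - w‖ ≤ s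
  · obtain ⟨y0, h1, h2, h3⟩ := h
    refine (hnew y0 h1 h2 (2 * s) (by positivity)).mono ?_ le_rfl (by linarith)
    rintro y ⟨hy, hy'⟩
    refine ⟨hy, ?_⟩
    have e : y - y0 = (y - w) - (y0 - w) := by abel
    rw [e]
    exact (norm_sub_le _ _).trans (by linarith)
  · refine (hP w s hs).mono ?_ le_rfl le_rfl
    rintro y ⟨hy, hy'⟩
    refine ⟨?_, hy'⟩
    by_contra hn
    exact h ⟨y, hy, hn, hy'⟩

theorem ViewAll.mono {P P' : Finset H} {w : H} (h : ViewAll P' w) (hPP : P ⊆ P') :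
    ViewAll P w := by
  intro s hs
  exact (h s hs).mono (fun y hy => ⟨hPP hy.1, hy.2⟩) le_rfl le_rfl

theorem cover_of_card {P : Finset H} (h : P.card ≤ 2) : Cover P := by
  intro w s hs
  refine Cv.of_finset P (fun y hy => hy.1) ?_ (by positivity)
  have : (P.card : ℝ) ≤ 2 := by exact_mod_cast h
  unfold C0
  linarith

theorem bud_ge {r β s l : ℝ} (hr : 0 < r) (hβ0 : 0 ≤ β) (hβ : β ≤ r) (hs : 0 ≤ s) (hl : 0 ≤ l) :
    68 ≤ bud r β s l := by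
  have h1 : 0 ≤ min l (4 * s) := le_min hl (by positivity)
  have h2 : min l (4 * s) ≤ 4 * s := min_le_right _ _
  have h3 : (min l (4 * s)) ^ 2 ≤ (4 * s) ^ 2 := pow_le_pow_left₀ h1 h2 2
  have h4 : β ^ 2 ≤ r ^ 2 := pow_le_pow_left₀ hβ0 hβ 2
  have h5 : -2 ≤ (130000 * s ^ 2 - 2 * β ^ 2 - 7000 * (min l (4 * s)) ^ 2) / r ^ 2 := by
    rw [le_div_iff₀ (by positivity)]
    nlinarith [sq_nonneg s]
  unfold bud
  linarith

theorem bud_le {r s l : ℝ} (hr : 0 < r) (hs : 0 ≤ s) (hs' : s ≤ 32 * r) : bud r 0 s l ≤ C1 := by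
  have h4 : s ^ 2 ≤ (32 * r) ^ 2 := pow_le_pow_left₀ hs hs' 2
  have h5 : (130000 * s ^ 2 - 2 * (0 : ℝ) ^ 2 - 7000 * (min l (4 * s)) ^ 2) / r ^ 2 ≤ 133120000 := by
    rw [div_le_iff₀ (by positivity)]
    nlinarith [sq_nonneg (min l (4 * s))]
  unfold bud C1
  linarith

theorem bud_anti {r β s l l' : ℝ} (hr : 0 < r) (hs : 0 ≤ s) (hl' : 0 ≤ l') (hll : l' ≤ l) :
    bud r β s l ≤ bud r β s l' := by
  have h1 : 0 ≤ min l' (4 * s) := le_min hl' (by positivity)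
  have h2 : min l' (4 * s) ≤ min l (4 * s) := min_le_min hll le_rfl
  have h3 := pow_le_pow_left₀ h1 h2 2
  unfold bud
  have h4 : (130000 * s ^ 2 - 2 * β ^ 2 - 7000 * (min l (4 * s)) ^ 2) / r ^ 2 ≤
      (130000 * s ^ 2 - 2 * β ^ 2 - 7000 * (min l' (4 * s)) ^ 2) / r ^ 2 :=
    div_le_div_of_nonneg_right (by linarith) (by positivity)
  linarith

theorem bud_center {r β s l : ℝ} (hr : 0 < r) (hβ0 : 0 ≤ β) (hβ : β ≤ r / 2) :
    1 + bud r r s l ≤ bud r β s l := by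
  have h4 : β ^ 2 ≤ (r / 2) ^ 2 := pow_le_pow_left₀ hβ0 hβ 2
  have hr2 : 0 < r ^ 2 := by positivity
  unfold bud
  have h5 : 1 + (130000 * s ^ 2 - 2 * r ^ 2 - 7000 * (min l (4 * s)) ^ 2) / r ^ 2 ≤
      (130000 * s ^ 2 - 2 * β ^ 2 - 7000 * (min l (4 * s)) ^ 2) / r ^ 2 := by
    rw [add_div' _ _ _ hr2.ne']
    exact div_le_div_of_nonneg_right (by nlinarith) hr2.le
  linarith

end Vale.Agent.P208
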