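import Mathlib

open scoped Classical InnerProductSpace

namespace Vale.Agent.P208

section geom
variable {H : Type} [NormedAddCommGroup H] [InnerProductSpace ℝ H]

/-- `A` is covered by at most `n` closed balls of radius `r` (centres anywhere). -/
def Cv (A : Set H) (n r : ℝ) : Prop :=
  ∃ F : Finset H, (F.card : ℝ) ≤ n ∧ ∀ y ∈ A, ∃ c ∈ F, ‖y - c‖ ≤ r

/-- counting budget -/
noncomputable def bud (r β s l : ℝ) : ℝ :=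
  70 + (130000 * s ^ 2 - 2 * β ^ 2 - 7000 * (min l (4 * s)) ^ 2) / r ^ 2

/-- annulus of points of `Q` seen from `w` -/
def ann (Q : Finset H) (w : H) (β s : ℝ) : Set H :=
  {y | y ∈ Q ∧ β ≤ ‖y - w‖ ∧ ‖y - w‖ ≤ s}

/-- view of `Q` from `w` with slack `l` -/
def VS (Q : Finset H) (w : H) (l : ℝ) : Prop :=
  ∀ r β s : ℝ, 0 < r → 0 ≤ β → β ≤ r → 0 ≤ s → s ≤ 32 * r → Cv (ann Q w β s) (bud r β s l) r

/-- views from all points of the segment `[q,p]` -/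
def Seg (Q : Finset H) (p q : H) : Prop :=
  ∀ t : ℝ, 0 ≤ t → t ≤ 1 → VS Q (q + t • (p - q)) ‖p - q‖

def C1 : ℝ := 133120070
def C0 : ℝ := 266240141

/-- uniform covering property -/
def Cover (P : Finset H) : Prop :=
  ∀ (w : H) (s : ℝ), 0 < s → Cv {y | y ∈ P ∧ ‖y - w‖ ≤ s} C0 (s / 16)

/-- total view from a point -/
def ViewAll (P : Finset H) (w : H) : Prop :=
  ∀ s : ℝ, 0 < s → Cv {y | y ∈ P ∧ ‖y - w‖ ≤ s} C0 (s / 32)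

noncomputable def mid (p q : H) : H := q + (1 / 2 : ℝ) • (p - q)

/-- precondition of a call with older points `P`, centre `m`, size `a` -/
def Pre (P : Finset H) (m : H) (a : ℝ) : Prop :=
  0 < a ∧ (∃ p ∈ P, ∃ q ∈ P, m = mid p q) ∧ (∀ y ∈ P, 100 * a ≤ ‖y - m‖) ∧
  ∀ s : ℝ, 0 < s → Cv {y | y ∈ P ∧ ‖y - m‖ ≤ s ∧ s / 32 - 3 * a ≤ ‖y - m‖} C1 (s / 32)

/-- new points `Q` are within `a` of `m` with offsets orthogonal to `P` -/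
def Fresh (P : Finset H) (m : H) (a : ℝ) (Q : Finset H) : Prop :=
  (∀ y ∈ Q, ‖y - m‖ ≤ a) ∧ ∀ y ∈ Q, ∀ u ∈ P, ⟪y - m, u⟫_ℝ = 0

/-- loop invariant for the current edge `(p,q)` -/
def Jinv (P : Finset H) (m : H) (a : ℝ) (Q : Finset H) (p q : H) : Prop :=
  p ∈ Q ∧ q ∈ Q ∧ p ≠ q ∧ Fresh P m a Q ∧ ‖mid p q - m‖ + ‖p - q‖ ≤ a ∧
  (∀ y ∈ Q, 0 ≤ ⟪y - p, y - q⟫_ℝ) ∧ Seg Q p q

/-- postcondition at an exit with edge `(x,y)` -/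
def Post (P : Finset H) (m : H) (a lam : ℝ) (Q : Finset H) (x y : H) : Prop :=
  x ∈ Q ∧ y ∈ Q ∧ lam * a ≤ ‖x - y‖ ∧ Fresh P m a Q ∧ VS Q x 0 ∧ VS Q y 0 ∧ Cover (P ∪ Q)

/-- the `i`-th mark from `z` in direction `p - q` -/
noncomputable def mk (J : ℕ) (z p q : H) (i : ℕ) : H :=
  z + ((2 : ℝ) ^ i / (4 * 2 ^ J)) • (p - q)

/-- marks `0..i` -/
noncomputable def marks (J : ℕ) (z p q : H) (i : ℕ) : Finset H :=
  (Finset.range (i + 1)).image (mk J z p q)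

/-- data of a finished sub-call seen from the edge `(p,q)`: cluster `N`, focus `z` -/
def Sub (P Q : Finset H) (p q : H) (θ : ℝ) (N : Finset H) (z : H) : Prop :=
  0 < θ ∧ θ ≤ 1 / 512 ∧ z ∈ N ∧ Fresh (P ∪ Q) (mid p q) (θ * ‖p - q‖) N ∧ VS N z 0

end geom

/-- binary strategy trees -/
inductive GT (H : Type) : Type
  | leaf (P : Finset H) : GT H
  | node (P : Finset H) (l r : GT H) : GT H

section game
variable {H : Type} [NormedAddCommGroup H] [InnerProductSpace ℝ H]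
variable {V : Type} [NormedAddCommGroup V] [InnerProductSpace ℝ V]

def GT.root {H : Type} : GT H → Finset H
  | .leaf P => P
  | .node P _ _ => P

noncomputable def GT.pts {H : Type} : GT H → Finset H
  | .leaf P => P
  | .node P l r => P ∪ l.pts ∪ r.pts

def GT.Good : GT H → Prop
  | .leaf P => Cover P
  | .node P l r => P ⊆ l.root ∧ P ⊆ r.root ∧ l.Good ∧ r.Good

def BiLip (D : ℝ) (P : Finset H) (φ : H → V) : Prop :=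
  ∀ x ∈ P, ∀ y ∈ P, ‖x - y‖ ≤ ‖φ x - φ y‖ ∧ ‖φ x - φ y‖ ≤ D * ‖x - y‖

def EmbE (D ε : ℝ) : GT H → (H → V) → Prop
  | .leaf P, φ => BiLip D P φ
  | .node P l r, φ => BiLip D P φ ∧
      (∃ ψ : H → V, (∀ x ∈ P, ‖ψ x - φ x‖ ≤ ε) ∧ EmbE D ε l ψ) ∧
      (∃ ψ : H → V, (∀ x ∈ P, ‖ψ x - φ x‖ ≤ ε) ∧ EmbE D ε r ψ)

/-- the adversary wins from the point set `P` against every map in `K` -/
def Win (D : ℝ) (P : Finset H) (K : Set (H → V)) : Prop :=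
  ∃ t : GT H, t.root = P ∧ t.Good ∧ ∀ φ ∈ K, ¬ EmbE D 0 t φ

/-- `K` depends only on the values on `P` -/
def Det (P : Finset H) (K : Set (H → V)) : Prop :=
  ∀ φ ψ : H → V, (∀ x ∈ P, ψ x = φ x) → φ ∈ K → ψ ∈ K

def Viol (c : ℝ) (p q x y : H) (φ : H → V) : Prop :=
  c * ‖x - y‖ * ‖φ p - φ q‖ ≤ |⟪φ p - φ q, φ x - φ y⟫_ℝ|

def Orth (c : ℝ) (L : List (H × H)) (φ : H → V) : Prop :=
  (∀ E ∈ L, φ E.1 ≠ φ E.2) ∧
  L.Pairwise (fun E E' => |⟪φ E.1 - φ E.2, φ E'.1 - φ E'.2⟫_ℝ| ≤ c * ‖φ E.1 - φ E.2‖ * ‖φ E'.1 - φ E'.2‖)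

/-- a fresh unit direction always exists -/
def HasFresh (H : Type) [NormedAddCommGroup H] [InnerProductSpace ℝ H] : Prop :=
  ∀ P : Finset H, ∃ e : H, ‖e‖ = 1 ∧ ∀ u ∈ P, ⟪e, u⟫_ℝ = 0

/-- hypotheses on a time-indexed family of maps over a window of length `T` -/
def Window (D : ℝ) (T : ℕ) (Z : ℕ → Finset H) (F : ℕ → H → V) (u : V) (S : ℝ) : Prop :=
  (∀ a < T, BiLip D (Z a) (F a) ∧ BiLip D (Z a) (F (a + 1))) ∧
  (∀ a < T, ∀ x ∈ Z a, ‖F (a + 1) x - F a x‖ ^ 2 ≤ S) ∧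
  ∑ a ∈ Finset.range T, (S + ‖u‖ ^ 2 - 2 * ⟪F (a + 1) 0 - F a 0, u⟫_ℝ) ≤ 1

/-- a schedule refuting maps into `ℝ^k` with distortion `D` -/
def Gadget (k D : ℕ) (U : Finset H) (l sep : ℝ) (T : ℕ) (Z : ℕ → Finset H) : Prop :=
  0 < l ∧ 0 < sep ∧ 0 < T ∧ (∀ a, 0 ∈ Z a ∧ Z a ⊆ U ∧ Cover (Z a)) ∧ (∀ x ∈ U, ‖x‖ ≤ l) ∧
  (∀ x ∈ U, ∀ y ∈ U, x ≠ y → sep ≤ ‖x - y‖) ∧
  ∀ (F : ℕ → H → EuclideanSpace ℝ (Fin k)) (u : EuclideanSpace ℝ (Fin k)) (S : ℝ),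
    ‖u‖ ≤ D * (40 * l) → ¬ Window (D : ℝ) T Z F u S

end game

/-- data of all levels -/
structure Sys (H : Type) where
  U : ℕ → Finset H
  l : ℕ → ℝ
  sep : ℕ → ℝ
  T : ℕ → ℕ
  Z : ℕ → ℕ → Finset H
  al : ℕ → ℝ
  R : ℕ → ℕ

section sys
variable {H : Type} [NormedAddCommGroup H] [InnerProductSpace ℝ H]

def ty (n : ℕ) : ℕ × ℕ := Nat.unpair (Nat.unpair n).1

/-- time unit of level `n` -/
def Sys.g (Y : Sys H) (n : ℕ) : ℝ := 40 * Y.l n * Y.al n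

def Sys.OK (Y : Sys H) : Prop :=
  (∀ n, Gadget (ty n).1 (ty n).2 (Y.U n) (Y.l n) (Y.sep n) (Y.T n) (Y.Z n)) ∧
  (∀ n m, ty n = ty m → Y.T n = Y.T m ∧ Y.l n = Y.l m) ∧
  (∀ n, 0 < Y.al n) ∧ (∀ n, 0 < Y.R n) ∧
  (∀ n, Y.g n = (Y.R n : ℝ) * (Y.T (n + 1) : ℝ) * Y.g (n + 1)) ∧
  (∀ n, 100 * (Y.l (n + 1) * Y.al (n + 1)) ≤ Y.sep n * Y.al n) ∧
  (∀ n, 100 * (Y.l (n + 1) * Y.al (n + 1)) ≤ Y.l n * Y.al n)

/-- `y` is a sum over the levels `< n` that is present during the whole time interval `[t1,t2]` -/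
def Sys.Line (Y : Sys H) : ℕ → ℝ → ℝ → H → Prop
  | 0, t1, _, y => 0 ≤ t1 ∧ y = 0
  | n + 1, t1, t2, y => ∃ (y0 : H) (a : ℕ) (x : H), Y.Line n t1 t2 y0 ∧ a * Y.g n ≤ t1 ∧
      t2 ≤ (a + 1) * Y.g n ∧ x ∈ Y.Z n (a % Y.T n) ∧ y = y0 + Y.al n • x

def Sys.Mem (Y : Sys H) (t : ℝ) (y : H) : Prop := ∃ n, Y.Line n t t y

/-- sums over the levels `< n` -/
def Sys.A (Y : Sys H) : ℕ → H → Prop
  | 0, y => y = 0
  | n + 1, y => ∃ (y0 x : H), Y.A n y0 ∧ x ∈ Y.U n ∧ y = y0 + Y.al n • x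

end sys

end Vale.Agent.P208
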