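import Vale.Agent.P208.SysBasic

open scoped Classical InnerProductSpace

namespace Vale.Agent.P208

variable {H : Type} [NormedAddCommGroup H] [InnerProductSpace ℝ H]

variable {V : Type} [NormedAddCommGroup V] [InnerProductSpace ℝ V]

theorem avg_step (h : ℝ → V) (t L : ℝ) (M : ℕ) (hM : 0 < M) :
    ∃ j < M, ‖h (t + M * L) - h t‖ ≤ M * ‖h (t + (j + 1 : ℕ) * L) - h (t + j * L)‖ := by
  have hsum : h (t + M * L) - h t =
      ∑ j ∈ Finset.range M, (h (t + (j + 1 : ℕ) * L) - h (t + j * L)) := by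
    rw [Finset.sum_range_sub (fun j : ℕ => h (t + j * L))]; simp
  have hle : ∑ _j ∈ Finset.range M, ‖h (t + M * L) - h t‖ ≤
      ∑ j ∈ Finset.range M, M * ‖h (t + (j + 1 : ℕ) * L) - h (t + j * L)‖ := by
    rw [Finset.sum_const, Finset.card_range, nsmul_eq_mul, ← Finset.mul_sum]
    refine mul_le_mul_of_nonneg_left ?_ (Nat.cast_nonneg M)
    rw [hsum]; exact norm_sum_le _ _
  obtain ⟨j, hj, hj2⟩ := Finset.exists_le_of_sum_le (Finset.nonempty_range_iff.2 hM.ne') hle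
  exact ⟨j, Finset.mem_range.1 hj, hj2⟩

/-- slope of the unit step `a` of level `n` on the line `y` -/
noncomputable def Sys.val (Y : Sys H) (F : ℝ → H → V) (n a : ℕ) (y : H) : ℝ :=
  ‖F ((a + 1) * Y.g n) y - F (a * Y.g n) y‖ / Y.g n

def Sys.Step (Y : Sys H) (n a : ℕ) (y : H) : Prop :=
  Y.Line (n + 1) (a * Y.g n) ((a + 1) * Y.g n) y

theorem Sys.descend_sub {Y : Sys H} (F : ℝ → H → V) {n a : ℕ} {y : H}
    (h : Y.Step n a y) {M : ℕ} (hM : 0 < M) {L : ℝ} (hL : 0 < L) (hg : Y.g n = M * L) :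
    ∃ b : ℕ, Y.Line (n + 1) (b * L) ((b + 1) * L) y ∧
      Y.val F n a y * L ≤ ‖F ((b + 1) * L) y - F (b * L) y‖ := by
  obtain ⟨j, hj, hle⟩ := avg_step (fun t => F t y) (a * Y.g n) L M hM
  have hjR : (j : ℝ) + 1 ≤ M := by exact_mod_cast hj
  have hMR : (0 : ℝ) < M := by exact_mod_cast hM
  have e1 : ((a * M + j : ℕ) : ℝ) * L = a * Y.g n + j * L := by rw [hg]; push_cast; ring
  have e2 : (((a * M + j : ℕ) : ℝ) + 1) * L = a * Y.g n + (j + 1 : ℕ) * L := by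
    rw [hg]; push_cast; ring
  have e3 : a * Y.g n + M * L = (a + 1) * Y.g n := by rw [hg]; ring
  refine ⟨a * M + j, Sys.line_mono h ?_ ?_, ?_⟩
  · rw [e1]
    have : 0 ≤ (j : ℝ) * L := by positivity
    linarith
  · rw [e2, ← e3]
    push_cast
    have := mul_le_mul_of_nonneg_right hjR hL.le
    linarith
  · rw [e1, e2]
    rw [e3] at hle
    unfold Sys.val
    rw [div_mul_eq_mul_div, div_le_iff₀ (by rw [hg]; positivity)]
    calc _ ≤ (M * ‖F (a * Y.g n + (j + 1 : ℕ) * L) y - F (a * Y.g n + j * L) y‖) * L :=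
          mul_le_mul_of_nonneg_right hle hL.le
      _ = ‖F (a * Y.g n + (j + 1 : ℕ) * L) y - F (a * Y.g n + j * L) y‖ * (M * L) := by ring
      _ = _ := by rw [← hg]

theorem Sys.descend {Y : Sys H} (hY : Y.OK) (F : ℝ → H → V) {n a : ℕ} {y : H}
    (h : Y.Step n a y) {m : ℕ} (hm : n ≤ m) :
    ∃ a', Y.Step m a' y ∧ Y.val F n a y ≤ Y.val F m a' y := by
  induction m, hm using Nat.le_induction with
  | base => exact ⟨a, h, le_rfl⟩
  | succ m _ ih =>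
    obtain ⟨a', h1, h2⟩ := ih
    have hT : 0 < Y.T (m + 1) := (hY.1 (m + 1)).2.2.1
    have hg := Sys.g_pos hY (m + 1)
    obtain ⟨b, hb1, hb2⟩ := Sys.descend_sub F h1 (M := Y.R m * Y.T (m + 1))
      (Nat.mul_pos (hY.2.2.2.1 m) hT) hg (by rw [hY.2.2.2.2.1 m]; push_cast; ring)
    refine ⟨b, Sys.line_succ hY hb1 le_rfl le_rfl, h2.trans ?_⟩
    exact (le_div_iff₀ hg).2 hb2

theorem Sys.descendW {Y : Sys H} (hY : Y.OK) (F : ℝ → H → V) {n a : ℕ} {y : H}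
    (h : Y.Step n a y) :
    ∃ b : ℕ, Y.Line (n + 1) (b * (Y.T (n + 1) * Y.g (n + 1)))
        ((b + 1) * (Y.T (n + 1) * Y.g (n + 1))) y ∧
      Y.val F n a y * (Y.T (n + 1) * Y.g (n + 1)) ≤
        ‖F ((b + 1) * (Y.T (n + 1) * Y.g (n + 1))) y - F (b * (Y.T (n + 1) * Y.g (n + 1))) y‖ := by
  have hT : (0 : ℝ) < Y.T (n + 1) := by exact_mod_cast (hY.1 (n + 1)).2.2.1
  have hg := Sys.g_pos hY (n + 1)
  exact Sys.descend_sub F h (M := Y.R n) (hY.2.2.2.1 n) (mul_pos hT hg)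
    (by rw [hY.2.2.2.2.1 n]; ring)

end Vale.Agent.P208
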