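import Vale.Agent.P208.Defs

open scoped Classical InnerProductSpace

namespace Vale.Agent.P208

variable {H : Type} [NormedAddCommGroup H] [InnerProductSpace ℝ H]

variable {V : Type} [NormedAddCommGroup V] [InnerProductSpace ℝ V]

theorem dim_indep {k : ℕ} {ι : Type} [Fintype ι] (hc : Fintype.card ι = k + 1) (v : ι → V)
    (hv : ∀ i, v i ≠ 0)
    (h : ∀ i j, i ≠ j → |⟪v i, v j⟫_ℝ| ≤ 1 / ((k : ℝ) + 1) * ‖v i‖ * ‖v j‖) :
    LinearIndependent ℝ v := by
  rw [Fintype.linearIndependent_iff]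
  intro g hg
  haveI : Nonempty ι := Fintype.card_pos_iff.1 (by omega)
  obtain ⟨i, hi⟩ := Finite.exists_max (fun j => |g j| * ‖v j‖)
  have hvi : 0 < ‖v i‖ := norm_pos_iff.2 (hv i)
  have h1 : ∑ j, g j * ⟪v i, v j⟫_ℝ = 0 := by
    have : ⟪v i, ∑ j, g j • v j⟫_ℝ = 0 := by rw [hg, inner_zero_right]
    rw [inner_sum] at this
    simpa only [real_inner_smul_right] using this
  rw [← Finset.add_sum_erase _ _ (Finset.mem_univ i), real_inner_self_eq_norm_sq] at h1
  set m : ℝ := |g i| * ‖v i‖ with hm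
  have hm0 : 0 ≤ m := by positivity
  have hk : (0 : ℝ) < (k : ℝ) + 1 := by positivity
  have h2 : |∑ j ∈ Finset.univ.erase i, g j * ⟪v i, v j⟫_ℝ| ≤
      ∑ _j ∈ Finset.univ.erase i, 1 / ((k : ℝ) + 1) * ‖v i‖ * m := by
    refine (Finset.abs_sum_le_sum_abs _ _).trans (Finset.sum_le_sum fun j hj => ?_)
    rw [abs_mul]
    have h3 := mul_le_mul_of_nonneg_left (h i j (Finset.ne_of_mem_erase hj).symm) (abs_nonneg (g j))
    have h4 := mul_le_mul_of_nonneg_left (hi j)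
      (by positivity : 0 ≤ 1 / ((k : ℝ) + 1) * ‖v i‖)
    calc |g j| * |⟪v i, v j⟫_ℝ| ≤ |g j| * (1 / ((k : ℝ) + 1) * ‖v i‖ * ‖v j‖) := h3
      _ = 1 / ((k : ℝ) + 1) * ‖v i‖ * (|g j| * ‖v j‖) := by ring
      _ ≤ _ := h4
  rw [Finset.sum_const, Finset.card_erase_of_mem (Finset.mem_univ i), Finset.card_univ, hc,
    Nat.add_sub_cancel, nsmul_eq_mul] at h2
  have h5 : |∑ j ∈ Finset.univ.erase i, g j * ⟪v i, v j⟫_ℝ| = m * ‖v i‖ := by
    rw [← neg_eq_of_add_eq_zero_right h1, abs_neg, abs_mul, abs_of_nonneg (sq_nonneg ‖v i‖), hm]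
    ring
  rw [h5] at h2
  have h6 : (k : ℝ) * (1 / ((k : ℝ) + 1) * ‖v i‖ * m) =
      m * ‖v i‖ - 1 / ((k : ℝ) + 1) * (m * ‖v i‖) := by
    field_simp; ring
  have h7 : 1 / ((k : ℝ) + 1) * (m * ‖v i‖) ≤ 0 := by linarith
  have h8 : m * ‖v i‖ ≤ 0 := by
    by_contra hne
    have := mul_pos (by positivity : 0 < 1 / ((k : ℝ) + 1)) (not_le.1 hne)
    linarith
  have h9 : m ≤ 0 := by
    by_contra hne
    have := mul_pos (not_le.1 hne) hvi
    linarith
  intro j
  have h10 : |g j| * ‖v j‖ ≤ 0 := (hi j).trans h9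
  have hvj : 0 < ‖v j‖ := norm_pos_iff.2 (hv j)
  by_contra hne
  have := mul_pos (abs_pos.2 hne) hvj
  linarith

theorem orth_false [FiniteDimensional ℝ V] {k : ℕ} (hk : Module.finrank ℝ V ≤ k)
    {L : List (H × H)} (hL : L.length = k + 1) {φ : H → V}
    (h : Orth (1 / ((k : ℝ) + 1)) L φ) : False := by
  obtain ⟨h1, h2⟩ := h
  rw [List.pairwise_iff_get] at h2
  have hli := dim_indep (k := k) (ι := Fin L.length) (by simpa using hL)
    (fun i => φ (L.get i).1 - φ (L.get i).2)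
    (fun i => sub_ne_zero.2 (h1 _ (List.get_mem L i))) (fun i j hij => by
      rcases lt_or_gt_of_ne hij with hlt | hlt
      · exact h2 i j hlt
      · have := h2 j i hlt
        rw [real_inner_comm]
        refine this.trans (le_of_eq ?_)
        ring)
  have := hli.fintype_card_le_finrank
  rw [Fintype.card_fin] at this
  omega

end Vale.Agent.P208
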