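import Vale.Agent.P208.SysBasic

open scoped Classical InnerProductSpace

namespace Vale.Agent.P208

variable {H : Type} [NormedAddCommGroup H] [InnerProductSpace ℝ H]

theorem doubling_piece {Z : Finset H} (hZ : Cover Z) {al s : ℝ} (hal : 0 < al) (hs : 0 < s)
    (b y0 : H) :
    Cv {y | ∃ x ∈ Z, ‖y - (b + al • x)‖ ≤ 1 / 10 * s ∧ ‖y - y0‖ ≤ s} C0 (18 / 100 * s) := by
  obtain ⟨F, hF, h⟩ := hZ (al⁻¹ • (y0 - b)) (11 / 10 * s / al) (by positivity)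
  refine ⟨F.image fun c => b + al • c, le_trans (by exact_mod_cast Finset.card_image_le) hF, ?_⟩
  rintro y ⟨x, hx, h1, h2⟩
  have e : x - al⁻¹ • (y0 - b) = al⁻¹ • ((y - y0) - (y - (b + al • x))) := by
    rw [show (y - y0) - (y - (b + al • x)) = al • x - (y0 - b) by abel, smul_sub al⁻¹ (al • x),
      smul_smul, inv_mul_cancel₀ hal.ne', one_smul]
  obtain ⟨c, hc, h3⟩ := h x ⟨hx, by
    rw [e, norm_smul, Real.norm_eq_abs, abs_of_pos (inv_pos.2 hal), div_eq_inv_mul]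
    exact mul_le_mul_of_nonneg_left ((norm_sub_le _ _).trans (by linarith)) (inv_pos.2 hal).le⟩
  refine ⟨_, Finset.mem_image_of_mem _ hc, ?_⟩
  have e2 : y - (b + al • c) = (y - (b + al • x)) + al • (x - c) := by
    rw [smul_sub]; abel
  have h4 : ‖al • (x - c)‖ ≤ 11 / 160 * s := by
    rw [norm_smul, Real.norm_eq_abs, abs_of_pos hal]
    calc al * ‖x - c‖ ≤ al * (11 / 10 * s / al / 16) := mul_le_mul_of_nonneg_left h3 hal.le
      _ = 11 / 160 * s := by field_simp; norm_num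
  rw [e2]
  exact (norm_add_le _ _).trans (by linarith)

theorem Sys.slice {Y : Sys H} (hY : Y.OK) {t0 s : ℝ} {y0 : H} (h0 : Y.Mem t0 y0) (hs : 0 < s) :
    Cv {y | ∃ t, Y.Mem t y ∧ |t - t0| ≤ s ∧ ‖y - y0‖ ≤ s} (3 * C0) (18 / 100 * s) := by
  by_cases hb : s < 20 * (Y.l 0 * Y.al 0)
  swap
  · refine (Cv.ball (r := 18 / 100 * s) 0 ?_).mono subset_rfl (by norm_num [C0]) le_rfl
    rintro y ⟨t, ht, -, -⟩
    have := Sys.mem_norm hY ht
    rw [sub_zero]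
    linarith [not_lt.1 hb]
  obtain ⟨n, hn1, hn2⟩ := Sys.scale hY hs hb
  obtain ⟨b0, a0, x0, hb0, ha1, ha2, hx0, he0⟩ := Sys.decomp hY h0 n
  have hG := hY.1 n
  have hal := hY.2.2.1 n
  have hL := hY.2.2.2.2.2.2 n
  have hg := Sys.g_pos hY n
  have hgL : Y.g n = 40 * (Y.l n * Y.al n) := by unfold Sys.g; ring
  have hnx : ∀ a, ∀ x ∈ Y.Z n a, ‖Y.al n • x‖ ≤ Y.l n * Y.al n := by
    intro a x hx
    rw [norm_smul, Real.norm_eq_abs, abs_of_pos hal, mul_comm]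
    exact mul_le_mul_of_nonneg_right (hG.2.2.2.2.1 x ((hG.2.2.2.1 a).2.1 hx)) hal.le
  have hp := fun a => doubling_piece (hG.2.2.2.1 (a % Y.T n)).2.2 hal hs b0 y0
  refine (((hp (a0 - 1)).union (hp a0)).union (hp (a0 + 1))).mono ?_ (by linarith) le_rfl
  rintro y ⟨t, ht, h1, h2⟩
  obtain ⟨b, a, x, hb', hb1, hb2, hx, he⟩ := Sys.decomp hY ht n
  have hbb : b = b0 := by
    by_contra hne
    have h3 := Sys.A_sep hY hb' hb0 hne
    have e : b - b0 = (y - y0) - (y - (b + Y.al n • x)) + (y0 - (b0 + Y.al n • x0)) -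
        Y.al n • x + Y.al n • x0 := by abel
    have h4 : ‖b - b0‖ ≤ ‖y - y0‖ + ‖y - (b + Y.al n • x)‖ + ‖y0 - (b0 + Y.al n • x0)‖ +
        ‖Y.al n • x‖ + ‖Y.al n • x0‖ := by
      rw [e]
      refine (norm_add_le _ _).trans (add_le_add ((norm_sub_le _ _).trans (add_le_add
        ((norm_add_le _ _).trans (add_le_add (norm_sub_le _ _) le_rfl)) le_rfl)) le_rfl)
    linarith [hnx _ x hx, hnx _ x0 hx0]
  subst hbb
  have h5 := abs_le.1 h1
  have c1 : a < a0 + 2 := by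
    have : (a : ℝ) * Y.g n < (a0 + 2) * Y.g n := by linarith
    exact_mod_cast lt_of_mul_lt_mul_right this hg.le
  have c2 : a0 < a + 2 := by
    have : (a0 : ℝ) * Y.g n < (a + 2) * Y.g n := by linarith
    exact_mod_cast lt_of_mul_lt_mul_right this hg.le
  have hm : ∃ x ∈ Y.Z n (a % Y.T n), ‖y - (b + Y.al n • x)‖ ≤ 1 / 10 * s ∧ ‖y - y0‖ ≤ s :=
    ⟨x, hx, by linarith, h2⟩
  rcases (by omega : a = a0 - 1 ∨ a = a0 ∨ a = a0 + 1) with h | h | h
  · exact Or.inl (Or.inl (h ▸ hm))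
  · exact Or.inl (Or.inr (h ▸ hm))
  · exact Or.inr (h ▸ hm)

theorem doubling_times (t0 : ℝ) {s : ℝ} (hs : 0 < s) : ∃ T : Finset ℝ, T.card ≤ 21 ∧
    ∀ t, |t - t0| ≤ s → ∃ c ∈ T, |t - c| ≤ 5 / 100 * s := by
  refine ⟨(Finset.range 21).image fun j : ℕ => t0 - s + j * (s / 10),
    Finset.card_image_le.trans (Finset.card_range 21).le, fun t h1 => ?_⟩
  have h5 := abs_le.1 h1
  set u := (t - t0 + s) / (s / 10) with hu
  have hu' : u * (s / 10) = t - t0 + s := by rw [hu]; field_simp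
  have hu0 : 0 ≤ u := div_nonneg (by linarith) (by positivity)
  have hu1 : u ≤ 20 := by rw [hu, div_le_iff₀ (by positivity)]; linarith
  have f1 := Nat.floor_le (a := u + 1 / 2) (by linarith)
  have f2 := Nat.lt_floor_add_one (u + 1 / 2)
  have hj : ⌊u + 1 / 2⌋₊ < 21 := by
    have : (⌊u + 1 / 2⌋₊ : ℝ) < 21 := by linarith
    exact_mod_cast this
  generalize ⌊u + 1 / 2⌋₊ = j at f1 f2 hj
  refine ⟨t0 - s + j * (s / 10),
    Finset.mem_image_of_mem (fun j : ℕ => t0 - s + j * (s / 10)) (Finset.mem_range.2 hj), ?_⟩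
  rw [abs_le]
  constructor <;> nlinarith

theorem Sys.doub {Y : Sys H} (hY : Y.OK) {t0 s : ℝ} {y0 : H} (h0 : Y.Mem t0 y0) (hs : 0 < s) :
    ∃ G : Finset (ℝ × H), (G.card : ℝ) ≤ 63 * C0 ∧ ∀ (t : ℝ) (y : H), Y.Mem t y → |t - t0| ≤ s →
      ‖y - y0‖ ≤ s → ∃ c ∈ G, |t - c.1| + ‖y - c.2‖ ≤ 24 / 100 * s := by
  obtain ⟨F, hF, h⟩ := Sys.slice hY h0 hs
  obtain ⟨T, hT, h'⟩ := doubling_times t0 hs
  refine ⟨T ×ˢ F, ?_, fun t y ht h1 h2 => ?_⟩
  · rw [Finset.card_product]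
    have : (T.card : ℝ) ≤ 21 := by exact_mod_cast hT
    push_cast
    calc _ ≤ 21 * (3 * C0) := mul_le_mul this hF (Nat.cast_nonneg _) (by norm_num)
      _ = _ := by ring
  · obtain ⟨c, hc, h3⟩ := h y ⟨t, ht, h1, h2⟩
    obtain ⟨c', hc', h4⟩ := h' t h1
    refine ⟨(c', c), Finset.mk_mem_product hc' hc, ?_⟩
    dsimp only
    linarith

end Vale.Agent.P208
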