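import Vale.Agent.P208.Doubling

open scoped Classical InnerProductSpace

namespace Vale.Agent.P208

variable {H : Type} [NormedAddCommGroup H] [InnerProductSpace ℝ H]

variable {E : Type} [NormedAddCommGroup E] [InnerProductSpace ℝ E]

/-- the subset of the ambient space -/
def Sys.X (Y : Sys H) (ι : H →ₗᵢ[ℝ] E) (τ : E) : Set E := {w | ∃ t y, Y.Mem t y ∧ w = t • τ + ι y}

theorem psi_norm (ι : H →ₗᵢ[ℝ] E) {τ : E} (hτ : ‖τ‖ = 1) (hι : ∀ y, ⟪τ, ι y⟫_ℝ = 0)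
    (t t' : ℝ) (y y' : H) :
    ‖(t • τ + ι y) - (t' • τ + ι y')‖ ^ 2 = (t - t') ^ 2 + ‖y - y'‖ ^ 2 := by
  have e : (t • τ + ι y) - (t' • τ + ι y') = (t - t') • τ + ι (y - y') := by
    rw [sub_smul, map_sub]; abel
  rw [e, norm_add_sq_real, inner_smul_left, hι, norm_smul, hτ, ι.norm_map, Real.norm_eq_abs]
  simp

theorem Sys.X_doubling {Y : Sys H} (hY : Y.OK) (ι : H →ₗᵢ[ℝ] E) {τ : E} (hτ : ‖τ‖ = 1)
    (hι : ∀ y, ⟪τ, ι y⟫_ℝ = 0) :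
    ∃ lam : ℕ, ∀ x ∈ Y.X ι τ, ∀ r : ℝ, 0 < r → ∃ G : Finset E, (↑G : Set E) ⊆ Y.X ι τ ∧
      G.card ≤ lam ∧ Y.X ι τ ∩ Metric.closedBall x r ⊆ ⋃ c ∈ G, Metric.ball c (r / 2) := by
  refine ⟨⌈63 * C0⌉₊, ?_⟩
  rintro _ ⟨t0, y0, h0, rfl⟩ r hr
  obtain ⟨G, hG, hc⟩ := Sys.doub hY h0 hr
  let ψ : ℝ × H → E := fun c => c.1 • τ + ι c.2
  have hx0 : t0 • τ + ι y0 ∈ Y.X ι τ := ⟨t0, y0, h0, rfl⟩
  have hp : ∀ c : ℝ × H, ∃ w ∈ Y.X ι τ, ∀ v ∈ Y.X ι τ, ‖v - ψ c‖ ≤ 24 / 100 * r →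
      ‖w - ψ c‖ ≤ 24 / 100 * r := fun c => by
    by_cases h : ∃ v ∈ Y.X ι τ, ‖v - ψ c‖ ≤ 24 / 100 * r
    · obtain ⟨v, hv, hv'⟩ := h
      exact ⟨v, hv, fun _ _ _ => hv'⟩
    · exact ⟨_, hx0, fun v hv hv' => absurd ⟨v, hv, hv'⟩ h⟩
  choose w hw hw' using hp
  refine ⟨G.image w, ?_, ?_, ?_⟩
  · intro v hv
    obtain ⟨c, -, rfl⟩ := Finset.mem_image.mp (Finset.mem_coe.mp hv)
    exact hw c
  · refine Finset.card_image_le.trans ?_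
    exact_mod_cast hG.trans (Nat.le_ceil _)
  · rintro _ ⟨⟨t, y, hm, rfl⟩, hb⟩
    rw [Metric.mem_closedBall, dist_eq_norm] at hb
    have h1 := psi_norm ι hτ hι t t0 y y0
    have h2 := pow_le_pow_left₀ (norm_nonneg _) hb 2
    obtain ⟨c, hcG, hcc⟩ := hc t y hm (abs_le_of_sq_le_sq (by nlinarith [sq_nonneg ‖y - y0‖]) hr.le)
      ((abs_le_of_sq_le_sq' (by nlinarith [sq_nonneg (t - t0)]) hr.le).2)
    have h3 : ‖(t • τ + ι y) - ψ c‖ ≤ 24 / 100 * r := by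
      refine le_trans ((abs_le_of_sq_le_sq' ?_ (by positivity)).2) hcc
      rw [psi_norm ι hτ hι, ← sq_abs (t - c.1)]
      nlinarith [mul_nonneg (abs_nonneg (t - c.1)) (norm_nonneg (y - c.2))]
    have h4 := hw' c _ ⟨t, y, hm, rfl⟩ h3
    refine Set.mem_iUnion₂.mpr ⟨w c, Finset.mem_image_of_mem _ hcG, ?_⟩
    rw [Metric.mem_ball, dist_eq_norm]
    have h5 := norm_sub_le_norm_sub_add_norm_sub (t • τ + ι y) (ψ c) (w c)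
    rw [norm_sub_rev (ψ c)] at h5
    linarith

end Vale.Agent.P208
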