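import Vale.Agent.P208.WindowOf

open scoped Classical InnerProductSpace

namespace Vale.Agent.P208

variable {H : Type} [NormedAddCommGroup H] [InnerProductSpace ℝ H]

theorem Sys.no_embed {Y : Sys H} (hY : Y.OK) (k D : ℕ) (F : ℝ → H → EuclideanSpace ℝ (Fin k))
    (hT : ∀ t t' y, Y.Mem t y → Y.Mem t' y → ‖F t y - F t' y‖ ≤ D * |t - t'|)
    (hX : ∀ t y y', Y.Mem t y → Y.Mem t y' →
      ‖y - y'‖ ≤ ‖F t y - F t y'‖ ∧ ‖F t y - F t y'‖ ≤ D * ‖y - y'‖) : False := by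
  have hbd : ∀ n a y, Y.Step n a y → (Y.val F n a y) ^ 2 ≤ (D : ℝ) ^ 2 := by
    intro n a y h
    have hg := Sys.g_pos hY n
    have hle : (a : ℝ) * Y.g n ≤ (a + 1) * Y.g n := by linarith
    have m1 : Y.Mem ((a + 1) * Y.g n) y := ⟨n + 1, Sys.line_mono h hle le_rfl⟩
    have m2 : Y.Mem (a * Y.g n) y := ⟨n + 1, Sys.line_mono h le_rfl hle⟩
    have h1 := hT _ _ y m1 m2
    rw [show ((a : ℝ) + 1) * Y.g n - a * Y.g n = Y.g n by ring, abs_of_pos hg] at h1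
    refine pow_le_pow_left₀ (div_nonneg (norm_nonneg _) hg.le) ?_ 2
    exact (div_le_iff₀ hg).2 h1
  let A : Set ℝ := {s | ∃ n a y, Y.Step n a y ∧ s = (Y.val F n a y) ^ 2}
  have hA : BddAbove A := ⟨(D : ℝ) ^ 2, by
    rintro s ⟨n, a, y, h, rfl⟩
    exact hbd n a y h⟩
  have h00 : Y.Step 0 0 0 := by
    refine Sys.line_succ (a := 0) hY ?_ le_rfl le_rfl
    exact ⟨by simp, rfl⟩
  have hne : A.Nonempty := ⟨_, 0, 0, 0, h00, rfl⟩
  have hty : ∀ j, ty (Nat.pair (Nat.pair k D) j) = (k, D) := fun j => by simp [ty]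
  set n0 := Nat.pair (Nat.pair k D) 0 with hn0
  have hT0 : (0 : ℝ) < Y.T n0 := by exact_mod_cast (hY.1 n0).2.2.1
  have hl0 : 0 < Y.l n0 := (hY.1 n0).1
  have hc : 0 < (Y.T n0 : ℝ) * (40 * Y.l n0) ^ 2 := by positivity
  set γ := 1 / ((Y.T n0 : ℝ) * (40 * Y.l n0) ^ 2) with hγ
  have hγ0 : 0 < γ := by positivity
  obtain ⟨s, ⟨n1, a, y, hs, rfl⟩, hlt⟩ :=
    exists_lt_of_lt_csSup hne (show sSup A - γ < sSup A by linarith)
  obtain ⟨n, hn⟩ : ∃ n, Nat.pair (Nat.pair k D) (n1 + 1) = n + 1 :=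
    ⟨Nat.pair (Nat.pair k D) (n1 + 1) - 1, by
      have := Nat.right_le_pair (Nat.pair k D) (n1 + 1); omega⟩
  have hn1 : n1 ≤ n := by
    have := Nat.right_le_pair (Nat.pair k D) (n1 + 1); omega
  have htn : ty (n + 1) = (k, D) := by rw [← hn]; exact hty _
  obtain ⟨e1, e2⟩ := hY.2.1 (n + 1) n0 (by rw [htn, hn0, hty])
  obtain ⟨a', h1, h2⟩ := Sys.descend hY F hs hn1
  obtain ⟨b, h3, h4⟩ := Sys.descendW hY F h1
  have hv0 : 0 ≤ Y.val F n1 a y := div_nonneg (norm_nonneg _) (Sys.g_pos hY n1).le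
  have hTg : 0 < (Y.T (n + 1) : ℝ) * Y.g (n + 1) := by
    rw [e1]; exact mul_pos hT0 (Sys.g_pos hY _)
  refine Sys.window_false hY htn F hT hX (S := sSup A) (γ := γ) h3
    (fun a y' h => le_csSup hA ⟨_, _, _, h, rfl⟩) ?_ ?_
  · calc (sSup A - γ) * (Y.T (n + 1) * Y.g (n + 1)) ^ 2
        ≤ (Y.val F n1 a y) ^ 2 * (Y.T (n + 1) * Y.g (n + 1)) ^ 2 :=
          mul_le_mul_of_nonneg_right hlt.le (sq_nonneg _)
      _ = (Y.val F n1 a y * (Y.T (n + 1) * Y.g (n + 1))) ^ 2 := by ring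
      _ ≤ _ := pow_le_pow_left₀ (mul_nonneg hv0 hTg.le)
          ((mul_le_mul_of_nonneg_right h2 hTg.le).trans h4) 2
  · rw [e1, e2, hγ, one_div, inv_mul_cancel₀ hc.ne']

end Vale.Agent.P208
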