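import Vale.Agent.P208.FinalA
import Vale.Agent.P208.NoEmbed

open scoped Classical InnerProductSpace

namespace Vale.Agent.P208

variable {H : Type} [NormedAddCommGroup H] [InnerProductSpace ℝ H]

variable {E : Type} [NormedAddCommGroup E] [InnerProductSpace ℝ E]

theorem Sys.X_no_embed {Y : Sys H} (hY : Y.OK) (ι : H →ₗᵢ[ℝ] E) {τ : E} (hτ : ‖τ‖ = 1)
    (hι : ∀ y, ⟪τ, ι y⟫_ℝ = 0) (k : ℕ) (f : Y.X ι τ → EuclideanSpace ℝ (Fin k)) (a D : ℝ)
    (ha : 0 < a) : ¬ ∀ x y : Y.X ι τ, a * dist x y ≤ ‖f x - f y‖ ∧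
      ‖f x - f y‖ ≤ D * a * dist x y := by
  intro h
  let pt : ∀ t y, Y.Mem t y → Y.X ι τ := fun t y hm => ⟨t • τ + ι y, t, y, hm, rfl⟩
  have hd : ∀ t t' y y' (hm : Y.Mem t y) (hm' : Y.Mem t' y'),
      dist (pt t y hm) (pt t' y' hm') ^ 2 = (t - t') ^ 2 + ‖y - y'‖ ^ 2 := by
    intro t t' y y' hm hm'
    rw [Subtype.dist_eq, dist_eq_norm]
    exact psi_norm ι hτ hι t t' y y'
  have key : ∀ x y : Y.X ι τ, dist x y ≤ ‖a⁻¹ • f x - a⁻¹ • f y‖ ∧
      ‖a⁻¹ • f x - a⁻¹ • f y‖ ≤ (⌈D⌉₊ : ℝ) * dist x y := by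
    intro x y
    obtain ⟨h1, h2⟩ := h x y
    rw [← smul_sub, norm_smul, norm_inv, Real.norm_eq_abs, abs_of_pos ha, ← div_eq_inv_mul,
      le_div_iff₀ ha, div_le_iff₀ ha]
    refine ⟨by linarith, h2.trans ?_⟩
    have h3 : D * (a * dist x y) ≤ (⌈D⌉₊ : ℝ) * (a * dist x y) :=
      mul_le_mul_of_nonneg_right (Nat.le_ceil D) (by positivity)
    linarith
  refine Sys.no_embed hY k ⌈D⌉₊ (fun t y => if hm : Y.Mem t y then a⁻¹ • f (pt t y hm) else 0)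
    (fun t t' y hm hm' => ?_) (fun t y y' hm hm' => ?_)
  · have e : dist (pt t y hm) (pt t' y hm') = |t - t'| := by
      apply (pow_left_inj₀ dist_nonneg (abs_nonneg _) two_ne_zero).mp
      rw [hd _ _ _ _ hm hm', sq_abs]
      simp
    simp only [dif_pos hm, dif_pos hm']
    rw [← e]
    exact (key _ _).2
  · have e : dist (pt t y hm) (pt t y' hm') = ‖y - y'‖ := by
      apply (pow_left_inj₀ dist_nonneg (norm_nonneg _) two_ne_zero).mp
      rw [hd _ _ _ _ hm hm']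
      simp
    simp only [dif_pos hm, dif_pos hm']
    rw [← e]
    exact key _ _

end Vale.Agent.P208
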