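import Vale.Agent.P208.Defs

open scoped Classical InnerProductSpace

namespace Vale.Agent.P208

variable {H : Type} [NormedAddCommGroup H] [InnerProductSpace ℝ H]

theorem freshL2_of_inf (h : ¬ FiniteDimensional ℝ H) : HasFresh H := by
  intro P
  have hfin : FiniteDimensional ℝ (Submodule.span ℝ (P : Set H)) :=
    FiniteDimensional.span_finset ℝ P
  have hne : (Submodule.span ℝ (P : Set H))ᗮ ≠ ⊥ := by
    intro h0
    rw [Submodule.orthogonal_eq_bot_iff] at h0
    rw [h0] at hfin
    exact h (Submodule.topEquiv.finiteDimensional)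
  obtain ⟨v, hv, hv0⟩ := Submodule.exists_mem_ne_zero_of_ne_bot hne
  refine ⟨‖v‖⁻¹ • v, ?_, fun u hu => ?_⟩
  · rw [norm_smul, norm_inv, norm_norm, inv_mul_cancel₀ (norm_ne_zero_iff.2 hv0)]
  · rw [real_inner_smul_left,
      Submodule.inner_left_of_mem_orthogonal (Submodule.subset_span hu) hv, mul_zero]

theorem l2_fresh : HasFresh (lp (fun _ : ℕ => ℝ) 2) := by
  refine freshL2_of_inf fun h => ?_
  have ho : Orthonormal ℝ fun i : ℕ => (lp.single 2 i (1 : ℝ) : lp (fun _ : ℕ => ℝ) 2) := by
    rw [orthonormal_iff_ite]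
    intro i j
    rw [lp.inner_single_left, lp.single_apply, Pi.single_apply]
    split_ifs <;> simp
  exact Module.Finite.not_linearIndependent_of_infinite _ ho.linearIndependent

theorem perp_fresh (hF : HasFresh H) (τ : H) : HasFresh (↥((Submodule.span ℝ {τ})ᗮ)) := by
  intro P
  obtain ⟨e, he, h⟩ := hF (insert τ (P.image Subtype.val))
  refine ⟨⟨e, Submodule.mem_orthogonal_singleton_iff_inner_left.2
    (h τ (Finset.mem_insert_self _ _))⟩, he, fun u hu => ?_⟩
  exact h u (Finset.mem_insert_of_mem (Finset.mem_image_of_mem _ hu))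

end Vale.Agent.P208
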