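import Vale.Agent.P208.Geo

open scoped Classical InnerProductSpace

namespace Vale.Agent.P208

variable {H : Type} [NormedAddCommGroup H] [InnerProductSpace ℝ H]

theorem jinv_init {P : Finset H} {m e : H} {a : ℝ} (ha : 0 < a) (he : ‖e‖ = 1)
    (heP : ∀ u ∈ P, ⟪e, u⟫_ℝ = 0) :
    Jinv P m a {m + (a / 2) • e, m - (a / 2) • e} (m + (a / 2) • e) (m - (a / 2) • e) ∧
      ‖(m + (a / 2) • e) - (m - (a / 2) • e)‖ = a := by
  have e1 : (m + (a / 2) • e) - (m - (a / 2) • e) = a • e := by
    have : a • e = (a / 2) • e + (a / 2) • e := by rw [← add_smul]; congr 1; ring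
    rw [this]; abel
  have n1 : ‖(m + (a / 2) • e) - (m - (a / 2) • e)‖ = a := by
    rw [e1, norm_smul, he, Real.norm_eq_abs, abs_of_pos ha, mul_one]
  have n2 : ‖(a / 2) • e‖ = a / 2 := by
    rw [norm_smul, he, Real.norm_eq_abs, abs_of_pos (by positivity), mul_one]
  have e2 : mid (m + (a / 2) • e) (m - (a / 2) • e) = m := by
    unfold mid
    rw [e1, smul_smul]
    have : 1 / 2 * a = a / 2 := by ring
    rw [this]; abel
  refine ⟨⟨by simp, by simp, ?_, ⟨?_, ?_⟩, ?_, ?_, ?_⟩, n1⟩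
  · intro h
    rw [h, sub_self, norm_zero] at n1
    exact ha.ne n1
  · intro y hy
    rcases Finset.mem_insert.mp hy with rfl | hy
    · rw [add_sub_cancel_left, n2]; linarith
    · rw [Finset.mem_singleton.mp hy, sub_sub_cancel_left, norm_neg, n2]; linarith
  · intro y hy u hu
    rcases Finset.mem_insert.mp hy with rfl | hy
    · rw [add_sub_cancel_left, real_inner_smul_left, heP u hu, mul_zero]
    · rw [Finset.mem_singleton.mp hy, sub_sub_cancel_left, inner_neg_left, real_inner_smul_left,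
        heP u hu, mul_zero, neg_zero]
  · rw [e2, n1, sub_self, norm_zero, zero_add]
  · intro y hy
    rcases Finset.mem_insert.mp hy with rfl | hy
    · rw [sub_self, inner_zero_left]
    · rw [Finset.mem_singleton.mp hy, sub_self, inner_zero_right]
  · intro t _ _ r β s hr hβ0 hβ hs _
    refine Cv.of_finset {m + (a / 2) • e, m - (a / 2) • e} (fun y hy => hy.1) ?_ hr.le
    have h1 : (({m + (a / 2) • e, m - (a / 2) • e} : Finset H).card : ℝ) ≤ 2 := by
      exact_mod_cast Finset.card_le_two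
    have h2 := bud_ge (l := ‖(m + (a / 2) • e) - (m - (a / 2) • e)‖) hr hβ0 hβ hs (norm_nonneg _)
    linarith

theorem jinv_swap {P Q : Finset H} {m p q : H} {a : ℝ} (hJ : Jinv P m a Q p q) :
    Jinv P m a Q q p := by
  obtain ⟨h1, h2, h3, h4, h5, h6, h7⟩ := hJ
  refine ⟨h2, h1, h3.symm, h4, ?_, fun y hy => ?_, fun t t0 t1 => ?_⟩
  · rw [mid_comm q p, norm_sub_rev q p]; exact h5
  · rw [real_inner_comm]; exact h6 y hy
  · have e : p + t • (q - p) = q + (1 - t) • (p - q) := by
      simp only [sub_smul, smul_sub, one_smul]; abel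
    rw [e, norm_sub_rev q p]
    exact h7 (1 - t) (by linarith) (by linarith)

theorem sub_swap {P Q N : Finset H} {p q z : H} {θ : ℝ} (hS : Sub P Q p q θ N z) :
    Sub P Q q p θ N z := by
  obtain ⟨h1, h2, h3, h4, h5⟩ := hS
  refine ⟨h1, h2, h3, ?_, h5⟩
  rw [mid_comm q p, norm_sub_rev q p]; exact h4

theorem post_own {P Q : Finset H} {m p q : H} {a lam : ℝ} (hJ : Jinv P m a Q p q)
    (hc : Cover (P ∪ Q)) (hl : lam * a ≤ ‖p - q‖) : Post P m a lam Q p q := by
  obtain ⟨h1, h2, -, h4, -, -, h7⟩ := hJ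
  refine ⟨h1, h2, hl, h4, ?_, ?_, hc⟩
  · have := h7 1 zero_le_one le_rfl
    rw [one_smul, add_sub_cancel] at this
    exact this.anti le_rfl (norm_nonneg _)
  · have := h7 0 le_rfl zero_le_one
    rw [zero_smul, add_zero] at this
    exact this.anti le_rfl (norm_nonneg _)

theorem pre_top {e : H} (he : ‖e‖ = 1) :
    Pre ({0, (200 : ℝ) • e} : Finset H) ((100 : ℝ) • e) 1 := by
  have n1 : ‖(100 : ℝ) • e‖ = 100 := by
    rw [norm_smul, he]; norm_num
  refine ⟨one_pos, ⟨(200 : ℝ) • e, by simp, 0, by simp, ?_⟩, fun y hy => ?_, fun s hs => ?_⟩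
  · unfold mid
    rw [sub_zero, zero_add, smul_smul]; norm_num
  · rcases Finset.mem_insert.mp hy with rfl | hy
    · rw [zero_sub, norm_neg, n1]; norm_num
    · rw [Finset.mem_singleton.mp hy, ← sub_smul]
      norm_num
      rw [n1]
  · refine Cv.of_finset {0, (200 : ℝ) • e} (fun y hy => hy.1) ?_ (by positivity)
    have h1 : ((({0, (200 : ℝ) • e} : Finset H)).card : ℝ) ≤ 2 := by
      exact_mod_cast Finset.card_le_two
    unfold C1
    linarith

end Vale.Agent.P208
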