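import Vale.Agent.P208.Shift

open scoped Classical InnerProductSpace

namespace Vale.Agent.P208

variable {H : Type} [NormedAddCommGroup H] [InnerProductSpace ℝ H]

theorem mid_comm (p q : H) : mid p q = mid q p := by
  unfold mid; module

theorem far_mid {y p q : H} (h : 0 ≤ ⟪y - p, y - q⟫_ℝ) : ‖p - q‖ / 2 ≤ ‖y - mid p q‖ := by
  have h1 : y - p = (y - mid p q) - (1 / 2 : ℝ) • (p - q) := by unfold mid; module
  have h2 : y - q = (y - mid p q) + (1 / 2 : ℝ) • (p - q) := by unfold mid; module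
  rw [h1, h2] at h
  obtain ⟨u, hu⟩ : ∃ u, u = y - mid p q := ⟨_, rfl⟩
  obtain ⟨d, hd⟩ : ∃ d, d = p - q := ⟨_, rfl⟩
  rw [← hu, ← hd] at h ⊢
  simp only [inner_sub_left, inner_add_right, inner_smul_left, inner_smul_right,
    real_inner_self_eq_norm_sq, real_inner_comm u d, conj_trivial] at h
  have h3 : (‖d‖ / 2) ^ 2 ≤ ‖u‖ ^ 2 := by nlinarith
  exact (pow_le_pow_iff_left₀ (by positivity) (norm_nonneg _) two_ne_zero).mp h3

theorem pyth {y w d : H} (h : ⟪d, y - w⟫_ℝ = 0) : ‖y - (w + d)‖ ^ 2 = ‖y - w‖ ^ 2 + ‖d‖ ^ 2 := by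
  rw [← sub_sub, norm_sub_sq_real, real_inner_comm, h]; ring

theorem seg_inner {y p q : H} (h : 0 ≤ ⟪y - p, y - q⟫_ℝ) {t t' : ℝ} (h0 : 0 ≤ t) (h1 : t ≤ 1)
    (h0' : 0 ≤ t') (h1' : t' ≤ 1) :
    0 ≤ ⟪y - (q + t • (p - q)), y - (q + t' • (p - q))⟫_ℝ := by
  have e : ∀ s : ℝ, y - (q + s • (p - q)) = (1 - s) • (y - q) + s • (y - p) := by
    intro s; module
  rw [e t, e t']
  obtain ⟨u, hu⟩ : ∃ u, u = y - q := ⟨_, rfl⟩
  obtain ⟨v, hv⟩ : ∃ v, v = y - p := ⟨_, rfl⟩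
  rw [← hu, ← hv] at h ⊢
  simp only [inner_add_left, inner_add_right, inner_smul_left, inner_smul_right,
    real_inner_self_eq_norm_sq, conj_trivial]
  have a1 : 0 ≤ 1 - t := by linarith
  have a2 : 0 ≤ 1 - t' := by linarith
  have h' : 0 ≤ ⟪u, v⟫_ℝ := by rw [real_inner_comm]; exact h
  positivity

theorem Geo.perp_pt {P Q : Finset H} {m p q d y : H} {a : ℝ} (τ : ℝ) (hJ : Jinv P m a Q p q)
    (hd : ∀ u ∈ Q, ⟪d, u⟫_ℝ = 0) (hy : y ∈ Q) :
    ⟪d, y - (mid p q + τ • (p - q))⟫_ℝ = 0 := by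
  unfold mid
  simp only [inner_sub_right, inner_add_right, inner_smul_right, hd y hy, hd p hJ.1, hd q hJ.2.1]
  ring

/-- distance from an old point to a point of the segment shifted orthogonally -/
theorem old_far {P Q : Finset H} {m p q d y : H} {a τ : ℝ} (hJ : Jinv P m a Q p q)
    (hd : ∀ u ∈ Q, ⟪d, u⟫_ℝ = 0) (hy : y ∈ Q) :
    (1 / 2 - |τ|) * ‖p - q‖ ≤ ‖y - (mid p q + τ • (p - q) + d)‖ := by
  have h1 := pyth (Geo.perp_pt τ hJ hd hy)
  have h2 : ‖y - (mid p q + τ • (p - q))‖ ≤ ‖y - (mid p q + τ • (p - q) + d)‖ := by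
    refine (pow_le_pow_iff_left₀ (norm_nonneg _) (norm_nonneg _) two_ne_zero).mp ?_
    rw [h1]; nlinarith [sq_nonneg ‖d‖]
  have h3 := far_mid (hJ.2.2.2.2.2.1 y hy)
  have h4 : ‖y - mid p q‖ ≤ ‖y - (mid p q + τ • (p - q))‖ + ‖τ • (p - q)‖ := by
    refine le_trans (le_of_eq ?_) (norm_add_le _ _)
    congr 1; abel
  rw [norm_smul, Real.norm_eq_abs] at h4
  linarith

/-- view of the old points from a point of the segment shifted orthogonally -/
theorem old_view {P Q : Finset H} {m p q d : H} {a τ : ℝ} (hJ : Jinv P m a Q p q)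
    (hd : ∀ u ∈ Q, ⟪d, u⟫_ℝ = 0) (hτ : |τ| ≤ 1 / 2) :
    VS Q (mid p q + τ • (p - q) + d) ‖p - q‖ := by
  have h1 := abs_le.mp hτ
  have h2 := hJ.2.2.2.2.2.2 (1 / 2 + τ) (by linarith) (by linarith)
  have h3 : q + (1 / 2 + τ) • (p - q) = mid p q + τ • (p - q) := by unfold mid; module
  rw [h3] at h2
  exact shift_vs h2 (norm_nonneg _) (norm_nonneg d) fun y hy => pyth (Geo.perp_pt τ hJ hd hy)

theorem Geo.clus_perp {P Q N : Finset H} {m p q z y : H} {a θ : ℝ} (hJ : Jinv P m a Q p q)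
    (hS : Sub P Q p q θ N z) (hy : y ∈ N) : ⟪y - mid p q, p - q⟫_ℝ = 0 := by
  rw [inner_sub_right, hS.2.2.2.1.2 y hy p (Finset.mem_union_right _ hJ.1),
    hS.2.2.2.1.2 y hy q (Finset.mem_union_right _ hJ.2.1), sub_zero]

/-- cluster points against a point moved from a point `mid p q + d` along the edge -/
theorem cluster_pyth {P Q N : Finset H} {m p q z d y : H} {a θ τ : ℝ} (hJ : Jinv P m a Q p q)
    (hS : Sub P Q p q θ N z) (hd : ⟪d, p - q⟫_ℝ = 0) (hy : y ∈ N) :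
    ‖y - (mid p q + τ • (p - q) + d)‖ ^ 2 = ‖y - (mid p q + d)‖ ^ 2 + (|τ| * ‖p - q‖) ^ 2 := by
  have h1 : mid p q + τ • (p - q) + d = (mid p q + d) + τ • (p - q) := by abel
  have h2 : ⟪τ • (p - q), y - (mid p q + d)⟫_ℝ = 0 := by
    rw [inner_smul_left, real_inner_comm, ← sub_sub, inner_sub_left, Geo.clus_perp hJ hS hy, hd]
    simp
  rw [h1, pyth h2, norm_smul, Real.norm_eq_abs]

theorem mk_coef_pos (J i : ℕ) : 0 < (2 : ℝ) ^ i / (4 * 2 ^ J) := by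
  positivity

theorem mk_coef_le {J i : ℕ} (h : i ≤ J) : (2 : ℝ) ^ i / (4 * 2 ^ J) ≤ 1 / 4 := by
  rw [div_le_div_iff₀ (by positivity) (by norm_num)]
  have : (2 : ℝ) ^ i ≤ 2 ^ J := pow_le_pow_right₀ (by norm_num) h
  linarith

theorem mk_dist (J i : ℕ) (z p q : H) :
    ‖mk J z p q (i + 1) - mk J z p q i‖ = (2 : ℝ) ^ i / (4 * 2 ^ J) * ‖p - q‖ := by
  have h1 : mk J z p q (i + 1) - mk J z p q i = ((2 : ℝ) ^ i / (4 * 2 ^ J)) • (p - q) := by
    unfold mk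
    rw [add_sub_add_left_eq_sub, ← sub_smul]
    congr 1
    rw [pow_succ]; ring
  rw [h1, norm_smul, Real.norm_eq_abs, abs_of_pos (mk_coef_pos J i)]

theorem mem_marks {J i : ℕ} {z p q y : H} :
    y ∈ marks J z p q i ↔ ∃ j, j ≤ i ∧ y = mk J z p q j := by
  unfold marks
  simp only [Finset.mem_image, Finset.mem_range, Nat.lt_succ_iff]
  constructor
  · rintro ⟨j, hj, rfl⟩; exact ⟨j, hj, rfl⟩
  · rintro ⟨j, hj, rfl⟩; exact ⟨j, hj, rfl⟩

theorem last_len {P Q N : Finset H} {m p q z : H} {a θ : ℝ} (J : ℕ) (hJ : Jinv P m a Q p q)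
    (hS : Sub P Q p q θ N z) :
    ‖p - q‖ / 4 ≤ ‖p - mk J z p q J‖ ∧
      ‖p - mk J z p q J‖ ≤ ‖p - q‖ / 4 + 2 * θ ^ 2 * ‖p - q‖ := by
  have h0 : (2 : ℝ) ^ J / (4 * 2 ^ J) = 1 / 4 := by field_simp
  have h1 : p - mk J z p q J = (1 / 4 : ℝ) • (p - q) - (z - mid p q) := by
    unfold mk mid
    rw [h0]; module
  have h2 := Geo.clus_perp hJ hS hS.2.2.1
  have h3 : ‖p - mk J z p q J‖ ^ 2 = (‖p - q‖ / 4) ^ 2 + ‖z - mid p q‖ ^ 2 := by
    rw [h1, norm_sub_sq_real, inner_smul_left, real_inner_comm, h2, norm_smul]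
    norm_num
    ring
  have h4 := hS.2.2.2.1.1 z hS.2.2.1
  have h5 : ‖z - mid p q‖ ^ 2 ≤ (θ * ‖p - q‖) ^ 2 := pow_le_pow_left₀ (norm_nonneg _) h4 2
  constructor
  · refine (pow_le_pow_iff_left₀ (by positivity) (norm_nonneg _) two_ne_zero).mp ?_
    rw [h3]; nlinarith [sq_nonneg ‖z - mid p q‖]
  · refine (pow_le_pow_iff_left₀ (norm_nonneg _) (by positivity) two_ne_zero).mp ?_
    rw [h3]; nlinarith [sq_nonneg (θ ^ 2 * ‖p - q‖)]

theorem fresh_new {P Q N : Finset H} {m p q z : H} {a θ : ℝ} {J i : ℕ} (hJ : Jinv P m a Q p q)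
    (hS : Sub P Q p q θ N z) (hi : i ≤ J) : Fresh P m a (Q ∪ N ∪ marks J z p q i) := by
  obtain ⟨hp, hq, -, hF, hsz, -, -⟩ := hJ
  obtain ⟨hθ0, hθ1, hz, hN, -⟩ := hS
  have hl := norm_nonneg (p - q)
  have hθl : θ * ‖p - q‖ ≤ 1 / 512 * ‖p - q‖ := mul_le_mul_of_nonneg_right hθ1 hl
  have n1 : ∀ y ∈ N, ‖y - m‖ ≤ θ * ‖p - q‖ + ‖mid p q - m‖ := by
    intro y hy
    refine le_trans ?_ (add_le_add (hN.1 y hy) le_rfl)
    refine le_trans (le_of_eq ?_) (norm_add_le _ _)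
    congr 1; abel
  have n2 : ∀ y ∈ N, ∀ u ∈ P, ⟪y - m, u⟫_ℝ = 0 := by
    intro y hy u hu
    have e : y - m = (y - mid p q) + ((1 / 2 : ℝ) • (p - m) + (1 / 2 : ℝ) • (q - m)) := by
      unfold mid; module
    rw [e, inner_add_left, inner_add_left, inner_smul_left, inner_smul_left,
      hN.2 y hy u (Finset.mem_union_left _ hu), hF.2 p hp u hu, hF.2 q hq u hu]
    simp
  constructor
  · intro y hy
    rcases Finset.mem_union.mp hy with hy | hy
    · rcases Finset.mem_union.mp hy with hy | hy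
      · exact hF.1 y hy
      · have := n1 y hy
        linarith
    · obtain ⟨j, hj, rfl⟩ := mem_marks.mp hy
      have e : mk J z p q j - m = (z - m) + ((2 : ℝ) ^ j / (4 * 2 ^ J)) • (p - q) := by
        unfold mk; abel
      have h1 := norm_add_le (z - m) (((2 : ℝ) ^ j / (4 * 2 ^ J)) • (p - q))
      rw [← e, norm_smul, Real.norm_eq_abs, abs_of_pos (mk_coef_pos J j)] at h1
      have h2 := mul_le_mul_of_nonneg_right (mk_coef_le (hj.trans hi)) hl
      have := n1 z hz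
      linarith
  · intro y hy u hu
    rcases Finset.mem_union.mp hy with hy | hy
    · rcases Finset.mem_union.mp hy with hy | hy
      · exact hF.2 y hy u hu
      · exact n2 y hy u hu
    · obtain ⟨j, hj, rfl⟩ := mem_marks.mp hy
      have e : mk J z p q j - m =
          (z - m) + ((2 : ℝ) ^ j / (4 * 2 ^ J)) • ((p - m) - (q - m)) := by
        unfold mk; rw [sub_sub_sub_cancel_right]; abel
      rw [e, inner_add_left, inner_smul_left, inner_sub_left (p - m), n2 z hz u hu,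
        hF.2 p hp u hu, hF.2 q hq u hu]
      simp

end Vale.Agent.P208
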