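import Vale.Agent.P208.Big
import Vale.Agent.P208.Geo

open scoped Classical InnerProductSpace

namespace Vale.Agent.P208

variable {H : Type} [NormedAddCommGroup H] [InnerProductSpace ℝ H]

theorem view_exit {P Q N : Finset H} {m p q z : H} {a θ : ℝ} (hJ : Jinv P m a Q p q)
    (hS : Sub P Q p q θ N z) : VS (Q ∪ N) z 0 := by
  obtain ⟨h0, h1, hz, ⟨hF1, hF2⟩, hV⟩ := hS
  have hl : 0 < ‖p - q‖ := norm_pos_iff.2 (sub_ne_zero.2 hJ.2.2.1)
  have hd : ∀ u ∈ Q, ⟪z - mid p q, u⟫_ℝ = 0 := fun u hu =>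
    hF2 z hz u (Finset.mem_union_right _ hu)
  have e : mid p q + (0 : ℝ) • (p - q) + (z - mid p q) = z := by simp
  have hθ : θ * ‖p - q‖ ≤ ‖p - q‖ / 512 := by nlinarith
  intro r β s hr hβ0 hβ hs0 hs
  rcases lt_or_ge s (‖p - q‖ / 8) with c | c
  · refine (hV r β s hr hβ0 hβ hs0 hs).mono ?_ le_rfl le_rfl
    rintro y ⟨hy, hy1, hy2⟩
    refine ⟨(Finset.mem_union.1 hy).resolve_left fun hyQ => ?_, hy1, hy2⟩
    have := old_far (τ := 0) hJ hd hyQ
    rw [e, abs_zero] at this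
    linarith
  · have hQ := old_view (τ := 0) hJ hd (by simp)
    rw [e] at hQ
    refine big_case hQ hl le_rfl (by positivity) (mid p q) 0 (by simp; positivity)
      (fun y hy => ⟨⟨0, le_rfl, zero_le_one, ?_⟩, ?_⟩) hr hβ0 hβ hs c
    · simpa using (hF1 y hy).trans hθ
    · have a1 := hF1 y hy
      have a2 := hF1 z hz
      have a3 := norm_sub_le (y - mid p q) (z - mid p q)
      rw [sub_sub_sub_cancel_right] at a3
      linarith

theorem post_comp {P Q N : Finset H} {m p q x y : H} {a θ lam lam' : ℝ} (hJ : Jinv P m a Q p q)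
    (hθ : 0 < θ) (hθ' : θ ≤ 1 / 512) (hpost : Post (P ∪ Q) (mid p q) (θ * ‖p - q‖) lam N x y)
    (hl : lam' * a ≤ lam * (θ * ‖p - q‖)) : Post P m a lam' (Q ∪ N) x y := by
  obtain ⟨hx, hy, h1, hF, hVx, hVy, hC⟩ := hpost
  have sx : Sub P Q p q θ N x := ⟨hθ, hθ', hx, hF, hVx⟩
  have sy : Sub P Q p q θ N y := ⟨hθ, hθ', hy, hF, hVy⟩
  have hN := fresh_new (J := 0) (i := 0) hJ sx le_rfl
  refine ⟨Finset.mem_union_right _ hx, Finset.mem_union_right _ hy, hl.trans h1,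
    ⟨fun w hw => hN.1 w (Finset.mem_union_left _ hw),
      fun w hw => hN.2 w (Finset.mem_union_left _ hw)⟩, view_exit hJ sx, view_exit hJ sy, ?_⟩
  rwa [← Finset.union_assoc]

end Vale.Agent.P208
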