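import Vale.Agent.P208.Search
import Vale.Agent.P208.JInit
import Vale.Agent.P208.PostComp
import Vale.Agent.P208.Dim

open scoped Classical InnerProductSpace

namespace Vale.Agent.P208

variable {H : Type} [NormedAddCommGroup H] [InnerProductSpace ℝ H]

variable {V : Type} [NormedAddCommGroup V] [InnerProductSpace ℝ V]

/-- the statement proved by induction on the number `h` of edges still to be found -/
def Claim (H V : Type) [NormedAddCommGroup H] [InnerProductSpace ℝ H] [NormedAddCommGroup V]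
    [InnerProductSpace ℝ V] (D c : ℝ) (len : ℕ) (lam : ℝ) : Prop :=
  ∀ (L : List (H × H)) (P : Finset H) (m : H) (a : ℝ) (K : Set (H → V)), L.length = len →
    (∀ E ∈ L, E.1 ∈ P ∧ E.2 ∈ P) → Det P K → (∀ φ ∈ K, Orth c L φ) → Pre P m a → Cover P →
    (∀ (Q : Finset H) (x y : H), Post P m a lam Q x y →
      Win D (P ∪ Q) (K ∩ {φ | ∃ E ∈ L, Viol c E.1 E.2 x y φ})) → Win D P K

theorem game_orth_cons {D c : ℝ} (hc : 0 ≤ c) {L : List (H × H)} {P : Finset H} {p q : H}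
    {φ : H → V} (hp : p ∈ P) (hq : q ∈ P) (hpq : p ≠ q) (hB : BiLip D P φ) (hO : Orth c L φ)
    (hn : ¬ ∃ E ∈ L, Viol c E.1 E.2 p q φ) : Orth c ((p, q) :: L) φ := by
  have h1 := (hB p hp q hq).1
  have hpos : 0 < ‖p - q‖ := norm_pos_iff.mpr (sub_ne_zero.mpr hpq)
  refine ⟨?_, ?_⟩
  · intro E hE
    rcases List.mem_cons.mp hE with rfl | hE
    · intro h
      simp only at h
      rw [h, sub_self, norm_zero] at h1
      linarith
    · exact hO.1 E hE
  · rw [List.pairwise_cons]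
    refine ⟨?_, hO.2⟩
    intro E hE
    have h2 : ¬ Viol c E.1 E.2 p q φ := fun h => hn ⟨E, hE, h⟩
    unfold Viol at h2
    push Not at h2
    simp only
    rw [real_inner_comm]
    have h3 : c * ‖p - q‖ * ‖φ E.1 - φ E.2‖ ≤ c * ‖φ p - φ q‖ * ‖φ E.1 - φ E.2‖ := by
      apply mul_le_mul_of_nonneg_right _ (norm_nonneg _)
      exact mul_le_mul_of_nonneg_left h1 hc
    linarith

theorem game_orth_det {c : ℝ} {L : List (H × H)} {P : Finset H}
    (hL : ∀ E ∈ L, E.1 ∈ P ∧ E.2 ∈ P) {φ ψ : H → V} (h : ∀ x ∈ P, ψ x = φ x) (hO : Orth c L φ) :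
    Orth c L ψ := by
  refine ⟨?_, ?_⟩
  · intro E hE
    rw [h _ (hL E hE).1, h _ (hL E hE).2]
    exact hO.1 E hE
  · refine List.Pairwise.imp_of_mem ?_ hO.2
    intro E E' hE hE' hh
    rw [h _ (hL E hE).1, h _ (hL E hE).2, h _ (hL E' hE').1, h _ (hL E' hE').2]
    exact hh

theorem game_num {D c lam θ g κ l n U w Z : ℝ} (hD : 1 ≤ D) (hc : 0 < c) (hc1 : c ≤ 1)
    (hlam : 0 < lam) (hlam1 : lam ≤ 1) (hθ : θ = c * lam / (512 * D)) (hg : g = c * lam * θ / 4)
    (hκ : D * κ ≤ c * lam * θ / 8) (hl : 0 < l) (hn0 : 0 ≤ n) (hn : n * g ≤ D)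
    (hU : n * g * l ≤ U) (hw : lam * (θ * l) ≤ w) (hZ : U / 2 + c * w / 2 ≤ Z) :
    (n + 1) * g * (l / 2 + 2 * θ ^ 2 * l) + D * (l * κ) ≤ Z := by
  have hDpos : 0 < D := by linarith
  have hθpos : 0 < θ := by rw [hθ]; positivity
  have hcl : c * lam ≤ 1 := by nlinarith
  have hcl0 : 0 < c * lam := by positivity
  have hθD : θ * D = c * lam / 512 := by rw [hθ]; field_simp
  have hθ1 : θ ≤ 1 := by nlinarith
  have hg0 : 0 < g := by rw [hg]; positivity
  have hg1 : g ≤ D := by rw [hg]; nlinarith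
  have h1 : (n + 1) * g ≤ 2 * D := by linarith
  have h2 : (n + 1) * g * (2 * θ ^ 2 * l) ≤ 2 * D * (2 * θ ^ 2 * l) :=
    mul_le_mul_of_nonneg_right h1 (by positivity)
  have h3 : 2 * D * (2 * θ ^ 2 * l) = 4 * (θ * D) * (θ * l) := by ring
  have h4 : c * (lam * (θ * l)) ≤ c * w := mul_le_mul_of_nonneg_left hw hc.le
  have h5 : D * (l * κ) ≤ c * lam * θ / 8 * l := by
    have := mul_le_mul_of_nonneg_right hκ hl.le
    linarith
  have h6 : 0 < c * lam * (θ * l) := by positivity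
  rw [hθD] at h3
  have h7 : g * l = c * lam * (θ * l) / 4 := by rw [hg]; ring
  nlinarith

theorem game_loop {D c lam lam' θ g : ℝ} {J R len : ℕ} (hD : 1 ≤ D) (hc : 0 < c) (hc1 : c ≤ 1)
    (hlam : 0 < lam) (hlam1 : lam ≤ 1) (hθ : θ = c * lam / (512 * D)) (hg : g = c * lam * θ / 4)
    (hJ0 : 0 < J) (hκ : D * (1 / (4 * 2 ^ J)) ≤ c * lam * θ / 8) (hR : D < R * g)
    (hlam' : lam' = (1 / (4 * 2 ^ J)) ^ R * θ * lam) (ih : Claim H V D c (len + 1) lam)
    {L : List (H × H)} {P : Finset H} {m : H} {a : ℝ} {K : Set (H → V)} (hlen : L.length = len)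
    (hL : ∀ E ∈ L, E.1 ∈ P ∧ E.2 ∈ P) (hdet : Det P K) (hO : ∀ φ ∈ K, Orth c L φ)
    (hPre : Pre P m a)
    (hexit : ∀ (Q : Finset H) (x y : H), Post P m a lam' Q x y →
      Win D (P ∪ Q) (K ∩ {φ | ∃ E ∈ L, Viol c E.1 E.2 x y φ})) :
    ∀ (j n : ℕ), n + j = R → ∀ (Q : Finset H) (p q : H), Jinv P m a Q p q → Cover (P ∪ Q) →
      (1 / (4 * 2 ^ J)) ^ n * a ≤ ‖p - q‖ →
      Win D (P ∪ Q) (K ∩ {φ | (n : ℝ) * g * ‖p - q‖ ≤ ‖φ p - φ q‖}) := by
  have hDpos : 0 < D := by linarith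
  have hθpos : 0 < θ := by rw [hθ]; positivity
  have hcl : c * lam ≤ 1 := by nlinarith
  have hθ1 : θ ≤ 1 / 512 := by
    rw [hθ, div_le_div_iff₀ (by positivity) (by norm_num)]; nlinarith
  have hg0 : 0 < g := by rw [hg]; positivity
  have ha : 0 < a := hPre.1
  set κ : ℝ := 1 / (4 * 2 ^ J) with hκdef
  have hκ0 : 0 < κ := by rw [hκdef]; positivity
  have hκ1 : κ ≤ 1 := by
    rw [hκdef, div_le_one (by positivity)]
    have : (1 : ℝ) ≤ 2 ^ J := one_le_pow₀ (by norm_num)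
    linarith
  have hleaf : ∀ (n : ℕ), D < n * g → ∀ (Q : Finset H) (p q : H), Jinv P m a Q p q →
      Cover (P ∪ Q) → Win D (P ∪ Q) (K ∩ {φ | (n : ℝ) * g * ‖p - q‖ ≤ ‖φ p - φ q‖}) := by
    intro n hn Q p q hJ hcov
    apply win_leaf hcov
    intro φ hφ hB
    have h1 := (hB p (Finset.mem_union_right _ hJ.1) q (Finset.mem_union_right _ hJ.2.1)).2
    have hpos : 0 < ‖p - q‖ := norm_pos_iff.mpr (sub_ne_zero.mpr hJ.2.2.1)
    have h2 : (n : ℝ) * g * ‖p - q‖ ≤ ‖φ p - φ q‖ := hφ.2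
    nlinarith
  intro j
  induction j with
  | zero =>
    intro n hn Q p q hJ hcov _
    have : n = R := by omega
    subst this
    exact hleaf n hR Q p q hJ hcov
  | succ j ihj =>
    intro n hn Q p q hJ hcov hlen'
    by_cases hng : D < n * g
    · exact hleaf n hng Q p q hJ hcov
    push Not at hng
    have hpos : 0 < ‖p - q‖ := norm_pos_iff.mpr (sub_ne_zero.mpr hJ.2.2.1)
    have hpow : κ ^ R ≤ κ ^ n := pow_le_pow_of_le_one hκ0.le hκ1 (by omega)
    have hpowa : κ ^ R * a ≤ ‖p - q‖ := le_trans (mul_le_mul_of_nonneg_right hpow ha.le) hlen'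
    have hθlam : θ * lam ≤ 1 := by nlinarith
    have hown : lam' * a ≤ ‖p - q‖ := by
      rw [hlam']
      have h1 : 0 ≤ κ ^ R * a := by positivity
      nlinarith
    have hsub : lam' * a ≤ lam * (θ * ‖p - q‖) := by
      rw [hlam']
      have h1 : 0 ≤ θ * lam := by positivity
      nlinarith
    have hpP : p ∈ P ∪ Q := Finset.mem_union_right _ hJ.1
    have hqP : q ∈ P ∪ Q := Finset.mem_union_right _ hJ.2.1
    -- searches
    have hsearch : ∀ (N : Finset H) (p' q' z : H), Jinv P m a Q p' q' → Sub P Q p' q' θ N z →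
        ‖p' - q'‖ = ‖p - q‖ → Cover (P ∪ Q ∪ N) →
        Win D (P ∪ Q ∪ N) (K ∩ {φ | ((n : ℝ) + 1) * g * (‖p - q‖ / 2 + 2 * θ ^ 2 * ‖p - q‖) +
          D * (‖p - q‖ * κ) ≤ ‖φ z - φ p'‖}) := by
      intro N p' q' z hJ' hS' hnorm hcov'
      have h := search (D := D) (S := ((n : ℝ) + 1) * g) (by positivity) hJ0 hdet hPre hJ' hS' hcov'
        (by
          intro Q' p'' q'' hJ'' hc'' hl''
          have h := ihj (n + 1) (by omega) Q' p'' q'' hJ'' hc'' (by
            rw [hnorm] at hl''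
            have e1 : ‖p - q‖ / (4 * 2 ^ J) = κ * ‖p - q‖ := by rw [hκdef]; ring
            rw [e1] at hl''
            have e2 : κ ^ (n + 1) * a = κ * (κ ^ n * a) := by ring
            rw [e2]
            exact le_trans (mul_le_mul_of_nonneg_left hlen' hκ0.le) hl'')
          push_cast at h
          exact h)
      rw [hnorm] at h
      have e1 : ‖p - q‖ / (4 * 2 ^ J) = ‖p - q‖ * κ := by rw [hκdef]; ring
      rw [e1] at h
      exact h
    have hK2 : Win D (P ∪ Q) (K ∩ {φ | (n : ℝ) * g * ‖p - q‖ ≤ ‖φ p - φ q‖} ∩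
        {φ | Orth c ((p, q) :: L) φ}) := by
      have hL' : ∀ E ∈ (p, q) :: L, E.1 ∈ P ∪ Q ∧ E.2 ∈ P ∪ Q := by
        intro E hE
        rcases List.mem_cons.mp hE with rfl | hE
        · exact ⟨hpP, hqP⟩
        · exact ⟨Finset.mem_union_left _ (hL E hE).1, Finset.mem_union_left _ (hL E hE).2⟩
      apply ih ((p, q) :: L) (P ∪ Q) (mid p q) (θ * ‖p - q‖) _ (by simp [hlen]) hL' _ _
        (pre_sub hPre hJ hθpos hθ1) hcov
      · intro N x y hpost
        have hcN : Cover (P ∪ Q ∪ N) := hpost.2.2.2.2.2.2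
        have hSx : Sub P Q p q θ N x := ⟨hθpos, hθ1, hpost.1, hpost.2.2.2.1, hpost.2.2.2.2.1⟩
        have hSy : Sub P Q p q θ N y := ⟨hθpos, hθ1, hpost.2.1, hpost.2.2.2.1, hpost.2.2.2.2.2.1⟩
        have hout := hexit (Q ∪ N) x y (post_comp hJ hθpos hθ1 hpost hsub)
        rw [← Finset.union_assoc] at hout
        have w1 := hsearch N p q x hJ hSx rfl hcN
        have w2 := hsearch N q p x (jinv_swap hJ) (sub_swap hSx) (norm_sub_rev _ _) hcN
        have w3 := hsearch N p q y hJ hSy rfl hcN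
        have w4 := hsearch N q p y (jinv_swap hJ) (sub_swap hSy) (norm_sub_rev _ _) hcN
        have w12 := win_or (K := _ ∪ _) w1 w2 (fun φ hφ _ => hφ)
        have w34 := win_or (K := _ ∪ _) w3 w4 (fun φ hφ _ => hφ)
        have w := win_or (K := _ ∪ _) w12 w34 (fun φ hφ _ => hφ)
        apply win_or hout w
        rintro φ ⟨⟨⟨hφK, hφs⟩, hφO⟩, E, hE, hV⟩ _
        rcases List.mem_cons.mp hE with rfl | hE
        · right
          have hne : φ p ≠ φ q := hφO.1 (p, q) List.mem_cons_self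
          have hφs' : (n : ℝ) * g * ‖p - q‖ ≤ ‖φ p - φ q‖ := hφs
          have hnum : ∀ Z : ℝ, ‖φ p - φ q‖ / 2 + c * ‖x - y‖ / 2 ≤ Z →
              ((n : ℝ) + 1) * g * (‖p - q‖ / 2 + 2 * θ ^ 2 * ‖p - q‖) + D * (‖p - q‖ * κ) ≤ Z :=
            fun Z hZ => game_num hD hc hc1 hlam hlam1 hθ hg hκ hpos (Nat.cast_nonneg n) hng hφs'
              hpost.2.2.1 hZ
          rcases viol_step hne hV with h | h | h | h
          · exact Or.inl (Or.inl ⟨hφK, hnum _ h⟩)
          · exact Or.inl (Or.inr ⟨hφK, hnum _ h⟩)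
          · exact Or.inr (Or.inl ⟨hφK, hnum _ h⟩)
          · exact Or.inr (Or.inr ⟨hφK, hnum _ h⟩)
        · left
          exact ⟨hφK, E, hE, hV⟩
      · rintro φ ψ hψ ⟨⟨hφK, hφs⟩, hφO⟩
        refine ⟨⟨hdet φ ψ (fun x hx => hψ x (Finset.mem_union_left _ hx)) hφK, ?_⟩, ?_⟩
        · show (n : ℝ) * g * ‖p - q‖ ≤ ‖ψ p - ψ q‖
          rw [hψ p hpP, hψ q hqP]
          exact hφs
        · exact game_orth_det hL' hψ hφO
      · intro φ hφ
        exact hφ.2
    apply win_or (hexit Q p q (post_own hJ hcov hown)) hK2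
    intro φ hφ hB
    by_cases hv : ∃ E ∈ L, Viol c E.1 E.2 p q φ
    · exact Or.inl ⟨hφ.1, hv⟩
    · exact Or.inr ⟨hφ, game_orth_cons hc.le hpP hqP hJ.2.2.1 hB (hO φ hφ.1) hv⟩

theorem game_step {D c lam : ℝ} {len : ℕ} (hF : HasFresh H) (hD : 1 ≤ D) (hc : 0 < c)
    (hc1 : c ≤ 1) (hlam : 0 < lam) (hlam1 : lam ≤ 1) (ih : Claim H V D c (len + 1) lam) :
    ∃ lam' : ℝ, 0 < lam' ∧ lam' ≤ 1 ∧ Claim H V D c len lam' := by
  have hDpos : 0 < D := by linarith
  obtain ⟨θ, hθ⟩ : ∃ θ : ℝ, θ = c * lam / (512 * D) := ⟨_, rfl⟩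
  obtain ⟨g, hg⟩ : ∃ g : ℝ, g = c * lam * θ / 4 := ⟨_, rfl⟩
  have hθpos : 0 < θ := by rw [hθ]; positivity
  have hcl : c * lam ≤ 1 := by nlinarith
  have hθ1 : θ ≤ 1 / 512 := by
    rw [hθ, div_le_div_iff₀ (by positivity) (by norm_num)]; nlinarith
  have hg0 : 0 < g := by rw [hg]; positivity
  obtain ⟨J0, hJ0⟩ := pow_unbounded_of_one_lt (8 * D / (c * lam * θ)) (by norm_num : (1 : ℝ) < 2)
  obtain ⟨R, hR⟩ := exists_nat_gt (D / g)
  have hR' : D < R * g := by rwa [div_lt_iff₀ hg0] at hR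
  have hκ : D * (1 / (4 * 2 ^ (J0 + 1))) ≤ c * lam * θ / 8 := by
    rw [div_lt_iff₀ (by positivity)] at hJ0
    rw [mul_one_div, div_le_div_iff₀ (by positivity) (by norm_num), pow_succ]
    have : (0 : ℝ) < 2 ^ J0 * (c * lam * θ) := by positivity
    nlinarith
  have hκ1 : (1 / (4 * 2 ^ (J0 + 1)) : ℝ) ≤ 1 := by
    rw [div_le_one (by positivity)]
    have : (1 : ℝ) ≤ 2 ^ (J0 + 1) := one_le_pow₀ (by norm_num)
    linarith
  refine ⟨(1 / (4 * 2 ^ (J0 + 1))) ^ R * θ * lam, by positivity, ?_, ?_⟩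
  · have h1 : (1 / (4 * 2 ^ (J0 + 1)) : ℝ) ^ R ≤ 1 := pow_le_one₀ (by positivity) hκ1
    have h2 : θ * lam ≤ 1 := by nlinarith
    have h3 : 0 ≤ θ * lam := by positivity
    nlinarith
  · intro L P m a K hlen hL hdet hO hPre hcov hexit
    obtain ⟨e, he, heP⟩ := hF P
    obtain ⟨hJ, hnorm⟩ := jinv_init (m := m) hPre.1 he heP
    have hv := view_all_ends hPre hJ
    have hcov' : Cover (P ∪ {m + (a / 2) • e, m - (a / 2) • e}) := by
      apply cover_extend hcov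
      intro y hy hyP
      rcases Finset.mem_union.mp hy with h | h
      · exact absurd h hyP
      · rcases Finset.mem_insert.mp h with h | h
        · rw [h]; exact hv.1
        · rw [Finset.mem_singleton.mp h]; exact hv.2
    have h := game_loop hD hc hc1 hlam hlam1 hθ hg (Nat.succ_pos J0) hκ hR' rfl ih hlen hL hdet hO
      hPre hexit R 0 (by omega) _ _ _ hJ hcov' (by rw [hnorm]; simp)
    apply win_ext Finset.subset_union_left h
    intro φ hφ ψ hψ _
    refine ⟨hdet φ ψ hψ hφ, ?_⟩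
    simp

theorem game_claim [FiniteDimensional ℝ V] {k : ℕ} (hk : Module.finrank ℝ V ≤ k) (hF : HasFresh H)
    {D : ℝ} (hD : 1 ≤ D) : ∀ (h len : ℕ), len + h = k + 1 →
      ∃ lam : ℝ, 0 < lam ∧ lam ≤ 1 ∧ Claim H V D (1 / ((k : ℝ) + 1)) len lam := by
  intro h
  induction h with
  | zero =>
    intro len hlen
    refine ⟨1, one_pos, le_rfl, ?_⟩
    intro L P m a K hL _ _ hO _ hcov _
    apply win_leaf hcov
    intro φ hφ _
    exact orth_false hk (by omega) (hO φ hφ)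
  | succ h ih =>
    intro len hlen
    obtain ⟨lam, h0, h1, hC⟩ := ih (len + 1) (by omega)
    refine game_step hF hD (by positivity) ?_ h0 h1 hC
    rw [div_le_one (by positivity)]
    have : (0 : ℝ) ≤ k := Nat.cast_nonneg k
    linarith

theorem game [FiniteDimensional ℝ V] {k : ℕ} (hk : Module.finrank ℝ V ≤ k) (hF : HasFresh H)
    (D : ℝ) : ∃ t : GT H, 0 ∈ t.root ∧ t.Good ∧ ∀ φ : H → V, ¬ EmbE D 0 t φ := by
  obtain ⟨e, he, -⟩ := hF ∅
  have hcov : Cover ({0, (200 : ℝ) • e} : Finset H) := cover_of_card Finset.card_le_two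
  have hW : Win D ({0, (200 : ℝ) • e} : Finset H) (Set.univ : Set (H → V)) := by
    by_cases hD : 1 ≤ D
    · obtain ⟨lam, -, -, hC⟩ := game_claim hk hF hD (k + 1) 0 (by omega)
      apply hC [] _ ((100 : ℝ) • e) 1 _ rfl (by simp) (fun _ _ _ _ => Set.mem_univ _)
        (fun φ _ => ⟨by simp, List.Pairwise.nil⟩) (pre_top he) hcov
      intro Q x y hpost
      apply win_leaf hpost.2.2.2.2.2.2
      rintro φ ⟨-, E, hE, -⟩
      simp at hE
    · apply win_leaf hcov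
      intro φ _ hB
      have h := hB ((200 : ℝ) • e) (by simp) 0 (by simp)
      have hn : ‖(200 : ℝ) • e - 0‖ = 200 := by rw [sub_zero, norm_smul, he]; norm_num
      rw [hn] at h
      push Not at hD
      nlinarith [h.1, h.2]
  obtain ⟨t, hr, hg, ht⟩ := hW
  refine ⟨t, ?_, hg, fun φ => ht φ (Set.mem_univ _)⟩
  rw [hr]
  simp

end Vale.Agent.P208
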