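import Vale.Agent.P208.SegLast

open scoped Classical InnerProductSpace

namespace Vale.Agent.P208

variable {H : Type} [NormedAddCommGroup H] [InnerProductSpace ℝ H]

theorem jlast_inner {e e' d : H} (h : ⟪e, d⟫_ℝ = 0) (h' : ⟪e', d⟫_ℝ = 0) (a b : ℝ) :
    ⟪e + a • d, e' + b • d⟫_ℝ = ⟪e, e'⟫_ℝ + a * b * ‖d‖ ^ 2 := by
  have h'' : ⟪d, e'⟫_ℝ = 0 := by rw [real_inner_comm]; exact h'
  rw [inner_add_left, inner_add_right, inner_add_right, real_inner_smul_left,
    real_inner_smul_left, real_inner_smul_right, real_inner_smul_right, h, h'',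
    real_inner_self_eq_norm_sq]
  ring

theorem jinv_last {P Q N : Finset H} {m p q z : H} {a θ : ℝ} (J : ℕ) (hJ : Jinv P m a Q p q)
    (hS : Sub P Q p q θ N z) :
    Jinv P m a (Q ∪ N ∪ marks J z p q J) p (mk J z p q J) := by
  have hseg := seg_last J hJ hS
  have hfresh := fresh_new hJ hS (le_refl J)
  obtain ⟨hlen1, hlen2⟩ := last_len J hJ hS
  obtain ⟨hp, hq, hpq, -, hsz, hemp, -⟩ := hJ
  obtain ⟨θ0, θ1, hz, ⟨hN1, hN2⟩, -⟩ := hS
  have hl : 0 < ‖p - q‖ := norm_pos_iff.mpr (sub_ne_zero.mpr hpq)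
  have e4 : mk J z p q J = z + (1 / 4 : ℝ) • (p - q) := by
    unfold mk
    congr 2
    field_simp
  have hθ2 : θ ^ 2 ≤ 1 / 512 := by nlinarith
  have hθ3 := mul_le_mul_of_nonneg_right hθ2 hl.le
  have hQ : ∀ y ∈ N, ∀ u ∈ Q, ⟪y - mid p q, u⟫_ℝ = 0 := fun y hy u hu =>
    hN2 y hy u (Finset.mem_union_right _ hu)
  have hdd : ∀ y ∈ N, ⟪y - mid p q, p - q⟫_ℝ = 0 := fun y hy => by
    rw [inner_sub_right, hQ y hy p hp, hQ y hy q hq, sub_zero]
  refine ⟨Finset.mem_union_left _ (Finset.mem_union_left _ hp),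
    Finset.mem_union_right _ (mem_marks.mpr ⟨J, le_rfl, rfl⟩), ?_, hfresh, ?_, ?_, hseg⟩
  · intro h
    rw [← h, sub_self, norm_zero] at hlen1
    linarith
  · have e : mid p (mk J z p q J) - m =
        (mid p q - m) + (1 / 2 : ℝ) • (z - mid p q) + (3 / 8 : ℝ) • (p - q) := by
      rw [e4]
      unfold mid
      module
    have h1 : ‖(3 / 8 : ℝ) • (p - q)‖ = 3 / 8 * ‖p - q‖ := by
      rw [norm_smul, Real.norm_of_nonneg (by positivity)]
    have h1' : ‖(1 / 2 : ℝ) • (z - mid p q)‖ = 1 / 2 * ‖z - mid p q‖ := by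
      rw [norm_smul, Real.norm_of_nonneg (by positivity)]
    have h2 := norm_add₃_le (a := mid p q - m) (b := (1 / 2 : ℝ) • (z - mid p q))
      (c := (3 / 8 : ℝ) • (p - q))
    have h3 := hN1 z hz
    have h4 := mul_le_mul_of_nonneg_right θ1 hl.le
    rw [e]
    linarith
  · intro y hy
    rw [e4]
    rcases Finset.mem_union.mp hy with hy | hy
    · rcases Finset.mem_union.mp hy with hy | hy
      · have e : y - (z + (1 / 4 : ℝ) • (p - q)) =
            (y - (q + (3 / 4 : ℝ) • (p - q))) - (z - mid p q) := by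
          unfold mid
          module
        have h1 : ⟪y - p, z - mid p q⟫_ℝ = 0 := by
          rw [real_inner_comm, inner_sub_right, hQ z hz y hy, hQ z hz p hp, sub_zero]
        have h2 := seg_inner (hemp y hy) (t := 1) (t' := 3 / 4) (by norm_num) (by norm_num)
          (by norm_num) (by norm_num)
        have e' : q + (1 : ℝ) • (p - q) = p := by module
        rw [e'] at h2
        rw [e, inner_sub_right, h1, sub_zero]
        exact h2
      · have e1 : y - p = (y - mid p q) + (-(1 / 2) : ℝ) • (p - q) := by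
          unfold mid
          module
        have e2 : y - (z + (1 / 4 : ℝ) • (p - q)) =
            ((y - mid p q) - (z - mid p q)) + (-(1 / 4) : ℝ) • (p - q) := by
          module
        have h1 : ⟪(y - mid p q) - (z - mid p q), p - q⟫_ℝ = 0 := by
          rw [inner_sub_left, hdd y hy, hdd z hz, sub_zero]
        rw [e1, e2, jlast_inner (hdd y hy) h1, inner_sub_right]
        have h2 := real_inner_self_nonneg (x := y - mid p q)
        have h3 := real_inner_le_norm (y - mid p q) (z - mid p q)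
        have h4 : ‖y - mid p q‖ * ‖z - mid p q‖ ≤ (θ * ‖p - q‖) * (θ * ‖p - q‖) :=
          mul_le_mul (hN1 y hy) (hN1 z hz) (norm_nonneg _) (by positivity)
        have h5 := mul_le_mul_of_nonneg_right hθ3 hl.le
        nlinarith
    · obtain ⟨j, hj, rfl⟩ := mem_marks.mp hy
      have hτ := mk_coef_le hj
      unfold mk
      generalize (2 : ℝ) ^ j / (4 * 2 ^ J) = τ at *
      have e1 : z + τ • (p - q) - p = (z - mid p q) + (τ - 1 / 2) • (p - q) := by
        unfold mid
        module
      have e2 : z + τ • (p - q) - (z + (1 / 4 : ℝ) • (p - q)) = 0 + (τ - 1 / 4) • (p - q) := by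
        module
      rw [e1, e2, jlast_inner (hdd z hz) (inner_zero_left _), inner_zero_right, zero_add]
      exact mul_nonneg (mul_nonneg_of_nonpos_of_nonpos (by linarith) (by linarith)) (sq_nonneg _)

end Vale.Agent.P208
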