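import Vale.Agent.P208.SegSmall

open scoped Classical InnerProductSpace

namespace Vale.Agent.P208

variable {H : Type} [NormedAddCommGroup H] [InnerProductSpace ℝ H]

theorem jsmall_inner {e e' d : H} (h : ⟪e, d⟫_ℝ = 0) (h' : ⟪e', d⟫_ℝ = 0) (a b : ℝ) :
    ⟪e + a • d, e' + b • d⟫_ℝ = ⟪e, e'⟫_ℝ + a * b * ‖d‖ ^ 2 := by
  have h'' : ⟪d, e'⟫_ℝ = 0 := by rw [real_inner_comm]; exact h'
  rw [inner_add_left, inner_add_right, inner_add_right, real_inner_smul_left,
    real_inner_smul_left, real_inner_smul_right, real_inner_smul_right, h, h'',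
    real_inner_self_eq_norm_sq]
  ring

theorem jsmall_perp {δ y p q : H} (hy : ⟪δ, y⟫_ℝ = 0) (hp : ⟪δ, p⟫_ℝ = 0) (hq : ⟪δ, q⟫_ℝ = 0)
    (t : ℝ) : ⟪δ, y - (q + t • (p - q))⟫_ℝ = 0 := by
  rw [inner_sub_right, inner_add_right, real_inner_smul_right, inner_sub_right, hy, hp, hq]
  ring

theorem jsmall_shift {u v δ : H} (hu : ⟪δ, u⟫_ℝ = 0) (hv : ⟪δ, v⟫_ℝ = 0) (h : 0 ≤ ⟪u, v⟫_ℝ) :
    0 ≤ ⟪u - δ, v - δ⟫_ℝ := by
  have hu' : ⟪u, δ⟫_ℝ = 0 := by rw [real_inner_comm]; exact hu
  rw [inner_sub_left, inner_sub_right, inner_sub_right, hu', hv]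
  have := real_inner_self_nonneg (x := δ)
  linarith

theorem jinv_small {P Q N : Finset H} {m p q z : H} {a θ : ℝ} {J i : ℕ} (hJ : Jinv P m a Q p q)
    (hS : Sub P Q p q θ N z) (hi : i < J) :
    Jinv P m a (Q ∪ N ∪ marks J z p q (i + 1)) (mk J z p q (i + 1)) (mk J z p q i) := by
  have hseg := seg_small hJ hS hi
  have hfresh := fresh_new hJ hS (show i + 1 ≤ J from hi)
  obtain ⟨hp, hq, hpq, -, hsz, hemp, -⟩ := hJ
  obtain ⟨θ0, θ1, hz, ⟨hN1, hN2⟩, -⟩ := hS
  have hl : 0 < ‖p - q‖ := norm_pos_iff.mpr (sub_ne_zero.mpr hpq)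
  have hτ0 := mk_coef_pos J i
  have hτ1 := mk_coef_le (show i + 1 ≤ J from hi)
  have hd := mk_dist J i z p q
  have e2 : (2 : ℝ) ^ (i + 1) / (4 * 2 ^ J) = 2 * ((2 : ℝ) ^ i / (4 * 2 ^ J)) := by ring
  have hQ : ∀ y ∈ N, ∀ u ∈ Q, ⟪y - mid p q, u⟫_ℝ = 0 := fun y hy u hu =>
    hN2 y hy u (Finset.mem_union_right _ hu)
  have hdd : ∀ y ∈ N, ⟪y - mid p q, p - q⟫_ℝ = 0 := fun y hy => by
    rw [inner_sub_right, hQ y hy p hp, hQ y hy q hq, sub_zero]
  refine ⟨Finset.mem_union_right _ (mem_marks.mpr ⟨i + 1, le_rfl, rfl⟩),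
    Finset.mem_union_right _ (mem_marks.mpr ⟨i, Nat.le_succ i, rfl⟩), ?_, hfresh, ?_, ?_, hseg⟩
  · intro h
    rw [h, sub_self, norm_zero] at hd
    exact (mul_pos hτ0 hl).ne hd
  · rw [hd]
    unfold mk
    rw [e2] at hτ1 ⊢
    generalize (2 : ℝ) ^ i / (4 * 2 ^ J) = τ at *
    have e : mid (z + (2 * τ) • (p - q)) (z + τ • (p - q)) - m =
        (mid p q - m) + (z - mid p q) + (3 / 2 * τ) • (p - q) := by
      unfold mid
      module
    have h1 : ‖(3 / 2 * τ) • (p - q)‖ = 3 / 2 * τ * ‖p - q‖ := by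
      rw [norm_smul, Real.norm_of_nonneg (by positivity)]
    have h2 := norm_add₃_le (a := mid p q - m) (b := z - mid p q) (c := (3 / 2 * τ) • (p - q))
    have h3 := hN1 z hz
    have h4 := mul_le_mul_of_nonneg_right θ1 hl.le
    have h5 := mul_le_mul_of_nonneg_right hτ1 hl.le
    rw [e]
    linarith
  · intro y hy
    unfold mk
    rw [e2] at hτ1 ⊢
    rcases Finset.mem_union.mp hy with hy | hy
    · generalize (2 : ℝ) ^ i / (4 * 2 ^ J) = τ at *
      rcases Finset.mem_union.mp hy with hy | hy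
      · have e : ∀ t : ℝ, y - (z + t • (p - q)) =
            (y - (q + (1 / 2 + t) • (p - q))) - (z - mid p q) := fun t => by
          unfold mid
          module
        rw [e, e]
        exact jsmall_shift (jsmall_perp (hQ z hz y hy) (hQ z hz p hp) (hQ z hz q hq) _)
          (jsmall_perp (hQ z hz y hy) (hQ z hz p hp) (hQ z hz q hq) _)
          (seg_inner (hemp y hy) (by linarith) (by linarith) (by linarith) (by linarith))
      · have e : ∀ t : ℝ, y - (z + t • (p - q)) = (y - z) + (-t) • (p - q) := fun t => by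
          module
        have h1 : ⟪y - z, p - q⟫_ℝ = 0 := by
          have e' : y - z = (y - mid p q) - (z - mid p q) := by abel
          rw [e', inner_sub_left, hdd y hy, hdd z hz, sub_zero]
        rw [e, e, jsmall_inner h1 h1]
        have := real_inner_self_nonneg (x := y - z)
        have h2 : 0 ≤ -(2 * τ) * -τ * ‖p - q‖ ^ 2 := by
          have : -(2 * τ) * -τ = 2 * τ ^ 2 := by ring
          rw [this]; positivity
        linarith
    · obtain ⟨j, hj, rfl⟩ := mem_marks.mp hy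
      unfold mk
      have e : ∀ s t : ℝ, z + s • (p - q) - (z + t • (p - q)) = (s - t) • (p - q) := fun s t => by
        module
      rw [e, e, real_inner_smul_left, real_inner_smul_right]
      have h0 := real_inner_self_nonneg (x := p - q)
      rw [← mul_assoc]
      refine mul_nonneg ?_ h0
      rcases Nat.lt_or_ge i j with h | h
      · have : j = i + 1 := by omega
        rw [this, e2, sub_self, zero_mul]
      · have h1 : (2 : ℝ) ^ j / (4 * 2 ^ J) ≤ (2 : ℝ) ^ i / (4 * 2 ^ J) :=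
          div_le_div_of_nonneg_right (pow_le_pow_right₀ (by norm_num) h) (by positivity)
        exact mul_nonneg_of_nonpos_of_nonpos (by linarith) (by linarith)

end Vale.Agent.P208
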