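import Vale.Agent.P208.MuxA

open scoped Classical InnerProductSpace

namespace Vale.Agent.P208

variable {H : Type} [NormedAddCommGroup H] [InnerProductSpace ℝ H]

variable {V : Type} [NormedAddCommGroup V] [InnerProductSpace ℝ V]

theorem root_subset_pts (t : GT H) : t.root ⊆ t.pts := by
  cases t with
  | leaf P => exact Finset.Subset.refl _
  | node P l r =>
    intro x hx
    simp only [GT.pts, Finset.mem_union]
    exact Or.inl (Or.inl hx)

theorem mux_bilip {D : ℝ} {P Q : Finset H} {φ : H → V} (h : BiLip D Q φ) (hP : P ⊆ Q) (c : V) :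
    BiLip D P (fun x => φ x - c) := by
  intro x hx y hy
  simp only [sub_sub_sub_cancel_right]
  exact h x (hP hx) y (hP hy)

theorem multiplex {D ε U0 l : ℝ} (hD : 0 ≤ D) (hε : 0 < ε) (hU0 : 0 ≤ U0) (hl : 0 ≤ l) (t : GT H) :
    t.Good → (0 : H) ∈ t.root → (∀ x ∈ t.pts, ‖x‖ ≤ l) →
    ∃ (T : ℕ) (Z : ℕ → Finset H), 0 < T ∧ (∀ a, t.root ⊆ Z a ∧ Z a ⊆ t.pts ∧ Cover (Z a)) ∧
      ∀ (F : ℕ → H → V) (u : V) (S : ℝ), ‖u‖ ≤ U0 → Window D T Z F u S →
        ∃ a ≤ T, EmbE D ε t (fun x => F a x - F a 0) := by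
  induction t with
  | leaf P =>
    intro hG _ _
    refine ⟨1, fun _ => P, one_pos, fun _ => ⟨Finset.Subset.refl _, Finset.Subset.refl _, hG⟩, ?_⟩
    intro F u S _ hW
    exact ⟨0, zero_le_one, mux_bilip (hW.1 0 one_pos).1 (Finset.Subset.refl _) _⟩
  | node P tl tr ihl ihr =>
    rintro ⟨hPl, hPr, hGl, hGr⟩ h0 hb
    have h0P : (0 : H) ∈ P := h0
    have hsl : tl.pts ⊆ (GT.node P tl tr).pts := by
      intro x hx
      simp only [GT.pts, Finset.mem_union]
      exact Or.inl (Or.inr hx)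
    have hsr : tr.pts ⊆ (GT.node P tl tr).pts := by
      intro x hx
      simp only [GT.pts, Finset.mem_union]
      exact Or.inr hx
    obtain ⟨Tl, Zl, hTl, hZl, hl'⟩ := ihl hGl (hPl h0P) fun x hx => hb x (hsl hx)
    obtain ⟨Tr, Zr, hTr, hZr, hr'⟩ := ihr hGr (hPr h0P) fun x hx => hb x (hsr hx)
    obtain ⟨p, hp⟩ : ∃ p, p = Tl + Tr := ⟨_, rfl⟩
    have hp0 : 0 < p := by omega
    have hpr : (0 : ℝ) < p := by exact_mod_cast hp0
    obtain ⟨e, he⟩ : ∃ e : ℝ, e = ε / (2 * p) := ⟨_, rfl⟩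
    have he0 : 0 < e := by rw [he]; positivity
    have he1 : 2 * p * e = ε := by rw [he]; field_simp
    obtain ⟨N, hN⟩ := exists_nat_gt ((P.card : ℝ) * (1 + 4 * D * l * U0) / e ^ 2)
    have hN0 : 0 < N := by
      have : (0 : ℝ) < N := lt_of_le_of_lt (by positivity) hN
      exact_mod_cast this
    rw [div_lt_iff₀ (by positivity)] at hN
    obtain ⟨Z, hZ⟩ : ∃ Z : ℕ → Finset H,
        Z = fun a => if a % p < Tl then Zl (a % p) else Zr (a % p - Tl) := ⟨_, rfl⟩
    have hZa : ∀ a, P ⊆ Z a ∧ Z a ⊆ (GT.node P tl tr).pts ∧ Cover (Z a) := by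
      intro a
      rw [hZ]
      beta_reduce
      split_ifs
      · exact ⟨hPl.trans (hZl _).1, (hZl _).2.1.trans hsl, (hZl _).2.2⟩
      · exact ⟨hPr.trans (hZr _).1, (hZr _).2.1.trans hsr, (hZr _).2.2⟩
    refine ⟨N * p, Z, Nat.mul_pos hN0 hp0, hZa, ?_⟩
    intro F u S hu hW
    have hZ0 : ∀ a, (0 : H) ∈ Z a := fun a => (hZa a).1 h0P
    obtain ⟨j, hj, hgood⟩ := good_period P (dfc F u S) N p (1 + 4 * D * l * U0) (e ^ 2)
      (by positivity)
      (fun a ha x hx => le_trans (sq_nonneg _) (dfc_ge (hW.2.1 a ha x ((hZa a).1 hx))))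
      (fun x hx => dfc_total (Nat.mul_pos hN0 hp0) hD hW hu (fun a => (hZa a).1 hx) hZ0
        (hb x (root_subset_pts (GT.node P tl tr) hx))) hN
    have hjp : j * p + p ≤ N * p := by
      have := Nat.mul_le_mul_right p (Nat.succ_le_of_lt hj)
      rwa [Nat.succ_mul] at this
    have hstep : ∀ x ∈ P, ∀ i < p, ‖F (j * p + i + 1) x - F (j * p + i) x - u‖ ≤ e := by
      intro x hx i hi
      have h1 := dfc_ge (u := u) (hW.2.1 (j * p + i) (by omega) x ((hZa _).1 hx))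
      exact (abs_le_of_sq_le_sq' (h1.trans (hgood i hi x hx)) he0.le).2
    have hdr : ∀ i ≤ p, ∀ x ∈ P,
        ‖(F (j * p + i) x - F (j * p + i) 0) - (F (j * p) x - F (j * p) 0)‖ ≤ ε := by
      intro i hi x hx
      rw [← he1]
      exact drift he0.le (j * p) p (hstep x hx) (hstep 0 h0P) hi
    have hmod : ∀ a < p, (j * p + a) % p = a := by
      intro a ha
      rw [Nat.mul_add_mod_self_right, Nat.mod_eq_of_lt ha]
    obtain ⟨a₁, ha₁, hE₁⟩ := hl' (fun a => F (j * p + a)) u S hu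
      (window_shift hW hZ0 (by omega) (fun a ha => by
        rw [hZ]
        beta_reduce
        rw [hmod a (by omega), if_pos ha]))
    obtain ⟨a₂, ha₂, hE₂⟩ := hr' (fun a => F (j * p + Tl + a)) u S hu
      (window_shift hW hZ0 (by omega) (fun a ha => by
        rw [hZ]
        beta_reduce
        rw [add_assoc, hmod (Tl + a) (by omega), if_neg (by omega), Nat.add_sub_cancel_left]))
    refine ⟨j * p, by omega, mux_bilip (hW.1 (j * p) (by omega)).1 (hZa _).1 _,
      ⟨_, hdr a₁ (by omega), hE₁⟩, ⟨_, ?_, hE₂⟩⟩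
    intro x hx
    have := hdr (Tl + a₂) (by omega) x hx
    rwa [← add_assoc] at this

end Vale.Agent.P208
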