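import Vale.Agent.P208.Defs

open scoped Classical InnerProductSpace

namespace Vale.Agent.P208

variable {H : Type} [NormedAddCommGroup H] [InnerProductSpace ℝ H]

variable {V : Type} [NormedAddCommGroup V] [InnerProductSpace ℝ V]

/-- deficiency of the unit step `a` on the line `x` -/
def dfc (F : ℕ → H → V) (u : V) (S : ℝ) (a : ℕ) (x : H) : ℝ :=
  S + ‖u‖ ^ 2 - 2 * ⟪F (a + 1) x - F a x, u⟫_ℝ

theorem dfc_ge {F : ℕ → H → V} {u : V} {S : ℝ} {a : ℕ} {x : H}
    (h : ‖F (a + 1) x - F a x‖ ^ 2 ≤ S) : ‖F (a + 1) x - F a x - u‖ ^ 2 ≤ dfc F u S a x := by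
  rw [norm_sub_sq_real, dfc]
  linarith

theorem muxA_sum (F : ℕ → H → V) (u : V) (S : ℝ) (x : H) (T : ℕ) :
    ∑ a ∈ Finset.range T, dfc F u S a x =
      T * (S + ‖u‖ ^ 2) - 2 * ⟪F T x - F 0 x, u⟫_ℝ := by
  induction T with
  | zero => simp
  | succ T ih =>
    rw [Finset.sum_range_succ, ih, dfc]
    simp only [inner_sub_left]
    push_cast
    ring

theorem dfc_total {D U0 l S : ℝ} {T : ℕ} {Z : ℕ → Finset H} {F : ℕ → H → V} {u : V} {x : H}
    (hT : 0 < T) (hD : 0 ≤ D) (hW : Window D T Z F u S) (hu : ‖u‖ ≤ U0) (hx : ∀ a, x ∈ Z a)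
    (h0 : ∀ a, (0 : H) ∈ Z a) (hl : ‖x‖ ≤ l) :
    ∑ a ∈ Finset.range T, dfc F u S a x ≤ 1 + 4 * D * l * U0 := by
  obtain ⟨h1, -, h3⟩ := hW
  have h4 : ∑ a ∈ Finset.range T, dfc F u S a 0 ≤ 1 := h3
  rw [muxA_sum] at h4 ⊢
  have hl0 : 0 ≤ l := (norm_nonneg x).trans hl
  have hDl : D * ‖x - 0‖ ≤ D * l := by
    rw [sub_zero]; exact mul_le_mul_of_nonneg_left hl hD
  have b0 : ‖F 0 x - F 0 0‖ ≤ D * l := (((h1 0 hT).1 x (hx 0) 0 (h0 0)).2).trans hDl
  have bT : ‖F T x - F T 0‖ ≤ D * l := by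
    have := (((h1 (T - 1) (by omega)).2 x (hx _) 0 (h0 _)).2).trans hDl
    rwa [Nat.sub_add_cancel hT] at this
  have c0 : ⟪F 0 x - F 0 0, u⟫_ℝ ≤ D * l * U0 :=
    (real_inner_le_norm _ _).trans (mul_le_mul b0 hu (norm_nonneg _) (by positivity))
  have cT : -(D * l * U0) ≤ ⟪F T x - F T 0, u⟫_ℝ := by
    have := (abs_real_inner_le_norm (F T x - F T 0) u).trans
      (mul_le_mul bT hu (norm_nonneg _) (by positivity))
    exact (abs_le.1 this).1
  simp only [inner_sub_left] at h4 c0 cT ⊢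
  linarith

theorem muxA_split (f : ℕ → ℝ) (N p : ℕ) :
    ∑ a ∈ Finset.range (N * p), f a = ∑ j ∈ Finset.range N, ∑ i ∈ Finset.range p, f (j * p + i) := by
  induction N with
  | zero => simp
  | succ N ih => rw [Nat.succ_mul, Finset.sum_range_add, ih, Finset.sum_range_succ]

theorem good_period {ι : Type} (P : Finset ι) (d : ℕ → ι → ℝ) (N p : ℕ) (B η : ℝ) (hη : 0 < η)
    (hd : ∀ a < N * p, ∀ x ∈ P, 0 ≤ d a x) (hB : ∀ x ∈ P, ∑ a ∈ Finset.range (N * p), d a x ≤ B)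
    (hN : (P.card : ℝ) * B < N * η) :
    ∃ j < N, ∀ i < p, ∀ x ∈ P, d (j * p + i) x ≤ η := by
  by_contra hne
  push Not at hne
  have h1 : ∑ x ∈ P, ∑ a ∈ Finset.range (N * p), d a x ≤ (P.card : ℝ) * B := by
    have := Finset.sum_le_card_nsmul P _ B hB
    rwa [nsmul_eq_mul] at this
  rw [Finset.sum_comm, muxA_split (fun a => ∑ x ∈ P, d a x)] at h1
  have h2 : ∑ _j ∈ Finset.range N, η ≤
      ∑ j ∈ Finset.range N, ∑ i ∈ Finset.range p, ∑ x ∈ P, d (j * p + i) x := by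
    refine Finset.sum_le_sum fun j hj => ?_
    have hj' := Finset.mem_range.1 hj
    have hlt : ∀ i < p, j * p + i < N * p := fun i hi => by
      have : (j + 1) * p ≤ N * p := Nat.mul_le_mul_right p hj'
      rw [Nat.succ_mul] at this
      omega
    obtain ⟨i, hi, x, hxP, hlt'⟩ := hne j hj'
    calc η ≤ d (j * p + i) x := hlt'.le
      _ ≤ ∑ y ∈ P, d (j * p + i) y :=
          Finset.single_le_sum (f := fun y => d (j * p + i) y)
            (fun y hy => hd _ (hlt i hi) y hy) hxP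
      _ ≤ _ := Finset.single_le_sum (f := fun i => ∑ y ∈ P, d (j * p + i) y)
            (fun i' hi' => Finset.sum_nonneg fun y hy =>
              hd _ (hlt i' (Finset.mem_range.1 hi')) y hy) (Finset.mem_range.2 hi)
  rw [Finset.sum_const, Finset.card_range, nsmul_eq_mul] at h2
  linarith

theorem drift {F : ℕ → H → V} {u : V} {x : H} {e : ℝ} (he : 0 ≤ e) (b p : ℕ)
    (hx : ∀ i < p, ‖F (b + i + 1) x - F (b + i) x - u‖ ≤ e)
    (h0 : ∀ i < p, ‖F (b + i + 1) 0 - F (b + i) 0 - u‖ ≤ e) {i : ℕ} (hi : i ≤ p) :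
    ‖(F (b + i) x - F (b + i) 0) - (F b x - F b 0)‖ ≤ 2 * p * e := by
  have key : ∀ j ≤ p, ‖(F (b + j) x - F (b + j) 0) - (F b x - F b 0)‖ ≤ 2 * j * e := by
    intro j
    induction j with
    | zero => intro _; simp
    | succ j ih =>
      intro hj
      have h1 := ih (by omega)
      have h2 := hx j (by omega)
      have h3 := h0 j (by omega)
      have e1 : (F (b + (j + 1)) x - F (b + (j + 1)) 0) - (F b x - F b 0) =
          ((F (b + j) x - F (b + j) 0) - (F b x - F b 0)) +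
            ((F (b + j + 1) x - F (b + j) x - u) - (F (b + j + 1) 0 - F (b + j) 0 - u)) := by
        rw [← add_assoc]; abel
      rw [e1]
      refine (norm_add_le _ _).trans ?_
      have h4 := norm_sub_le (F (b + j + 1) x - F (b + j) x - u) (F (b + j + 1) 0 - F (b + j) 0 - u)
      push_cast
      linarith
  refine (key i hi).trans (mul_le_mul_of_nonneg_right ?_ he)
  have : (i : ℝ) ≤ p := by exact_mod_cast hi
  linarith

theorem window_shift {D S : ℝ} {T T' b : ℕ} {Z Z' : ℕ → Finset H} {F : ℕ → H → V} {u : V}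
    (hW : Window D T Z F u S) (h0 : ∀ a, (0 : H) ∈ Z a) (hb : b + T' ≤ T)
    (hZ : ∀ a < T', Z' a = Z (b + a)) : Window D T' Z' (fun a => F (b + a)) u S := by
  obtain ⟨h1, h2, h3⟩ := hW
  refine ⟨fun a ha => ?_, fun a ha x hx => ?_, ?_⟩
  · rw [hZ a ha]
    exact h1 (b + a) (by omega)
  · rw [hZ a ha] at hx
    exact h2 (b + a) (by omega) x hx
  · have h4 : ∑ a ∈ Finset.range T, dfc F u S a 0 ≤ 1 := h3
    have hnn : ∀ a ∈ Finset.range T, 0 ≤ dfc F u S a 0 := fun a ha =>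
      (sq_nonneg _).trans (dfc_ge (h2 a (Finset.mem_range.1 ha) 0 (h0 a)))
    have h5 : ∑ a ∈ Finset.range T', dfc F u S (b + a) 0 ≤ ∑ a ∈ Finset.range T, dfc F u S a 0 := by
      have e1 := Finset.sum_Ico_eq_sum_range (fun a => dfc F u S a 0) b (b + T')
      rw [Nat.add_sub_cancel_left] at e1
      rw [← e1]
      refine Finset.sum_le_sum_of_subset_of_nonneg (fun a ha => ?_) (fun a ha _ => hnn a ha)
      have := (Finset.mem_Ico.1 ha).2
      exact Finset.mem_range.2 (by omega)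
    exact h5.trans h4

end Vale.Agent.P208
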