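import Vale.Agent.P208.Geo

open scoped Classical InnerProductSpace

namespace Vale.Agent.P208

variable {H : Type} [NormedAddCommGroup H] [InnerProductSpace ℝ H]

theorem presub_le {P Q : Finset H} {m p q y : H} {a : ℝ} (hP : Pre P m a)
    (hJ : Jinv P m a Q p q) (t : ℝ) (hy : y ∈ P) : ‖y - m‖ ≤ ‖y - (q + t • (p - q))‖ := by
  obtain ⟨hp, hq, -, hF, -⟩ := hJ
  obtain ⟨-, ⟨p', hp', q', hq', hm⟩, -⟩ := hP
  have hd : ∀ u ∈ P, ⟪q + t • (p - q) - m, u⟫_ℝ = 0 := by
    intro u hu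
    have e : q + t • (p - q) - m = (1 - t) • (q - m) + t • (p - m) := by module
    rw [e, inner_add_left, real_inner_smul_left, real_inner_smul_left, hF.2 q hq u hu,
      hF.2 p hp u hu]
    ring
  have hdm : ⟪q + t • (p - q) - m, y - m⟫_ℝ = 0 := by
    have e : y - m = y - (q' + (1 / 2 : ℝ) • (p' - q')) := by rw [hm]; rfl
    rw [e, inner_sub_right, inner_add_right, real_inner_smul_right, inner_sub_right, hd y hy,
      hd q' hq', hd p' hp']
    ring
  have h1 := pyth hdm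
  rw [add_sub_cancel] at h1
  refine (abs_le_of_sq_le_sq' ?_ (norm_nonneg _)).2
  rw [h1]
  exact le_add_of_nonneg_right (sq_nonneg _)

theorem view_all {P Q : Finset H} {m p q : H} {a t : ℝ} (hP : Pre P m a) (hJ : Jinv P m a Q p q)
    (h0 : 0 ≤ t) (h1 : t ≤ 1) : ViewAll (P ∪ Q) (q + t • (p - q)) := by
  intro s hs
  have ha := hP.1
  have c1 := hP.2.2.2 s hs
  have c2 : Cv {y : H | ‖y - m‖ ≤ s / 32} 1 (s / 32) := Cv.ball m fun y hy => hy
  have c3 := (hJ.2.2.2.2.2.2 t h0 h1).total hs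
  refine ((c1.union c2).union c3).mono ?_ (by unfold C0 C1; norm_num) le_rfl
  rintro y ⟨hy, hys⟩
  rcases Finset.mem_union.mp hy with hy | hy
  · left
    by_cases h : s / 32 - 3 * a ≤ ‖y - m‖
    · exact Or.inl ⟨hy, (presub_le hP hJ t hy).trans hys, h⟩
    · right
      change ‖y - m‖ ≤ s / 32
      linarith [not_le.mp h]
  · exact Or.inr ⟨hy, hys⟩

theorem view_all_ends {P Q : Finset H} {m p q : H} {a : ℝ} (hP : Pre P m a)
    (hJ : Jinv P m a Q p q) : ViewAll (P ∪ Q) p ∧ ViewAll (P ∪ Q) q := by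
  have h1 := view_all (t := 1) hP hJ zero_le_one le_rfl
  have h0 := view_all (t := 0) hP hJ le_rfl zero_le_one
  rw [one_smul, add_sub_cancel] at h1
  rw [zero_smul, add_zero] at h0
  exact ⟨h1, h0⟩

theorem pre_sub {P Q : Finset H} {m p q : H} {a θ : ℝ} (hP : Pre P m a) (hJ : Jinv P m a Q p q)
    (hθ : 0 < θ) (hθ' : θ ≤ 1 / 512) : Pre (P ∪ Q) (mid p q) (θ * ‖p - q‖) := by
  have ha := hP.1
  have hl : 0 < ‖p - q‖ := norm_pos_iff.mpr (sub_ne_zero.mpr hJ.2.2.1)
  have hb := hJ.2.2.2.2.1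
  have hn := norm_nonneg (mid p q - m)
  have hθl : θ * ‖p - q‖ ≤ 1 / 512 * ‖p - q‖ := mul_le_mul_of_nonneg_right hθ' hl.le
  have hPle : ∀ y ∈ P, ‖y - m‖ ≤ ‖y - mid p q‖ := fun y hy => presub_le hP hJ (1 / 2) hy
  have htri : ∀ y, ‖y - mid p q‖ ≤ ‖y - m‖ + ‖mid p q - m‖ := by
    intro y
    have := norm_sub_le (y - m) (mid p q - m)
    rwa [sub_sub_sub_cancel_right] at this
  refine ⟨mul_pos hθ hl, ⟨p, Finset.mem_union_right _ hJ.1, q, Finset.mem_union_right _ hJ.2.1,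
    rfl⟩, ?_, ?_⟩
  · intro y hy
    rcases Finset.mem_union.mp hy with hy | hy
    · have := hP.2.2.1 y hy
      have := hPle y hy
      linarith
    · have := far_mid (hJ.2.2.2.2.2.1 y hy)
      linarith
  · intro s hs
    by_cases h : s < 100 * a
    · refine ((hJ.2.2.2.2.2.2 (1 / 2) (by norm_num) (by norm_num)).total hs).mono ?_ le_rfl le_rfl
      rintro y ⟨hy, hys, -⟩
      rcases Finset.mem_union.mp hy with hy | hy
      · have := hP.2.2.1 y hy
        have := hPle y hy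
        linarith
      · exact ⟨hy, hys⟩
    · refine (hP.2.2.2 s hs).mono ?_ le_rfl le_rfl
      rintro y ⟨hy, hys, hy2⟩
      have h3 := htri y
      rcases Finset.mem_union.mp hy with hy | hy
      · exact ⟨hy, (hPle y hy).trans hys, by linarith⟩
      · have := hJ.2.2.2.1.1 y hy
        have := not_lt.mp h
        linarith

end Vale.Agent.P208
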