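import Vale.Agent.P208.Defs

open scoped Classical InnerProductSpace

namespace Vale.Agent.P208

variable {H : Type} [NormedAddCommGroup H] [InnerProductSpace ℝ H]

variable {V : Type} [NormedAddCommGroup V] [InnerProductSpace ℝ V]

theorem emb_bilip {D ε : ℝ} {t : GT H} {φ : H → V} (h : EmbE D ε t φ) : BiLip D t.root φ := by
  cases t with
  | leaf P => exact h
  | node P l r => exact h.1

theorem emb_congr {D ε : ℝ} {t : GT H} {φ ψ : H → V} (h : EmbE D ε t φ)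
    (hψ : ∀ x ∈ t.root, ψ x = φ x) : EmbE D ε t ψ := by
  have hb : BiLip D t.root ψ := fun x hx y hy => by
    rw [hψ x hx, hψ y hy]
    exact emb_bilip h x hx y hy
  cases t with
  | leaf P => exact hb
  | node P l r =>
    obtain ⟨-, ⟨ψ₁, a1, a2⟩, ⟨ψ₂, b1, b2⟩⟩ := h
    refine ⟨hb, ⟨ψ₁, fun x hx => ?_, a2⟩, ⟨ψ₂, fun x hx => ?_, b2⟩⟩
    · rw [hψ x hx]
      exact a1 x hx
    · rw [hψ x hx]
      exact b1 x hx

theorem win_leaf {D : ℝ} {P : Finset H} {K : Set (H → V)} (hc : Cover P)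
    (h : ∀ φ ∈ K, ¬ BiLip D P φ) : Win D P K :=
  ⟨.leaf P, rfl, hc, h⟩

theorem win_mono {D : ℝ} {P : Finset H} {K K' : Set (H → V)} (h : Win D P K')
    (hK : ∀ φ ∈ K, BiLip D P φ → φ ∈ K') : Win D P K := by
  obtain ⟨t, rfl, h1, h2⟩ := h
  exact ⟨t, rfl, h1, fun φ hφ he => h2 φ (hK φ hφ (emb_bilip he)) he⟩

theorem winBasic_eq {P : Finset H} {φ ψ : H → V} (h : ∀ x ∈ P, ‖ψ x - φ x‖ ≤ 0) :
    ∀ x ∈ P, ψ x = φ x := fun x hx => sub_eq_zero.1 (norm_le_zero_iff.1 (h x hx))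

theorem win_or {D : ℝ} {P : Finset H} {K K1 K2 : Set (H → V)} (h1 : Win D P K1) (h2 : Win D P K2)
    (hK : ∀ φ ∈ K, BiLip D P φ → φ ∈ K1 ∨ φ ∈ K2) : Win D P K := by
  obtain ⟨t1, e1, g1, w1⟩ := h1
  obtain ⟨t2, e2, g2, w2⟩ := h2
  refine ⟨.node P t1 t2, rfl, ⟨e1.ge, e2.ge, g1, g2⟩, ?_⟩
  rintro φ hφ ⟨hb, ⟨ψ₁, a1, a2⟩, ⟨ψ₂, b1, b2⟩⟩
  rcases hK φ hφ hb with c | c
  · exact w1 φ c (emb_congr a2 fun x hx => (winBasic_eq a1 x (e1 ▸ hx)).symm)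
  · exact w2 φ c (emb_congr b2 fun x hx => (winBasic_eq b1 x (e2 ▸ hx)).symm)

theorem win_ext {D : ℝ} {P P' : Finset H} {K K' : Set (H → V)} (hPP : P ⊆ P') (h : Win D P' K')
    (hK : ∀ φ ∈ K, ∀ ψ : H → V, (∀ x ∈ P, ψ x = φ x) → BiLip D P' ψ → ψ ∈ K') : Win D P K := by
  obtain ⟨t, rfl, g, w⟩ := h
  refine ⟨.node P t t, rfl, ⟨hPP, hPP, g, g⟩, ?_⟩
  rintro φ hφ ⟨-, ⟨ψ, a1, a2⟩, -⟩
  exact w ψ (hK φ hφ ψ (winBasic_eq a1) (emb_bilip a2)) a2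

theorem viol_step {A B X Y : V} {b : ℝ} (hAB : A ≠ B) (h : b * ‖A - B‖ ≤ |⟪A - B, X - Y⟫_ℝ|) :
    ‖A - B‖ / 2 + b / 2 ≤ ‖X - A‖ ∨ ‖A - B‖ / 2 + b / 2 ≤ ‖X - B‖ ∨
      ‖A - B‖ / 2 + b / 2 ≤ ‖Y - A‖ ∨ ‖A - B‖ / 2 + b / 2 ≤ ‖Y - B‖ := by
  by_contra hc
  simp only [not_or, not_le] at hc
  obtain ⟨c1, c2, c3, c4⟩ := hc
  have hp : 0 < ‖A - B‖ := norm_pos_iff.2 (sub_ne_zero.2 hAB)
  have key : ∀ X Y : V, ‖X - B‖ < ‖A - B‖ / 2 + b / 2 → ‖Y - A‖ < ‖A - B‖ / 2 + b / 2 →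
      ⟪A - B, X - Y⟫_ℝ < b * ‖A - B‖ := by
    intro X Y h1 h2
    have e : X - Y = (X - B) - (Y - A) - (A - B) := by abel
    have a1 := real_inner_le_norm (A - B) (X - B)
    have a2 := (abs_le.1 (abs_real_inner_le_norm (A - B) (Y - A))).1
    rw [e, inner_sub_right, inner_sub_right, real_inner_self_eq_norm_sq]
    nlinarith
  have k1 := key X Y c2 c3
  have k2 := key Y X c4 c1
  rw [← neg_sub X Y, inner_neg_right] at k2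
  exact absurd h (not_le.2 (abs_lt.2 ⟨by linarith, k1⟩))

end Vale.Agent.P208
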