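import Vale.Agent.P208.JSmall
import Vale.Agent.P208.JLast
import Vale.Agent.P208.PreSub
import Vale.Agent.P208.WinBasic

open scoped Classical InnerProductSpace

namespace Vale.Agent.P208

variable {H : Type} [NormedAddCommGroup H] [InnerProductSpace ℝ H]

variable {V : Type} [NormedAddCommGroup V] [InnerProductSpace ℝ V]

theorem search_sub (P Q N : Finset H) (J : ℕ) (z p q : H) (i : ℕ) :
    P ∪ (Q ∪ N ∪ marks J z p q i) ⊆ P ∪ (Q ∪ N ∪ marks J z p q (i + 1)) := by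
  refine Finset.union_subset_union subset_rfl (Finset.union_subset_union subset_rfl fun y hy => ?_)
  obtain ⟨j, hj, e⟩ := mem_marks.mp hy
  exact mem_marks.mpr ⟨j, by omega, e⟩

theorem search_mem (P Q N : Finset H) (J : ℕ) (z p q : H) (i : ℕ) :
    mk J z p q i ∈ P ∪ (Q ∪ N ∪ marks J z p q i) :=
  Finset.mem_union_right _ (Finset.mem_union_right _ (mem_marks.mpr ⟨i, le_rfl, rfl⟩))

theorem search_claim {D S θ a : ℝ} (hS0 : 0 ≤ S) {P Q N : Finset H} {m p q z : H} {J : ℕ}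
    {K : Set (H → V)} (hdet : Det P K) (hPre : Pre P m a) (hJ : Jinv P m a Q p q)
    (hSub : Sub P Q p q θ N z)
    (hacc : ∀ (Q' : Finset H) (p' q' : H), Jinv P m a Q' p' q' → Cover (P ∪ Q') →
      ‖p - q‖ / (4 * 2 ^ J) ≤ ‖p' - q'‖ →
      Win D (P ∪ Q') (K ∩ {φ | S * ‖p' - q'‖ ≤ ‖φ p' - φ q'‖})) (k : ℕ) :
    ∀ i, i + k = J → Cover (P ∪ (Q ∪ N ∪ marks J z p q i)) →
      Win D (P ∪ (Q ∪ N ∪ marks J z p q i)) (K ∩ {φ | S * (‖p - q‖ / 2 -
        (2 : ℝ) ^ i / (4 * 2 ^ J) * ‖p - q‖ + 2 * θ ^ 2 * ‖p - q‖) ≤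
          ‖φ (mk J z p q i) - φ p‖}) := by
  have hl : 0 ≤ ‖p - q‖ := norm_nonneg _
  have hJ1 : (1 : ℝ) ≤ 2 ^ J := one_le_pow₀ (by norm_num)
  induction k with
  | zero =>
    intro i hi hc
    obtain rfl : i = J := by omega
    obtain ⟨l1, l2⟩ := last_len i hJ hSub
    refine win_mono (hacc _ _ _ (jinv_last i hJ hSub) hc (le_trans ?_ l1)) fun φ hφ _ =>
      ⟨hφ.1, ?_⟩
    · exact div_le_div_of_nonneg_left hl (by norm_num) (by linarith)
    · have h1 : S * (‖p - q‖ / 2 - (2 : ℝ) ^ i / (4 * 2 ^ i) * ‖p - q‖ + 2 * θ ^ 2 * ‖p - q‖) ≤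
          ‖φ (mk i z p q i) - φ p‖ := hφ.2
      have e : (2 : ℝ) ^ i / (4 * 2 ^ i) = 1 / 4 := by field_simp
      rw [e, norm_sub_rev (φ _)] at h1
      refine le_trans (mul_le_mul_of_nonneg_left ?_ hS0) h1
      linarith
  | succ k ih =>
    intro i hi hc
    have hiJ : i < J := by omega
    have hJs := jinv_small hJ hSub hiJ
    have hc' : Cover (P ∪ (Q ∪ N ∪ marks J z p q (i + 1))) := by
      refine cover_extend hc fun y hy hy' => ?_
      have : y = mk J z p q (i + 1) := by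
        simp only [Finset.mem_union, not_or] at hy hy'
        rcases hy with hy | (hy | hy) | hy
        · exact absurd hy hy'.1
        · exact absurd hy hy'.2.1.1
        · exact absurd hy hy'.2.1.2
        · obtain ⟨j, hj, e⟩ := mem_marks.mp hy
          by_cases hj' : j ≤ i
          · exact absurd (mem_marks.mpr ⟨j, hj', e⟩) hy'.2.2
          · rw [e, show j = i + 1 by omega]
      rw [this]
      exact (view_all_ends hPre hJs).1
    have hi1 : (1 : ℝ) ≤ 2 ^ i := one_le_pow₀ (by norm_num)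
    have w1 := hacc _ _ _ hJs hc' (by
      rw [mk_dist, div_mul_eq_mul_div]
      exact div_le_div_of_nonneg_right (le_mul_of_one_le_left hl hi1) (by positivity))
    have w2 := ih (i + 1) (by omega) hc'
    have w3 : Win D (P ∪ (Q ∪ N ∪ marks J z p q (i + 1))) (K ∩ {φ | S * (‖p - q‖ / 2 -
        (2 : ℝ) ^ i / (4 * 2 ^ J) * ‖p - q‖ + 2 * θ ^ 2 * ‖p - q‖) ≤
          ‖φ (mk J z p q i) - φ p‖}) := by
      refine win_or w1 w2 fun φ hφ _ => ?_
      by_contra hn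
      rw [not_or] at hn
      have n1 : ¬ S * ‖mk J z p q (i + 1) - mk J z p q i‖ ≤
          ‖φ (mk J z p q (i + 1)) - φ (mk J z p q i)‖ := fun h => hn.1 ⟨hφ.1, h⟩
      have n2 : ¬ S * (‖p - q‖ / 2 - (2 : ℝ) ^ (i + 1) / (4 * 2 ^ J) * ‖p - q‖ +
          2 * θ ^ 2 * ‖p - q‖) ≤ ‖φ (mk J z p q (i + 1)) - φ p‖ := fun h => hn.2 ⟨hφ.1, h⟩
      have n3 : S * (‖p - q‖ / 2 - (2 : ℝ) ^ i / (4 * 2 ^ J) * ‖p - q‖ + 2 * θ ^ 2 * ‖p - q‖) ≤
          ‖φ (mk J z p q i) - φ p‖ := hφ.2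
      have n4 := norm_sub_le_norm_sub_add_norm_sub (φ (mk J z p q i)) (φ (mk J z p q (i + 1)))
        (φ p)
      rw [mk_dist, norm_sub_rev (φ _)] at n1
      have e : (2 : ℝ) ^ (i + 1) / (4 * 2 ^ J) = 2 * (2 ^ i / (4 * 2 ^ J)) := by ring
      rw [e] at n2
      push Not at n1 n2
      linarith
    refine win_ext (search_sub P Q N J z p q i) w3 fun φ hφ ψ hψ _ =>
      ⟨hdet φ ψ (fun x hx => hψ x (Finset.mem_union_left _ hx)) hφ.1, ?_⟩
    have n3 : S * (‖p - q‖ / 2 - (2 : ℝ) ^ i / (4 * 2 ^ J) * ‖p - q‖ + 2 * θ ^ 2 * ‖p - q‖) ≤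
        ‖φ (mk J z p q i) - φ p‖ := hφ.2
    rw [← hψ _ (search_mem P Q N J z p q i), ← hψ p (Finset.mem_union_right _
      (Finset.mem_union_left _ (Finset.mem_union_left _ hJ.1)))] at n3
    exact n3

theorem search {D S θ a : ℝ} (hS0 : 0 ≤ S) {P Q N : Finset H} {m p q z : H} {J : ℕ} (hJ0 : 0 < J)
    {K : Set (H → V)} (hdet : Det P K) (hPre : Pre P m a) (hJ : Jinv P m a Q p q)
    (hSub : Sub P Q p q θ N z) (hcov : Cover (P ∪ Q ∪ N))
    (hacc : ∀ (Q' : Finset H) (p' q' : H), Jinv P m a Q' p' q' → Cover (P ∪ Q') →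
      ‖p - q‖ / (4 * 2 ^ J) ≤ ‖p' - q'‖ →
      Win D (P ∪ Q') (K ∩ {φ | S * ‖p' - q'‖ ≤ ‖φ p' - φ q'‖})) :
    Win D (P ∪ Q ∪ N) (K ∩ {φ | S * (‖p - q‖ / 2 + 2 * θ ^ 2 * ‖p - q‖) +
      D * (‖p - q‖ / (4 * 2 ^ J)) ≤ ‖φ z - φ p‖}) := by
  have hl : 0 ≤ ‖p - q‖ := norm_nonneg _
  have hsub : P ∪ Q ∪ N ⊆ P ∪ (Q ∪ N ∪ marks J z p q 0) := by
    rw [Finset.union_assoc]
    exact Finset.union_subset_union subset_rfl Finset.subset_union_left
  have hc : Cover (P ∪ (Q ∪ N ∪ marks J z p q 0)) := by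
    refine cover_extend hcov fun y hy hy' => ?_
    have : y = mk J z p q 0 := by
      simp only [Finset.mem_union, not_or] at hy hy'
      rcases hy with hy | (hy | hy) | hy
      · exact absurd hy hy'.1.1
      · exact absurd hy hy'.1.2
      · exact absurd hy hy'.2
      · obtain ⟨j, hj, e⟩ := mem_marks.mp hy
        rw [e, show j = 0 by omega]
    rw [this]
    exact (view_all_ends hPre (jinv_small hJ hSub hJ0)).2.mono (search_sub P Q N J z p q 0)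
  have w := search_claim hS0 hdet hPre hJ hSub hacc J 0 (by omega) hc
  have hp : p ∈ P ∪ Q ∪ N := Finset.mem_union_left _ (Finset.mem_union_right _ hJ.1)
  have hz : z ∈ P ∪ Q ∪ N := Finset.mem_union_right _ hSub.2.2.1
  refine win_ext hsub w fun φ hφ ψ hψ hB => ⟨hdet φ ψ (fun x hx =>
    hψ x (Finset.mem_union_left _ (Finset.mem_union_left _ hx))) hφ.1, ?_⟩
  have n1 : S * (‖p - q‖ / 2 + 2 * θ ^ 2 * ‖p - q‖) + D * (‖p - q‖ / (4 * 2 ^ J)) ≤
      ‖φ z - φ p‖ := hφ.2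
  rw [← hψ z hz, ← hψ p hp] at n1
  have n2 := (hB z (hsub hz) _ (search_mem P Q N J z p q 0)).2
  have e : ‖z - mk J z p q 0‖ = ‖p - q‖ / (4 * 2 ^ J) := by
    unfold mk
    rw [sub_add_cancel_left, norm_neg, norm_smul, Real.norm_of_nonneg (by positivity)]
    ring
  rw [e] at n2
  have n3 := norm_sub_le_norm_sub_add_norm_sub (ψ z) (ψ (mk J z p q 0)) (ψ p)
  have n4 : 0 ≤ S * ((2 : ℝ) ^ 0 / (4 * 2 ^ J) * ‖p - q‖) := by positivity
  show S * (‖p - q‖ / 2 - (2 : ℝ) ^ 0 / (4 * 2 ^ J) * ‖p - q‖ + 2 * θ ^ 2 * ‖p - q‖) ≤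
    ‖ψ (mk J z p q 0) - ψ p‖
  linarith

end Vale.Agent.P208
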