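import Vale.Agent.P208.Big
import Vale.Agent.P208.Geo

open scoped Classical InnerProductSpace

namespace Vale.Agent.P208

variable {H : Type} [NormedAddCommGroup H] [InnerProductSpace ℝ H]

lemma segLast_param {x σ : ℝ} (h : |x| ≤ σ) : ∃ t : ℝ, 0 ≤ t ∧ t ≤ 1 ∧ x = -σ + t * (2 * σ) := by
  obtain ⟨h1, h2⟩ := abs_le.1 h
  rcases ((abs_nonneg x).trans h).eq_or_lt with h0 | h0
  · exact ⟨0, le_rfl, zero_le_one, by linarith⟩
  · refine ⟨(x + σ) / (2 * σ), div_nonneg (by linarith) (by linarith), ?_, ?_⟩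
    · rw [div_le_one (by linarith)]; linarith
    · field_simp; ring

theorem seg_last {P Q N : Finset H} {m p q z : H} {a θ : ℝ} (J : ℕ) (hJ : Jinv P m a Q p q)
    (hS : Sub P Q p q θ N z) :
    Seg (Q ∪ N ∪ marks J z p q J) p (mk J z p q J) := by
  intro t ht0 ht1
  obtain ⟨hl1, hl2⟩ := last_len J hJ hS
  obtain ⟨hθ0, hθ1, hz, ⟨hF1, hF2⟩, -⟩ := id hS
  obtain ⟨hp, hq, hpq, -⟩ := id hJ
  set l := ‖p - q‖ with hl
  have hl0 : 0 < l := norm_pos_iff.2 (sub_ne_zero.2 hpq)
  set δ := z - mid p q with hδ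
  have hθl : θ * l ≤ l / 512 := by nlinarith
  have hδn : ‖δ‖ ≤ l / 512 := (hF1 z hz).trans hθl
  have hδQ : ∀ u ∈ Q, ⟪δ, u⟫_ℝ = 0 := fun u hu => hF2 z hz u (Finset.mem_union_right _ hu)
  have hδd : ⟪δ, p - q⟫_ℝ = 0 := by rw [inner_sub_right, hδQ p hp, hδQ q hq, sub_zero]
  set τ : ℝ := (1 + t) / 4 with hτ
  have hτ1 : 1 / 4 ≤ τ := by rw [hτ]; linarith
  have hτ2 : τ ≤ 1 / 2 := by rw [hτ]; linarith
  have hτa : |τ| = τ := abs_of_nonneg (by linarith)
  have hcJ : (2 : ℝ) ^ J / (4 * 2 ^ J) = 1 / 4 := by field_simp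
  have hw : mk J z p q J + t • (p - mk J z p q J) = mid p q + τ • (p - q) + (1 - t) • δ := by
    rw [mk, hcJ, hδ, hτ, mid]; module
  rw [hw]
  set w := mid p q + τ • (p - q) + (1 - t) • δ with hwdef
  set l' := ‖p - mk J z p q J‖ with hl'
  have hl'0 : 0 ≤ l' := norm_nonneg _
  have hl'3 : l' ≤ 3 / 10 * l := by
    have : θ ^ 2 ≤ 1 / 40 := by nlinarith
    nlinarith
  have hdQ : ∀ u ∈ Q, ⟪(1 - t) • δ, u⟫_ℝ = 0 := fun u hu => by
    rw [real_inner_smul_left, hδQ u hu, mul_zero]
  have hdd : ⟪(1 - t) • δ, p - q⟫_ℝ = 0 := by rw [real_inner_smul_left, hδd, mul_zero]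
  have hV : VS Q w l := old_view hJ hdQ (by rw [hτa]; exact hτ2)
  have hmk : ∀ j, mk J z p q j - w =
      ((2 : ℝ) ^ j / (4 * 2 ^ J) - τ) • (p - q) + t • δ := fun j => by
    rw [mk, hwdef, hδ]; module
  have hmkl : ∀ j, |(2 : ℝ) ^ j / (4 * 2 ^ J) - τ| * l ≤ ‖mk J z p q j - w‖ := fun j => by
    rw [hmk j]
    refine abs_le_of_sq_le_sq' ?_ (norm_nonneg _) |>.2
    rw [norm_add_sq_real, norm_smul, real_inner_smul_left, real_inner_smul_right,
      real_inner_comm, hδd, Real.norm_eq_abs]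
    nlinarith [sq_nonneg ‖t • δ‖]
  intro r β s hr hβ0 hβ hs0 hs
  by_cases hsl : l / 8 ≤ s
  · rw [Finset.union_assoc]
    refine big_case hV hl0 hl'0 hl'3 (mid p q) ((1 / 4 : ℝ) • (p - q)) ?_ ?_ hr hβ0 hβ hs hsl
    · rw [norm_smul, Real.norm_of_nonneg (by norm_num)]; linarith
    · intro y hy
      rcases Finset.mem_union.1 hy with hy | hy
      · have h1 := (hF1 y hy).trans hθl
        refine ⟨⟨0, le_rfl, zero_le_one, by simpa using h1⟩, ?_⟩
        have e : y - w = (y - mid p q) - τ • (p - q) - (1 - t) • δ := by rw [hwdef]; abel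
        rw [e]
        refine (norm_sub_le _ _).trans ?_
        have h2 := norm_sub_le (y - mid p q) (τ • (p - q))
        rw [norm_smul, Real.norm_eq_abs, hτa] at h2
        rw [norm_smul, Real.norm_of_nonneg (by linarith)]
        nlinarith [norm_nonneg δ]
      · obtain ⟨j, hj, rfl⟩ := mem_marks.1 hy
        have c0 := mk_coef_pos J j
        have c1 := mk_coef_le hj
        refine ⟨⟨4 * ((2 : ℝ) ^ j / (4 * 2 ^ J)), by linarith, by linarith, ?_⟩, ?_⟩
        · have e : mk J z p q j - (mid p q + (4 * ((2 : ℝ) ^ j / (4 * 2 ^ J))) •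
              ((1 / 4 : ℝ) • (p - q))) = δ := by
            rw [mk, hδ]; module
          rw [e]; exact hδn
        · rw [hmk j]
          refine (norm_add_le _ _).trans ?_
          rw [norm_smul, norm_smul, Real.norm_of_nonneg ht0, Real.norm_eq_abs,
            abs_of_nonpos (by linarith)]
          nlinarith [norm_nonneg δ]
  · push Not at hsl
    have hN : ∀ y ∈ N, s < ‖y - w‖ := fun y hy => by
      have h1 := cluster_pyth (τ := τ) hJ hS hdd hy
      rw [hτa] at h1
      have h2 : τ * l ≤ ‖y - w‖ :=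
        (abs_le_of_sq_le_sq' (by rw [h1]; nlinarith [sq_nonneg ‖y - (mid p q + (1 - t) • δ)‖])
          (norm_nonneg _)).2
      nlinarith
    by_cases h38 : 3 / 8 ≤ τ
    · refine (hV r β s hr hβ0 hβ hs0 hs).mono ?_ (bud_anti hr hs0 hl'0 (by linarith)) le_rfl
      rintro y ⟨hy, h1, h2⟩
      refine ⟨?_, h1, h2⟩
      rcases Finset.mem_union.1 hy with hy | hy
      · rcases Finset.mem_union.1 hy with hy | hy
        · exact hy
        · exact absurd (hN y hy) (not_lt.2 h2)
      · obtain ⟨j, hj, rfl⟩ := mem_marks.1 hy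
        have c1 := mk_coef_le hj
        have h3 := hmkl j
        rw [abs_of_nonpos (by linarith)] at h3
        nlinarith
    · push Not at h38
      refine (Cv.line (z + (τ - s / l) • (p - q)) ((2 * (s / l)) • (p - q)) hr ?_ ?_).mono
        subset_rfl (by linarith [bud_ge hr hβ0 hβ hs0 hl'0]) le_rfl
      · rw [norm_smul, Real.norm_of_nonneg (by positivity), ← hl]
        have : 2 * (s / l) * l = 2 * s := by field_simp
        linarith
      · rintro y ⟨hy, h1, h2⟩
        rcases Finset.mem_union.1 hy with hy | hy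
        · rcases Finset.mem_union.1 hy with hy | hy
          · have h3 := old_far (τ := τ) hJ hdQ hy
            rw [hτa] at h3
            nlinarith
          · exact absurd (hN y hy) (not_lt.2 h2)
        · obtain ⟨j, hj, rfl⟩ := mem_marks.1 hy
          have h3 : |(2 : ℝ) ^ j / (4 * 2 ^ J) - τ| ≤ s / l := by
            rw [le_div_iff₀ hl0]; exact (hmkl j).trans h2
          obtain ⟨u, hu0, hu1, hu⟩ := segLast_param h3
          refine ⟨u, hu0, hu1, ?_⟩
          have e : mk J z p q j - (z + (τ - s / l) • (p - q) + u • ((2 * (s / l)) • (p - q))) =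
              0 := by
            rw [mk, show (2 : ℝ) ^ j / (4 * 2 ^ J) = τ + (-(s / l) + u * (2 * (s / l))) by linarith]
            module
          rw [e, norm_zero]; positivity

end Vale.Agent.P208
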