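import Vale.Agent.P208.Big
import Vale.Agent.P208.Geo

open scoped Classical InnerProductSpace

namespace Vale.Agent.P208

variable {H : Type} [NormedAddCommGroup H] [InnerProductSpace ℝ H]

theorem segSmall_bud {r β s l' ρ : ℝ} (hr : 0 < r) (hs : 0 ≤ s) (h0 : 0 ≤ l') (h1 : l' ≤ ρ) :
    bud r β s 0 - 7000 * ρ ^ 2 / r ^ 2 ≤ bud r β s l' := by
  unfold bud
  have a1 : min (0 : ℝ) (4 * s) = 0 := min_eq_left (by linarith)
  have a2 : 0 ≤ min l' (4 * s) := le_min h0 (by linarith)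
  have a3 : min l' (4 * s) ≤ ρ := (min_le_left _ _).trans h1
  have a4 : min l' (4 * s) ^ 2 ≤ ρ ^ 2 := pow_le_pow_left₀ a2 a3 2
  rw [a1, add_sub_assoc, ← sub_div]
  have hr2 : 0 < r ^ 2 := by positivity
  have := div_le_div_of_nonneg_right (show 130000 * s ^ 2 - 2 * β ^ 2 - 7000 * (0 : ℝ) ^ 2 -
    7000 * ρ ^ 2 ≤ 130000 * s ^ 2 - 2 * β ^ 2 - 7000 * min l' (4 * s) ^ 2 by linarith) hr2.le
  linarith

theorem segSmall_core {P Q N M : Finset H} {m p q z : H} {a θ τ l' : ℝ}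
    (hJ : Jinv P m a Q p q) (hS : Sub P Q p q θ N z) (hτ0 : 0 ≤ τ) (hτ : τ ≤ 1 / 4)
    (hl0 : 0 ≤ l') (hl1 : l' ≤ τ * ‖p - q‖)
    (hM : ∀ y ∈ M, ∃ c : ℝ, 0 ≤ c ∧ c ≤ 1 / 4 ∧ c ≤ 2 * τ ∧ y = z + c • (p - q)) :
    VS (Q ∪ N ∪ M) (z + τ • (p - q)) l' := by
  intro r β s hr hβ0 hβ hs0 hs
  have hl : 0 < ‖p - q‖ := norm_pos_iff.2 (sub_ne_zero.2 hJ.2.2.1)
  obtain ⟨hθ0, hθ, hz, hF, hV⟩ := id hS
  have hθl : θ * ‖p - q‖ ≤ ‖p - q‖ / 512 := by nlinarith
  have hδ : ‖z - mid p q‖ ≤ ‖p - q‖ / 512 := (hF.1 z hz).trans hθl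
  have hδQ : ∀ u ∈ Q, ⟪z - mid p q, u⟫_ℝ = 0 := fun u hu =>
    hF.2 z hz u (Finset.mem_union_right _ hu)
  have hδd : ⟪z - mid p q, p - q⟫_ℝ = 0 := by
    rw [inner_sub_right, hδQ p hJ.1, hδQ q hJ.2.1, sub_zero]
  have hw : z + τ • (p - q) = mid p q + τ • (p - q) + (z - mid p q) := by abel
  have haτ : |τ| = τ := abs_of_nonneg hτ0
  have hMd : ∀ c : ℝ, ‖z + c • (p - q) - (z + τ • (p - q))‖ = |c - τ| * ‖p - q‖ := by
    intro c
    rw [add_sub_add_left_eq_sub, ← sub_smul, norm_smul, Real.norm_eq_abs]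
  have hρ4 : τ * ‖p - q‖ ≤ ‖p - q‖ / 4 := by nlinarith
  have hρ0 : 0 ≤ τ * ‖p - q‖ := by positivity
  by_cases hbig : ‖p - q‖ / 8 ≤ s
  · rw [Finset.union_assoc]
    refine big_case (l := ‖p - q‖) ?_ hl hl0 (by linarith) (mid p q) ((1 / 4 : ℝ) • (p - q)) ?_ ?_
      hr hβ0 hβ hs hbig
    · rw [hw]
      exact old_view hJ hδQ (by rw [haτ]; linarith)
    · rw [norm_smul, Real.norm_eq_abs, abs_of_pos (by norm_num)]
      linarith
    · intro y hy
      rcases Finset.mem_union.1 hy with hy | hy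
      · have h1 : ‖y - mid p q‖ ≤ ‖p - q‖ / 512 := (hF.1 y hy).trans hθl
        refine ⟨⟨0, le_rfl, zero_le_one, by simpa using h1⟩, ?_⟩
        have e1 : y - (z + τ • (p - q)) = (y - mid p q) - (z - mid p q) - τ • (p - q) := by abel
        have h2 := norm_sub_le ((y - mid p q) - (z - mid p q)) (τ • (p - q))
        have h3 := norm_sub_le (y - mid p q) (z - mid p q)
        rw [norm_smul, Real.norm_eq_abs, haτ] at h2
        rw [e1]
        linarith
      · obtain ⟨c, c0, c1, c2, rfl⟩ := hM y hy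
        refine ⟨⟨4 * c, by linarith, by linarith, ?_⟩, ?_⟩
        · have e1 : z + c • (p - q) - (mid p q + (4 * c) • (1 / 4 : ℝ) • (p - q)) =
              z - mid p q := by
            rw [smul_smul, show 4 * c * (1 / 4) = c by ring]; abel
          rw [e1]; exact hδ
        · rw [hMd]
          have : |c - τ| ≤ 6 / 10 := abs_le.2 ⟨by linarith, by linarith⟩
          exact mul_le_mul_of_nonneg_right this hl.le
  have hbig' : s < ‖p - q‖ / 8 := not_le.1 hbig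
  have hQ : ∀ y ∈ Q, s < ‖y - (z + τ • (p - q))‖ := by
    intro y hy
    have := old_far (τ := τ) hJ hδQ hy
    rw [← hw, haτ] at this
    nlinarith
  have hpy : ∀ y ∈ N, ‖y - (z + τ • (p - q))‖ ^ 2 = ‖y - z‖ ^ 2 + (τ * ‖p - q‖) ^ 2 := by
    intro y hy
    have := cluster_pyth (τ := τ) hJ hS hδd hy
    rwa [← hw, haτ, add_sub_cancel] at this
  have hMρ : ∀ y ∈ M, ‖y - (z + τ • (p - q))‖ ≤ τ * ‖p - q‖ := by
    intro y hy
    obtain ⟨c, c0, c1, c2, rfl⟩ := hM y hy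
    rw [hMd]
    exact mul_le_mul_of_nonneg_right (abs_le.2 ⟨by linarith, by linarith⟩) hl.le
  have hsplit : ∀ y ∈ ann (Q ∪ N ∪ M) (z + τ • (p - q)) β s,
      y ∈ ann N (z + τ • (p - q)) β s ∨ y ∈ ann M (z + τ • (p - q)) β s := by
    rintro y ⟨h1, h2, h3⟩
    rcases Finset.mem_union.1 h1 with h1 | h1
    · rcases Finset.mem_union.1 h1 with h1 | h1
      · exact absurd h3 (not_le.2 (hQ y h1))
      · exact Or.inl ⟨h1, h2, h3⟩
    · exact Or.inr ⟨h1, h2, h3⟩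
  have hCM : Cv (ann M (z + τ • (p - q)) β s) 65 r := by
    refine Cv.line (z + (τ - 32 * r / ‖p - q‖) • (p - q)) ((64 * r / ‖p - q‖) • (p - q)) hr ?_ ?_
    · rw [norm_smul, Real.norm_eq_abs, abs_of_pos (by positivity), div_mul_cancel₀ _ hl.ne']
    · rintro y ⟨h1, -, h3⟩
      obtain ⟨c, -, -, -, rfl⟩ := hM y h1
      rw [hMd] at h3
      have h4 : |(c - τ) * ‖p - q‖| ≤ 32 * r := by
        rw [abs_mul, abs_of_pos hl]; linarith
      have h5 := abs_le.1 h4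
      refine ⟨((c - τ) * ‖p - q‖ + 32 * r) / (64 * r), div_nonneg (by linarith) (by linarith),
        (div_le_one (by linarith)).2 (by linarith), ?_⟩
      rw [smul_smul, add_assoc, ← add_smul]
      have e1 : τ - 32 * r / ‖p - q‖ +
          ((c - τ) * ‖p - q‖ + 32 * r) / (64 * r) * (64 * r / ‖p - q‖) = c := by
        field_simp
        ring
      rw [e1, sub_self, norm_zero]
      linarith
  have hb68 := bud_ge (l := l') hr hβ0 hβ hs0 hl0
  by_cases hsρ : s < τ * ‖p - q‖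
  · refine hCM.mono (fun y hy => (hsplit y hy).resolve_left ?_) (by linarith) le_rfl
    rintro ⟨h1, -, h3⟩
    have h4 := hpy y h1
    have h5 := pow_le_pow_left₀ (norm_nonneg _) h3 2
    nlinarith [sq_nonneg ‖y - z‖]
  have hρs : τ * ‖p - q‖ ≤ s := not_lt.1 hsρ
  have hr2 : 0 < r ^ 2 := by positivity
  have hq0 : 0 ≤ (τ * ‖p - q‖) ^ 2 / r ^ 2 := by positivity
  have hbud := segSmall_bud (β := β) hr hs0 hl0 hl1
  have hCN := shift_cv hV le_rfl hρ0 hpy hr hβ0 hβ hs hρs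
  rw [mul_div_assoc] at hbud hCN
  by_cases hρr : r / 4 ≤ τ * ‖p - q‖
  · refine (hCN.union hCM).mono (fun y hy => hsplit y hy) ?_ le_rfl
    have : 1 / 16 ≤ (τ * ‖p - q‖) ^ 2 / r ^ 2 := by
      rw [le_div_iff₀ hr2]
      have := pow_le_pow_left₀ (by positivity) hρr 2
      linarith
    linarith
  have hρr' : τ * ‖p - q‖ < r / 4 := not_le.1 hρr
  by_cases hβρ : τ * ‖p - q‖ < β
  · refine hCN.mono (fun y hy => (hsplit y hy).resolve_right ?_) (by linarith) le_rfl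
    rintro ⟨h1, h2, -⟩
    linarith [hMρ y h1]
  have hCN' := shift_cv hV le_rfl hρ0 hpy hr hr.le le_rfl hs hρs
  rw [mul_div_assoc] at hCN'
  have hc := bud_center (s := s) (l := 0) hr hβ0 (show β ≤ r / 2 by linarith [not_lt.1 hβρ])
  refine ((Cv.ball (A := {y | ‖y - (z + τ • (p - q))‖ ≤ r}) (z + τ • (p - q))
    fun y hy => hy).union hCN').mono (fun y hy => ?_) (by linarith) le_rfl
  by_cases hy' : ‖y - (z + τ • (p - q))‖ ≤ r
  · exact Or.inl hy'
  · rcases hsplit y hy with h | h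
    · exact Or.inr ⟨h.1, (not_le.1 hy').le, h.2.2⟩
    · exact absurd ((hMρ y h.1).trans (by linarith)) hy'

theorem seg_small {P Q N : Finset H} {m p q z : H} {a θ : ℝ} {J i : ℕ} (hJ : Jinv P m a Q p q)
    (hS : Sub P Q p q θ N z) (hi : i < J) :
    Seg (Q ∪ N ∪ marks J z p q (i + 1)) (mk J z p q (i + 1)) (mk J z p q i) := by
  intro t ht0 ht1
  have hT0 := mk_coef_pos J i
  have hT1 := mk_coef_le (J := J) (i := i + 1) hi
  have e0 : (2 : ℝ) ^ (i + 1) / (4 * 2 ^ J) = 2 * (2 ^ i / (4 * 2 ^ J)) := by ring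
  have e1 : mk J z p q i + t • (mk J z p q (i + 1) - mk J z p q i) =
      z + ((2 : ℝ) ^ i / (4 * 2 ^ J) * (1 + t)) • (p - q) := by
    unfold mk
    rw [add_sub_add_left_eq_sub, ← sub_smul, smul_smul, add_assoc, ← add_smul, e0]
    congr 2
    ring
  rw [e0] at hT1
  rw [e1, mk_dist]
  refine segSmall_core hJ hS (by positivity) (by nlinarith) (by positivity)
    (mul_le_mul_of_nonneg_right (by nlinarith) (norm_nonneg _)) fun y hy => ?_
  obtain ⟨j, hj, rfl⟩ := mem_marks.1 hy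
  have h1 : (2 : ℝ) ^ j / (4 * 2 ^ J) ≤ 2 * (2 ^ i / (4 * 2 ^ J)) := by
    rw [← e0]
    exact div_le_div_of_nonneg_right (pow_le_pow_right₀ (by norm_num) hj) (by positivity)
  exact ⟨_, (mk_coef_pos J j).le, h1.trans hT1, by nlinarith, rfl⟩

end Vale.Agent.P208
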