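import Vale.Agent.P208.CvBasic

open scoped Classical InnerProductSpace

namespace Vale.Agent.P208

variable {H : Type} [NormedAddCommGroup H] [InnerProductSpace ℝ H]

theorem shift_cv {Q : Finset H} {w w' : H} {l d r β s : ℝ} (h : VS Q w l) (hl : 0 ≤ l)
    (hd : 0 ≤ d) (hpy : ∀ y ∈ Q, ‖y - w'‖ ^ 2 = ‖y - w‖ ^ 2 + d ^ 2)
    (hr : 0 < r) (hβ0 : 0 ≤ β) (hβ : β ≤ r) (hs : s ≤ 32 * r) (hds : d ≤ s) :
    Cv (ann Q w' β s) (bud r β s l - 17998 * d ^ 2 / r ^ 2) r := by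
  obtain ⟨s1, hs0, hs1⟩ : ∃ s1 : ℝ, 0 ≤ s1 ∧ s1 ^ 2 = s ^ 2 - d ^ 2 :=
    ⟨√(s ^ 2 - d ^ 2), Real.sqrt_nonneg _, Real.sq_sqrt (by nlinarith)⟩
  obtain ⟨b1, hb0, hb1⟩ : ∃ b1 : ℝ, 0 ≤ b1 ∧ b1 ^ 2 = max (β ^ 2 - d ^ 2) 0 :=
    ⟨√(max (β ^ 2 - d ^ 2) 0), Real.sqrt_nonneg _, Real.sq_sqrt (le_max_right _ _)⟩
  have hS : 0 ≤ s := hd.trans hds
  have h1 : s1 ≤ s := abs_le_of_sq_le_sq' (by nlinarith) hS |>.2
  have h2 : b1 ≤ β := by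
    refine (abs_le_of_sq_le_sq' ?_ hβ0).2
    rw [hb1]
    exact max_le (by nlinarith) (by positivity)
  have h3 : β ^ 2 - d ^ 2 ≤ b1 ^ 2 := hb1 ▸ le_max_left _ _
  obtain ⟨F, hF, hc⟩ := h r b1 s1 hr hb0 (h2.trans hβ) hs0 (h1.trans hs)
  refine ⟨F, hF.trans ?_, fun y hy => hc y ⟨hy.1, ?_, ?_⟩⟩
  · have h4 : (min l (4 * s)) ^ 2 - 16 * d ^ 2 ≤ (min l (4 * s1)) ^ 2 := by
      have a1 : 0 ≤ min l (4 * s) := le_min hl (by positivity)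
      have a2 : (min l (4 * s)) ^ 2 ≤ l ^ 2 := by gcongr; exact min_le_left _ _
      have a3 : (min l (4 * s)) ^ 2 ≤ (4 * s) ^ 2 := by gcongr; exact min_le_right _ _
      rcases min_cases l (4 * s1) with h5 | h5 <;> rw [h5.1] <;> nlinarith
    unfold bud
    rw [add_sub_assoc, ← sub_div]
    gcongr 70 + ?_ / _
    linarith
  · refine (abs_le_of_sq_le_sq' ?_ (norm_nonneg _)).2
    have a1 := hpy y hy.1
    have a2 : β ^ 2 ≤ ‖y - w'‖ ^ 2 := by gcongr; exact hy.2.1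
    rw [hb1]
    exact max_le (by linarith) (by positivity)
  · refine (abs_le_of_sq_le_sq' ?_ hs0).2
    have a1 := hpy y hy.1
    have a2 : ‖y - w'‖ ^ 2 ≤ s ^ 2 := by gcongr; exact hy.2.2
    linarith

theorem shift_vs {Q : Finset H} {w w' : H} {l d : ℝ} (h : VS Q w l) (hl : 0 ≤ l)
    (hd : 0 ≤ d) (hpy : ∀ y ∈ Q, ‖y - w'‖ ^ 2 = ‖y - w‖ ^ 2 + d ^ 2) : VS Q w' l := by
  intro r β s hr hβ0 hβ hs0 hs
  rcases le_or_gt d s with hds | hds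
  · obtain ⟨F, hF, hc⟩ := shift_cv h hl hd hpy hr hβ0 hβ hs hds
    exact ⟨F, hF.trans (sub_le_self _ (by positivity)), hc⟩
  · refine ⟨∅, ?_, fun y hy => ?_⟩
    · have a1 : 0 ≤ min l (4 * s) := le_min hl (by positivity)
      have a3 : (min l (4 * s)) ^ 2 ≤ (4 * s) ^ 2 := by gcongr; exact min_le_right _ _
      have a4 : β ^ 2 ≤ r ^ 2 := by gcongr
      have a5 : -2 ≤ (130000 * s ^ 2 - 2 * β ^ 2 - 7000 * (min l (4 * s)) ^ 2) / r ^ 2 := by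
        rw [le_div_iff₀ (by positivity)]
        nlinarith
      simp only [Finset.card_empty, Nat.cast_zero, bud]
      linarith
    · have a1 := hpy y hy.1
      have a2 : ‖y - w'‖ ^ 2 ≤ s ^ 2 := by gcongr; exact hy.2.2
      nlinarith [sq_nonneg ‖y - w‖]

theorem VS.anti {Q : Finset H} {w : H} {l l' : ℝ} (h : VS Q w l) (hl' : 0 ≤ l') (hll : l' ≤ l) :
    VS Q w l' := by
  intro r β s hr hβ0 hβ hs0 hs
  obtain ⟨F, hF, hc⟩ := h r β s hr hβ0 hβ hs0 hs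
  refine ⟨F, hF.trans ?_, hc⟩
  have a1 : 0 ≤ min l' (4 * s) := le_min hl' (by positivity)
  have a2 : (min l' (4 * s)) ^ 2 ≤ (min l (4 * s)) ^ 2 := by gcongr
  unfold bud
  gcongr 70 + ?_ / _
  linarith

theorem VS.total {Q : Finset H} {w : H} {l s : ℝ} (h : VS Q w l) (hs : 0 < s) :
    Cv {y | y ∈ Q ∧ ‖y - w‖ ≤ s} C1 (s / 32) := by
  obtain ⟨F, hF, hc⟩ := h (s / 32) 0 s (by positivity) le_rfl (by positivity) hs.le (by linarith)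
  refine ⟨F, hF.trans ?_, fun y hy => hc y ⟨hy.1, norm_nonneg _, hy.2⟩⟩
  have a1 : (130000 * s ^ 2 - 2 * 0 ^ 2 - 7000 * (min l (4 * s)) ^ 2) / (s / 32) ^ 2 ≤
      133120000 := by
    rw [div_le_iff₀ (by positivity)]
    nlinarith [sq_nonneg (min l (4 * s))]
  unfold bud C1
  linarith

end Vale.Agent.P208
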