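import Vale.Agent.P208.CvBasic

open scoped Classical InnerProductSpace

namespace Vale.Agent.P208

variable {H : Type} [NormedAddCommGroup H] [InnerProductSpace ℝ H]

theorem Sys.g_pos {Y : Sys H} (hY : Y.OK) (n : ℕ) : 0 < Y.g n := by
  have h1 := (hY.1 n).1
  have h2 := hY.2.2.1 n
  unfold Sys.g
  positivity

theorem Sys.L_pos {Y : Sys H} (hY : Y.OK) (n : ℕ) : 0 < Y.l n * Y.al n :=
  mul_pos (hY.1 n).1 (hY.2.2.1 n)

theorem Sys.Z_sub {Y : Sys H} (hY : Y.OK) (n a : ℕ) : Y.Z n a ⊆ Y.U n :=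
  ((hY.1 n).2.2.2.1 a).2.1

theorem Sys.U_norm {Y : Sys H} (hY : Y.OK) {n : ℕ} {x : H} (hx : x ∈ Y.U n) :
    ‖Y.al n • x‖ ≤ Y.l n * Y.al n := by
  rw [norm_smul, Real.norm_eq_abs, abs_of_pos (hY.2.2.1 n), mul_comm]
  exact mul_le_mul_of_nonneg_right ((hY.1 n).2.2.2.2.1 x hx) (hY.2.2.1 n).le

theorem Sys.line_mono {Y : Sys H} {n : ℕ} {t1 t2 s1 s2 : ℝ} {y : H} (h : Y.Line n t1 t2 y)
    (h1 : t1 ≤ s1) (h2 : s2 ≤ t2) : Y.Line n s1 s2 y := by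
  induction n generalizing y with
  | zero => exact ⟨h.1.trans h1, h.2⟩
  | succ n ih =>
    obtain ⟨y0, a, x, b1, b2, b3, b4, b5⟩ := h
    exact ⟨y0, a, x, ih b1, b2.trans h1, h2.trans b3, b4, b5⟩

theorem Sys.line_nonneg {Y : Sys H} {n : ℕ} {t1 t2 : ℝ} {y : H} (h : Y.Line n t1 t2 y) :
    0 ≤ t1 := by
  induction n generalizing y with
  | zero => exact h.1
  | succ n ih =>
    obtain ⟨y0, a, x, b1, -⟩ := h
    exact ih b1

theorem Sys.line_succ {Y : Sys H} (hY : Y.OK) {n a : ℕ} {t1 t2 : ℝ} {y : H}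
    (h : Y.Line n t1 t2 y) (h1 : a * Y.g n ≤ t1) (h2 : t2 ≤ (a + 1) * Y.g n) :
    Y.Line (n + 1) t1 t2 y := by
  exact ⟨y, a, 0, h, h1, h2, ((hY.1 n).2.2.2.1 _).1, by simp⟩

theorem Sys.line_pt_succ {Y : Sys H} (hY : Y.OK) {n : ℕ} {t : ℝ} {y : H}
    (h : Y.Line n t t y) : Y.Line (n + 1) t t y := by
  have hg := Sys.g_pos hY n
  have h0 : 0 ≤ t / Y.g n := div_nonneg (Sys.line_nonneg h) hg.le
  refine Sys.line_succ hY (a := ⌊t / Y.g n⌋₊) h ?_ ?_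
  · exact (le_div_iff₀ hg).1 (Nat.floor_le h0)
  · exact (div_le_iff₀ hg).1 (Nat.lt_floor_add_one _).le

theorem Sys.line_A {Y : Sys H} (hY : Y.OK) {n : ℕ} {t1 t2 : ℝ} {y : H} (h : Y.Line n t1 t2 y) :
    Y.A n y := by
  induction n generalizing y with
  | zero => exact h.2
  | succ n ih =>
    obtain ⟨y0, a, x, b1, -, -, b4, b5⟩ := h
    exact ⟨y0, x, ih b1, Sys.Z_sub hY n _ b4, b5⟩

theorem Sys.A_sep {Y : Sys H} (hY : Y.OK) {n : ℕ} {y y' : H} (h : Y.A n y) (h' : Y.A n y')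
    (hne : y ≠ y') : 90 * (Y.l n * Y.al n) ≤ ‖y - y'‖ := by
  induction n generalizing y y' with
  | zero => exact absurd (h.trans h'.symm) hne
  | succ n ih =>
    obtain ⟨y0, x, b1, b2, rfl⟩ := h
    obtain ⟨y0', x', b1', b2', rfl⟩ := h'
    have c1 := hY.2.2.2.2.2.1 n
    have c2 := hY.2.2.2.2.2.2 n
    have c3 := Sys.L_pos hY (n + 1)
    have c4 := hY.2.2.1 n
    by_cases e : y0 = y0'
    · subst e
      have hx : x ≠ x' := fun e => hne (by rw [e])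
      have c5 := (hY.1 n).2.2.2.2.2.1 x b2 x' b2' hx
      rw [add_sub_add_left_eq_sub, ← smul_sub, norm_smul, Real.norm_eq_abs, abs_of_pos c4]
      nlinarith
    · have c5 := ih b1 b1' e
      have c6 := Sys.U_norm hY b2
      have c7 := Sys.U_norm hY b2'
      have c8 : y0 - y0' =
          (y0 + Y.al n • x - (y0' + Y.al n • x')) + (Y.al n • x' - Y.al n • x) := by abel
      have c9 := norm_add_le (y0 + Y.al n • x - (y0' + Y.al n • x')) (Y.al n • x' - Y.al n • x)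
      have c10 := norm_sub_le (Y.al n • x') (Y.al n • x)
      rw [← c8] at c9
      linarith

theorem Sys.line_pt_add {Y : Sys H} (hY : Y.OK) {n : ℕ} {t : ℝ} {y : H}
    (h : Y.Line n t t y) (k : ℕ) : Y.Line (n + k) t t y := by
  induction k with
  | zero => exact h
  | succ k ih => exact Sys.line_pt_succ hY ih

theorem Sys.decomp_aux {Y : Sys H} (hY : Y.OK) {t : ℝ} (n k : ℕ) {y : H}
    (h : Y.Line (n + 1 + k) t t y) :
    ∃ (y0 : H) (a : ℕ) (x : H), Y.A n y0 ∧ a * Y.g n ≤ t ∧ t ≤ (a + 1) * Y.g n ∧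
      x ∈ Y.Z n (a % Y.T n) ∧ ‖y - (y0 + Y.al n • x)‖ ≤ 2 * (Y.l (n + 1) * Y.al (n + 1)) -
        2 * (Y.l (n + 1 + k) * Y.al (n + 1 + k)) := by
  induction k generalizing y with
  | zero =>
    obtain ⟨y0, a, x, b1, b2, b3, b4, b5⟩ := h
    exact ⟨y0, a, x, Sys.line_A hY b1, b2, b3, b4, by simp [b5]⟩
  | succ k ih =>
    obtain ⟨y1, a1, x1, b1, -, -, b4, rfl⟩ := h
    obtain ⟨y0, a, x, c1, c2, c3, c4, c5⟩ := ih b1
    refine ⟨y0, a, x, c1, c2, c3, c4, ?_⟩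
    have d1 := Sys.U_norm hY (n := n + 1 + k) (Sys.Z_sub hY _ _ b4)
    have d2 := hY.2.2.2.2.2.2 (n + 1 + k)
    have d3 := Sys.L_pos hY (n + 1 + k + 1)
    have d4 := norm_add_le (y1 - (y0 + Y.al n • x)) (Y.al (n + 1 + k) • x1)
    show ‖y1 + Y.al (n + 1 + k) • x1 - _‖ ≤ _
    rw [← add_assoc, add_sub_right_comm]
    linarith

theorem Sys.decomp {Y : Sys H} (hY : Y.OK) {t : ℝ} {y : H} (h : Y.Mem t y) (n : ℕ) :
    ∃ (y0 : H) (a : ℕ) (x : H), Y.A n y0 ∧ a * Y.g n ≤ t ∧ t ≤ (a + 1) * Y.g n ∧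
      x ∈ Y.Z n (a % Y.T n) ∧ ‖y - (y0 + Y.al n • x)‖ ≤ 2 * (Y.l (n + 1) * Y.al (n + 1)) := by
  obtain ⟨m, hm⟩ := h
  have h1 := Sys.line_pt_add hY hm (n + 1)
  rw [add_comm] at h1
  obtain ⟨y0, a, x, c1, c2, c3, c4, c5⟩ := Sys.decomp_aux hY n m h1
  have := Sys.L_pos hY (n + 1 + m)
  exact ⟨y0, a, x, c1, c2, c3, c4, by linarith⟩

theorem Sys.mem_norm {Y : Sys H} (hY : Y.OK) {t : ℝ} {y : H} (h : Y.Mem t y) :
    ‖y‖ ≤ 2 * (Y.l 0 * Y.al 0) := by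
  obtain ⟨m, hm⟩ := h
  have key : ∀ (m : ℕ) (y : H), Y.Line m t t y →
      ‖y‖ ≤ 2 * (Y.l 0 * Y.al 0) - 2 * (Y.l m * Y.al m) := by
    intro m
    induction m with
    | zero => intro y hy; simp [hy.2]
    | succ m ih =>
      rintro y ⟨y1, a1, x1, b1, -, -, b4, rfl⟩
      have d0 := ih y1 b1
      have d1 := Sys.U_norm hY (Sys.Z_sub hY _ _ b4)
      have d2 := hY.2.2.2.2.2.2 m
      have d3 := Sys.L_pos hY (m + 1)
      have d4 := norm_add_le y1 (Y.al m • x1)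
      linarith
  have := key m y hm
  have := Sys.L_pos hY m
  linarith

theorem Sys.scale {Y : Sys H} (hY : Y.OK) {s : ℝ} (hs : 0 < s) (h0 : s < 20 * (Y.l 0 * Y.al 0)) :
    ∃ n, 20 * (Y.l (n + 1) * Y.al (n + 1)) ≤ s ∧ s < 20 * (Y.l n * Y.al n) := by
  have key : ∀ n : ℕ, Y.l n * Y.al n ≤ (1 / 100) ^ n * (Y.l 0 * Y.al 0) := by
    intro n
    induction n with
    | zero => simp
    | succ n ih =>
      have d2 := hY.2.2.2.2.2.2 n
      rw [pow_succ]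
      linarith
  have hL := Sys.L_pos hY 0
  obtain ⟨N, hN⟩ := exists_pow_lt_of_lt_one (x := s / (20 * (Y.l 0 * Y.al 0))) (y := (1 / 100 : ℝ))
    (by positivity) (by norm_num)
  have hex : ∃ n, 20 * (Y.l (n + 1) * Y.al (n + 1)) ≤ s := by
    refine ⟨N, ?_⟩
    rw [lt_div_iff₀ (by positivity)] at hN
    have d1 := key N
    have d2 := hY.2.2.2.2.2.2 N
    have d3 := Sys.L_pos hY (N + 1)
    linarith
  refine ⟨Nat.find hex, Nat.find_spec hex, ?_⟩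
  rcases Nat.eq_zero_or_pos (Nat.find hex) with e | e
  · rw [e]; exact h0
  · have := Nat.find_min hex (Nat.sub_lt e one_pos)
    rw [Nat.sub_add_cancel (show 1 ≤ Nat.find hex from e)] at this
    exact not_le.1 this

end Vale.Agent.P208
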