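import Vale.Agent.P208.Game
import Vale.Agent.P208.Compact
import Vale.Agent.P208.Mux

open scoped Classical InnerProductSpace

namespace Vale.Agent.P208

variable {H : Type} [NormedAddCommGroup H] [InnerProductSpace ℝ H]

theorem gadget_exists (hF : HasFresh H) (k D : ℕ) :
    ∃ (U : Finset H) (l sep : ℝ) (T : ℕ) (Z : ℕ → Finset H), Gadget k D U l sep T Z := by
  obtain ⟨t, h0, hg, hw⟩ := game (V := EuclideanSpace ℝ (Fin k)) (k := k)
    (finrank_euclideanSpace_fin).le hF (D : ℝ)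
  obtain ⟨ε, hε, hne⟩ := compact_eps hg h0 hw
  have hl0 : 0 < 1 + ∑ x ∈ t.pts, ‖x‖ := by positivity
  have hl : ∀ x ∈ t.pts, ‖x‖ ≤ 1 + ∑ x ∈ t.pts, ‖x‖ := fun x hx => by
    have := Finset.single_le_sum (f := fun x : H => ‖x‖) (fun _ _ => norm_nonneg _) hx
    linarith
  obtain ⟨sep, hsep, hs⟩ : ∃ sep : ℝ, 0 < sep ∧
      ∀ x ∈ t.pts, ∀ y ∈ t.pts, x ≠ y → sep ≤ ‖x - y‖ := by
    obtain ⟨c, hc, h⟩ := ((t.pts ×ˢ t.pts).filter fun z : H × H => z.1 ≠ z.2).finite_toSet.isCompact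
      |>.exists_forall_le' (f := fun z : H × H => ‖z.1 - z.2‖) (a := 0) (by fun_prop)
      fun z hz => norm_pos_iff.2 (sub_ne_zero.2 (Finset.mem_filter.1 hz).2)
    exact ⟨c, hc, fun x hx y hy hxy =>
      h (x, y) (Finset.mem_filter.2 ⟨Finset.mem_product.2 ⟨hx, hy⟩, hxy⟩)⟩
  obtain ⟨T, Z, hT, hZ, hM⟩ := multiplex (V := EuclideanSpace ℝ (Fin k)) (D := (D : ℝ))
    (U0 := D * (40 * (1 + ∑ x ∈ t.pts, ‖x‖))) (Nat.cast_nonneg D) hε (by positivity) hl0.le t hg h0 hl
  refine ⟨t.pts, _, sep, T, Z, hl0, hsep, hT, fun a => ⟨(hZ a).1 h0, (hZ a).2.1, (hZ a).2.2⟩, hl, hs,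
    fun F u S hu hW => ?_⟩
  obtain ⟨a, -, ha⟩ := hM F u S hu hW
  exact hne _ (sub_self _) ha

theorem sys_exists (hF : HasFresh H) : ∃ Y : Sys H, Y.OK := by
  choose U l sep T Z h using gadget_exists hF
  let l' : ℕ → ℝ := fun n => l (ty n).1 (ty n).2
  let s' : ℕ → ℝ := fun n => sep (ty n).1 (ty n).2
  let T' : ℕ → ℕ := fun n => T (ty n).1 (ty n).2
  have hl : ∀ n, 0 < l' n := fun n => (h _ _).1
  have hs : ∀ n, 0 < s' n := fun n => (h _ _).2.1
  have hT : ∀ n, (1 : ℝ) ≤ T' n := fun n => by exact_mod_cast (h (ty n).1 (ty n).2).2.2.1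
  let R : ℕ → ℕ := fun n => ⌈100 + 100 * l' n / s' n⌉₊
  have hR : ∀ n, 100 + 100 * l' n / s' n ≤ (R n : ℝ) := fun n => Nat.le_ceil _
  have hq : ∀ n, 0 < 100 * l' n / s' n := fun n => by have := hl n; have := hs n; positivity
  have hR0 : ∀ n, (0 : ℝ) < R n := fun n => by linarith [hR n, hq n]
  let al : ℕ → ℝ := fun n => Nat.rec 1 (fun n a => l' n * a / (R n * T' (n + 1) * l' (n + 1))) n
  have hal : ∀ n, al (n + 1) = l' n * al n / (R n * T' (n + 1) * l' (n + 1)) := fun n => rfl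
  have hpos : ∀ n, 0 < al n := fun n => by
    induction n with
    | zero => exact one_pos
    | succ n ih =>
      rw [hal]
      have := hl n; have := hl (n + 1); have := hR0 n; have := hT (n + 1)
      positivity
  have key : ∀ n, (R n : ℝ) * T' (n + 1) * (l' (n + 1) * al (n + 1)) = l' n * al n := fun n => by
    rw [hal]
    have := hl (n + 1); have := hR0 n; have h1 : (0 : ℝ) < T' (n + 1) := by linarith [hT (n + 1)]
    field_simp
  have key2 : ∀ n, (R n : ℝ) * (l' (n + 1) * al (n + 1)) ≤ l' n * al n := fun n => by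
    rw [← key n]
    have := mul_pos (hR0 n) (mul_pos (hl (n + 1)) (hpos (n + 1)))
    nlinarith [hT (n + 1)]
  refine ⟨⟨fun n => U (ty n).1 (ty n).2, l', s', T', fun n => Z (ty n).1 (ty n).2, al, R⟩,
    fun n => h _ _, fun n m e => ?_, hpos, fun n => by exact_mod_cast hR0 n, fun n => ?_,
    fun n => ?_, fun n => ?_⟩
  · simp only [T', l', e, and_self]
  · simp only [Sys.g]
    linarith [key n]
  · have h1 := mul_pos (hl (n + 1)) (hpos (n + 1))
    have h2 : 100 * l' n / s' n * (l' (n + 1) * al (n + 1)) ≤ l' n * al n :=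
      le_trans (mul_le_mul_of_nonneg_right (by linarith [hR n]) h1.le) (key2 n)
    rw [div_mul_eq_mul_div, div_le_iff₀ (hs n)] at h2
    show 100 * (l' (n + 1) * al (n + 1)) ≤ s' n * al n
    exact le_of_mul_le_mul_left (by linarith) (hl n)
  · have h1 := mul_pos (hl (n + 1)) (hpos (n + 1))
    exact le_trans (mul_le_mul_of_nonneg_right (by linarith [hR n, hq n]) h1.le) (key2 n)

end Vale.Agent.P208
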