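import Vale.Agent.P208.Descend

open scoped Classical InnerProductSpace

namespace Vale.Agent.P208

variable {H : Type} [NormedAddCommGroup H] [InnerProductSpace ℝ H]

theorem windowOf_bilip {V : Type} [NormedAddCommGroup V] [InnerProductSpace ℝ V] {D al : ℝ}
    (hal : 0 < al) {Z : Finset H} {y : H} {G : H → V}
    (h : ∀ x ∈ Z, ∀ x' ∈ Z, ‖(y + al • x) - (y + al • x')‖ ≤ ‖G (y + al • x) - G (y + al • x')‖ ∧
      ‖G (y + al • x) - G (y + al • x')‖ ≤ D * ‖(y + al • x) - (y + al • x')‖) :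
    BiLip D Z fun x => al⁻¹ • G (y + al • x) := by
  intro x hx x' hx'
  obtain ⟨h1, h2⟩ := h x hx x' hx'
  rw [add_sub_add_left_eq_sub, ← smul_sub, norm_smul, Real.norm_of_nonneg hal.le] at h1 h2
  simp only [← smul_sub, norm_smul, Real.norm_of_nonneg (inv_pos.mpr hal).le]
  constructor
  · rw [le_inv_mul_iff₀ hal]; exact h1
  · rw [inv_mul_le_iff₀ hal]; linarith

theorem Sys.window_false {Y : Sys H} (hY : Y.OK) {k D n b : ℕ} (hn : ty n = (k, D))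
    (F : ℝ → H → EuclideanSpace ℝ (Fin k))
    (hT : ∀ t t' y, Y.Mem t y → Y.Mem t' y → ‖F t y - F t' y‖ ≤ D * |t - t'|)
    (hX : ∀ t y y', Y.Mem t y → Y.Mem t y' →
      ‖y - y'‖ ≤ ‖F t y - F t y'‖ ∧ ‖F t y - F t y'‖ ≤ D * ‖y - y'‖)
    {y : H} {S γ : ℝ}
    (hy : Y.Line n (b * (Y.T n * Y.g n)) ((b + 1) * (Y.T n * Y.g n)) y)
    (hS : ∀ a y', Y.Step n a y' → (Y.val F n a y') ^ 2 ≤ S)
    (hnear : (S - γ) * (Y.T n * Y.g n) ^ 2 ≤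
      ‖F ((b + 1) * (Y.T n * Y.g n)) y - F (b * (Y.T n * Y.g n)) y‖ ^ 2)
    (hγ : γ * (Y.T n * (40 * Y.l n) ^ 2) ≤ 1) : False := by
  have hG := hY.1 n
  rw [hn] at hG
  obtain ⟨hl, -, hT0, -, -, -, hW⟩ := hG
  have hg := Sys.g_pos hY n
  have hal := hY.2.2.1 n
  have hTr : (0 : ℝ) < Y.T n := by exact_mod_cast hT0
  have hge : Y.g n = 40 * Y.l n * Y.al n := rfl
  have hstep : ∀ a < Y.T n, ∀ x ∈ Y.Z n a, Y.Step n (b * Y.T n + a) (y + Y.al n • x) := by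
    intro a ha x hx
    have ha' : (a : ℝ) + 1 ≤ Y.T n := by exact_mod_cast ha
    have ha0 : (0 : ℝ) ≤ a := Nat.cast_nonneg a
    refine ⟨y, b * Y.T n + a, x, Sys.line_mono hy ?_ ?_, le_rfl, le_rfl, ?_, rfl⟩
    · push_cast; nlinarith
    · push_cast; nlinarith
    · rw [Nat.mul_add_mod_self_right, Nat.mod_eq_of_lt ha]; exact hx
  have hm1 : ∀ a < Y.T n, ∀ x ∈ Y.Z n a,
      Y.Mem (((b * Y.T n + a : ℕ) : ℝ) * Y.g n) (y + Y.al n • x) := fun a ha x hx =>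
    ⟨n + 1, Sys.line_mono (hstep a ha x hx) le_rfl (by nlinarith)⟩
  have hm2 : ∀ a < Y.T n, ∀ x ∈ Y.Z n a,
      Y.Mem (((b * Y.T n + (a + 1) : ℕ) : ℝ) * Y.g n) (y + Y.al n • x) := fun a ha x hx =>
    ⟨n + 1, Sys.line_mono (hstep a ha x hx) (by push_cast; nlinarith) (by push_cast; nlinarith)⟩
  have hTg : 0 < (Y.T n : ℝ) * Y.g n := mul_pos hTr hg
  have hy1 : Y.Mem (b * (Y.T n * Y.g n)) y := ⟨n, Sys.line_mono hy le_rfl (by linarith)⟩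
  have hy2 : Y.Mem ((b + 1) * (Y.T n * Y.g n)) y := ⟨n, Sys.line_mono hy (by linarith) le_rfl⟩
  obtain ⟨w, hw⟩ : ∃ w, w = F ((b + 1) * (Y.T n * Y.g n)) y - F (b * (Y.T n * Y.g n)) y :=
    ⟨_, rfl⟩
  have hwD : ‖w‖ ≤ D * (Y.T n * Y.g n) := by
    have := hT _ _ y hy2 hy1
    rw [show ((b : ℝ) + 1) * (Y.T n * Y.g n) - b * (Y.T n * Y.g n) = Y.T n * Y.g n by ring,
      abs_of_pos hTg] at this
    rw [hw]; exact this
  rw [← hw] at hnear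
  have hc : 0 < ((Y.T n : ℝ) * Y.al n)⁻¹ := inv_pos.mpr (mul_pos hTr hal)
  have hnu : ‖((Y.T n : ℝ) * Y.al n)⁻¹ • w‖ = ((Y.T n : ℝ) * Y.al n)⁻¹ * ‖w‖ := by
    rw [norm_smul, Real.norm_of_nonneg hc.le]
  refine hW (fun a x => (Y.al n)⁻¹ • F (((b * Y.T n + a : ℕ) : ℝ) * Y.g n) (y + Y.al n • x))
    (((Y.T n : ℝ) * Y.al n)⁻¹ • w) (S * (40 * Y.l n) ^ 2) ?_ ⟨fun a ha => ⟨?_, ?_⟩, ?_, ?_⟩
  · rw [hnu, inv_mul_le_iff₀ (mul_pos hTr hal)]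
    rw [hge] at hwD
    exact hwD.trans (le_of_eq (by ring))
  · exact windowOf_bilip hal fun x hx x' hx' => hX _ _ _ (hm1 a ha x hx) (hm1 a ha x' hx')
  · exact windowOf_bilip hal fun x hx x' hx' => hX _ _ _ (hm2 a ha x hx) (hm2 a ha x' hx')
  · intro a ha x hx
    have h1 := hS _ _ (hstep a ha x hx)
    unfold Sys.val at h1
    have e : ((b * Y.T n + (a + 1) : ℕ) : ℝ) = ((b * Y.T n + a : ℕ) : ℝ) + 1 := by
      push_cast; ring
    simp only [e]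
    rw [← smul_sub, norm_smul, Real.norm_of_nonneg (inv_pos.mpr hal).le]
    refine le_trans (le_of_eq ?_) (mul_le_mul_of_nonneg_right h1 (sq_nonneg (40 * Y.l n)))
    generalize ‖F ((((b * Y.T n + a : ℕ) : ℝ) + 1) * Y.g n) (y + Y.al n • x) -
      F (((b * Y.T n + a : ℕ) : ℝ) * Y.g n) (y + Y.al n • x)‖ = r
    rw [hge]
    field_simp
  · rw [Finset.sum_sub_distrib, ← Finset.mul_sum, ← sum_inner, Finset.sum_range_sub
      (fun a => (Y.al n)⁻¹ • F (((b * Y.T n + a : ℕ) : ℝ) * Y.g n) (y + Y.al n • (0 : H)))]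
    have e1 : ((b * Y.T n + Y.T n : ℕ) : ℝ) * Y.g n = (b + 1) * (Y.T n * Y.g n) := by
      push_cast; ring
    have e2 : ((b * Y.T n + 0 : ℕ) : ℝ) * Y.g n = b * (Y.T n * Y.g n) := by
      push_cast; ring
    rw [e1, e2, smul_zero, add_zero, ← smul_sub, ← hw, real_inner_smul_left,
      real_inner_smul_right, real_inner_self_eq_norm_sq, hnu, Finset.sum_const, Finset.card_range,
      nsmul_eq_mul]
    have e3 : (Y.T n : ℝ) * (S * (40 * Y.l n) ^ 2 + (((Y.T n : ℝ) * Y.al n)⁻¹ * ‖w‖) ^ 2) -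
        2 * ((Y.al n)⁻¹ * (((Y.T n : ℝ) * Y.al n)⁻¹ * ‖w‖ ^ 2)) =
        Y.T n * (S * (40 * Y.l n) ^ 2) - (Y.T n * Y.al n ^ 2)⁻¹ * ‖w‖ ^ 2 := by
      field_simp
      ring
    have e4 : ((Y.T n : ℝ) * Y.al n ^ 2)⁻¹ * ((S - γ) * (Y.T n * Y.g n) ^ 2) =
        (S - γ) * (Y.T n * (40 * Y.l n) ^ 2) := by
      rw [hge]
      field_simp
    have h5 := mul_le_mul_of_nonneg_left hnear
      (show 0 ≤ ((Y.T n : ℝ) * Y.al n ^ 2)⁻¹ by positivity)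
    rw [e3]
    rw [e4] at h5
    linarith

end Vale.Agent.P208
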